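import Vale.Agent.P333.AmpDefs

set_option autoImplicit false

namespace Vale.Agent.P333

open Finset

section Cyc

variable {α : Type} [Fintype α]

/-- number of changes of `u` along the permutation `R` -/
def cyc (R : Equiv.Perm α) (u : α → Bool) : ℕ := (univ.filter fun i => u i ≠ u (R i)).card

/-- number of descents of `u` along the permutation `R` -/
def desc (R : Equiv.Perm α) (u : α → Bool) : ℕ :=
  (univ.filter fun i => u i = true ∧ u (R i) = false).card

lemma cyc_eq (R : Equiv.Perm α) (u : α → Bool) : cyc R u = 2 * desc R u := by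
  classical
  have h1 : (univ.filter fun i => u i = true).card
      = (univ.filter fun i => u (R i) = true).card := by
    symm
    apply Finset.card_bij (fun i _ => R i)
    · intro a ha
      simpa using ha
    · intro a _ b _ h
      exact R.injective h
    · intro b hb
      refine ⟨R.symm b, ?_, by simp⟩
      simpa using hb
  have h2 : (univ.filter fun i => u i = true).card
      = (univ.filter fun i => u i = true ∧ u (R i) = true).card
        + (univ.filter fun i => u i = true ∧ u (R i) = false).card := by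
    rw [← Finset.card_union_of_disjoint]
    · congr 1
      ext i
      cases h : u i <;> cases h' : u (R i) <;> simp [h, h']
    · rw [Finset.disjoint_filter]
      intro i _ h h'
      rw [h.2] at h'
      simp at h'
  have h3 : (univ.filter fun i => u (R i) = true).card
      = (univ.filter fun i => u i = true ∧ u (R i) = true).card
        + (univ.filter fun i => u i = false ∧ u (R i) = true).card := by
    rw [← Finset.card_union_of_disjoint]
    · congr 1
      ext i
      cases h : u i <;> cases h' : u (R i) <;> simp [h, h']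
    · rw [Finset.disjoint_filter]
      intro i _ h h'
      rw [h.1] at h'
      simp at h'
  have h4 : cyc R u = (univ.filter fun i => u i = true ∧ u (R i) = false).card
        + (univ.filter fun i => u i = false ∧ u (R i) = true).card := by
    unfold cyc
    rw [← Finset.card_union_of_disjoint]
    · congr 1
      ext i
      cases h : u i <;> cases h' : u (R i) <;> simp [h, h']
    · rw [Finset.disjoint_filter]
      intro i _ h h'
      rw [h.1] at h'
      simp at h'
  unfold desc
  omega

end Cyc

section Runs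

variable {N : ℕ}

lemma runs_le (u : Fin N → Bool) : runs u ≤ desc (finRotate N) u + 1 := by
  rcases N with _ | n
  · simp [runs]
  unfold runs desc
  have hsub : (univ.filter fun i : Fin (n+1) => u i = true ∧ ∀ j : Fin (n+1), (j : ℕ) = i + 1 → u j = false)
      ⊆ insert (Fin.last n) (univ.filter fun i => u i = true ∧ u (finRotate (n+1) i) = false) := by
    intro i hi
    rw [Finset.mem_filter] at hi
    rw [Finset.mem_insert]
    by_cases hl : i = Fin.last n
    · exact Or.inl hl
    · right
      rw [Finset.mem_filter]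
      refine ⟨mem_univ _, hi.2.1, hi.2.2 _ ?_⟩
      exact coe_finRotate_of_ne_last hl
  calc _ ≤ _ := Finset.card_le_card hsub
    _ ≤ _ := Finset.card_insert_le _ _

lemma two_runs_le (u : Fin N → Bool) : 2 * runs u ≤ cyc (finRotate N) u + 2 := by
  have := runs_le u
  have := cyc_eq (finRotate N) u
  omega

end Runs

section Count

variable {N : ℕ}

/-- the cycle with order `s` -/
def ordOf (s : Equiv.Perm (Fin N)) : Equiv.Perm (Fin N) := s * finRotate N * s⁻¹

lemma ordOf_mul (t s : Equiv.Perm (Fin N)) : ordOf (t * s) = t * ordOf s * t⁻¹ := by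
  unfold ordOf
  group

lemma ordOf_sameCycle (s : Equiv.Perm (Fin N)) (x y : Fin N) : (ordOf s).SameCycle x y := by
  unfold ordOf
  rw [Equiv.Perm.sameCycle_conj]
  rcases N with _ | _ | n
  · exact x.elim0
  · rw [show s⁻¹ x = s⁻¹ y from Subsingleton.elim (α := Fin 1) _ _]
  · apply isCycle_finRotate.sameCycle
    · rw [← Equiv.Perm.mem_support, support_finRotate]; simp
    · rw [← Equiv.Perm.mem_support, support_finRotate]; simp

lemma ordOf_ne (hN : 2 ≤ N) (s : Equiv.Perm (Fin N)) (x : Fin N) : ordOf s x ≠ x := by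
  obtain ⟨n, rfl⟩ : ∃ n, N = n + 2 := ⟨N - 2, by omega⟩
  unfold ordOf
  intro h
  have h1 : finRotate (n + 2) (s⁻¹ x) = s⁻¹ x := by
    have : s (finRotate (n+2) (s⁻¹ x)) = x := h
    rw [← Equiv.Perm.eq_inv_iff_eq] at this
    exact this
  have h2 : s⁻¹ x ∈ (finRotate (n+2)).support := by rw [support_finRotate]; simp
  rw [Equiv.Perm.mem_support] at h2
  exact h2 h1

/-- number of permutations with a given coincidence -/
def coin (x y : Fin N) : Finset (Equiv.Perm (Fin N)) := univ.filter fun s => ordOf s x = y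

lemma card_coin_eq (x y y' : Fin N) (hy : x ≠ y) (hy' : x ≠ y') :
    (coin x y).card = (coin x y').card := by
  unfold coin
  have hsw : Equiv.swap y y' x = x := Equiv.swap_apply_of_ne_of_ne hy hy'
  apply Finset.card_bij (fun s _ => Equiv.swap y y' * s)
  · intro s hs
    rw [Finset.mem_filter] at hs ⊢
    refine ⟨mem_univ _, ?_⟩
    rw [ordOf_mul, Equiv.Perm.mul_apply, Equiv.Perm.mul_apply, Equiv.swap_inv, hsw, hs.2,
      Equiv.swap_apply_left]
  · intro a _ b _ h
    exact mul_left_cancel h
  · intro s hs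
    rw [Finset.mem_filter] at hs
    refine ⟨Equiv.swap y y' * s, ?_, ?_⟩
    · rw [Finset.mem_filter]
      refine ⟨mem_univ _, ?_⟩
      rw [ordOf_mul, Equiv.Perm.mul_apply, Equiv.Perm.mul_apply, Equiv.swap_inv, hsw, hs.2,
        Equiv.swap_apply_right]
    · rw [← mul_assoc, Equiv.swap_mul_self, one_mul]

lemma card_coin (hN : 2 ≤ N) (x y : Fin N) (hxy : x ≠ y) :
    (N - 1) * (coin x y).card = N.factorial := by
  have h1 : ∑ y' ∈ univ.erase x, (coin x y').card = N.factorial := by
    rw [← Finset.card_biUnion]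
    · have : (univ.erase x).biUnion (fun y' => coin x y') = (univ : Finset (Equiv.Perm (Fin N))) := by
        ext s
        simp only [mem_biUnion, mem_erase, mem_univ, and_true, coin, mem_filter, true_and, iff_true]
        exact ⟨_, ordOf_ne hN s x, rfl⟩
      rw [this, Finset.card_univ, Fintype.card_perm, Fintype.card_fin]
    · intro a _ b _ hab
      rw [Function.onFun, Finset.disjoint_left]
      intro s hs hs'
      rw [coin, mem_filter] at hs hs'
      exact hab (hs.2.symm.trans hs'.2)
  rw [← h1, Finset.sum_congr rfl (fun y' hy' => card_coin_eq x y' y (Finset.ne_of_mem_erase hy').symm hxy),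
    Finset.sum_const, Finset.card_erase_of_mem (mem_univ _), Finset.card_univ, Fintype.card_fin,
    smul_eq_mul]

/-- permutations carrying `u` to `W` -/
def carry (u W : Fin N → Bool) : Finset (Equiv.Perm (Fin N)) := univ.filter fun s => u ∘ s = W

lemma ones_comp (u : Fin N → Bool) (s : Equiv.Perm (Fin N)) : ones (u ∘ s) = ones u := by
  unfold ones
  apply Finset.card_bij (fun i _ => s i)
  · intro a ha
    simpa using ha
  · intro a _ b _ h
    exact s.injective h
  · intro b hb
    refine ⟨s.symm b, ?_, by simp⟩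
    simpa using hb

lemma exists_perm_of_ones (W W' : Fin N → Bool) (h : ones W = ones W') :
    ∃ t : Equiv.Perm (Fin N), W ∘ t = W' := by
  have e1 : Fintype.card {i // W i = true} = Fintype.card {i // W' i = true} := by
    rw [Fintype.card_subtype, Fintype.card_subtype]; exact h
  have e : {i // W' i = true} ≃ {i // W i = true} := Fintype.equivOfCardEq e1.symm
  refine ⟨e.extendSubtype, ?_⟩
  funext i
  show W (e.extendSubtype i) = W' i
  by_cases hi : W' i = true
  · rw [hi]
    exact e.extendSubtype_mem i hi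
  · have := e.extendSubtype_not_mem i hi
    rw [Bool.not_eq_true] at this hi
    rw [this, hi]

lemma card_carry_eq (u W W' : Fin N → Bool) (h : ones W = ones W') :
    (carry u W).card = (carry u W').card := by
  obtain ⟨t, ht⟩ := exists_perm_of_ones W W' h
  unfold carry
  apply Finset.card_bij (fun s _ => s * t)
  · intro s hs
    rw [Finset.mem_filter] at hs ⊢
    refine ⟨mem_univ _, ?_⟩
    rw [← ht, ← hs.2]
    rfl
  · intro a _ b _ h
    exact mul_right_cancel h
  · intro s hs
    rw [Finset.mem_filter] at hs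
    refine ⟨s * t⁻¹, ?_, by simp⟩
    rw [Finset.mem_filter]
    refine ⟨mem_univ _, ?_⟩
    have : u ∘ (s * t⁻¹ : Equiv.Perm (Fin N)) = (u ∘ s) ∘ (t⁻¹ : Equiv.Perm (Fin N)) := rfl
    rw [this, hs.2, ← ht]
    funext i
    simp

lemma card_ones (k : ℕ) : (univ.filter fun W : Fin N → Bool => ones W = k).card = N.choose k := by
  have h : (univ.filter fun W : Fin N → Bool => ones W = k).card
      = (Finset.powersetCard k (univ : Finset (Fin N))).card := by
    apply Finset.card_bij (fun W _ => univ.filter fun i => W i = true)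
    · intro W hW
      rw [Finset.mem_filter] at hW
      rw [Finset.mem_powersetCard]
      exact ⟨Finset.subset_univ _, hW.2⟩
    · intro W _ W' _ h
      funext i
      have := Finset.ext_iff.1 h i
      simp only [mem_filter, mem_univ, true_and] at this
      cases h1 : W i <;> cases h2 : W' i <;> simp_all
    · intro S hS
      rw [Finset.mem_powersetCard] at hS
      refine ⟨fun i => decide (i ∈ S), ?_, ?_⟩
      · rw [Finset.mem_filter]
        refine ⟨mem_univ _, ?_⟩
        unfold ones
        rw [← hS.2]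
        congr 1
        ext i
        simp
      · ext i
        simp
  rw [h, Finset.card_powersetCard, Finset.card_univ, Fintype.card_fin]

lemma card_carry (u W : Fin N → Bool) (h : ones W = ones u) :
    N.choose (ones u) * (carry u W).card = N.factorial := by
  have h1 : ∑ W' ∈ univ.filter (fun W' : Fin N → Bool => ones W' = ones u), (carry u W').card
      = N.factorial := by
    rw [← Finset.card_biUnion]
    · have : (univ.filter (fun W' : Fin N → Bool => ones W' = ones u)).biUnion (fun W' => carry u W')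
          = (univ : Finset (Equiv.Perm (Fin N))) := by
        ext s
        simp only [mem_biUnion, mem_univ, carry, mem_filter, true_and, iff_true]
        exact ⟨_, ones_comp u s, rfl⟩
      rw [this, Finset.card_univ, Fintype.card_perm, Fintype.card_fin]
    · intro a _ b _ hab
      rw [Function.onFun, Finset.disjoint_left]
      intro s hs hs'
      rw [carry, mem_filter] at hs hs'
      exact hab (hs.2.symm.trans hs'.2)
  rw [← h1, Finset.sum_congr rfl (fun W' hW' => card_carry_eq u W' W
    ((Finset.mem_filter.1 hW').2.trans h.symm)),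
    Finset.sum_const, card_ones, smul_eq_mul]

/-- permutations for which a bad labelling exists -/
def badOrd (c : ℕ) : Finset (Equiv.Perm (Fin (5 * c))) :=
  univ.filter fun s => ∃ u : Fin (5 * c) → Bool, 2 * ones u ≤ 5 * c ∧
    (u, u ∘ s) ∈ badPairs c (ones u)

lemma card_pairs (c k : ℕ) :
    (univ.filter fun p : (Fin (5 * c) → Bool) × Equiv.Perm (Fin (5 * c)) =>
      ones p.1 = k ∧ (p.1, p.1 ∘ p.2) ∈ badPairs c k).card * (5 * c).choose k
      = (badPairs c k).card * (5 * c).factorial := by
  have h1 : (univ.filter fun p : (Fin (5 * c) → Bool) × Equiv.Perm (Fin (5 * c)) =>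
      ones p.1 = k ∧ (p.1, p.1 ∘ p.2) ∈ badPairs c k).card
      = ∑ q ∈ badPairs c k, (carry q.1 q.2).card := by
    rw [← Finset.card_sigma]
    apply Finset.card_bij' (fun p _ => (⟨(p.1, p.1 ∘ p.2), p.2⟩ :
        Σ _ : (Fin (5 * c) → Bool) × (Fin (5 * c) → Bool), Equiv.Perm (Fin (5 * c))))
      (fun q _ => (q.1.1, q.2))
    · intro p hp
      rw [Finset.mem_filter] at hp
      rw [Finset.mem_sigma]
      refine ⟨hp.2.2, ?_⟩
      rw [carry, Finset.mem_filter]
      exact ⟨mem_univ _, rfl⟩
    · intro q hq
      rw [Finset.mem_sigma] at hq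
      obtain ⟨hq1, hq2⟩ := hq
      rw [carry, Finset.mem_filter] at hq2
      rw [Finset.mem_filter]
      refine ⟨mem_univ _, ?_, ?_⟩
      · have := hq1
        rw [badPairs, Finset.mem_filter] at this
        exact this.2.1
      · show (q.1.1, q.1.1 ∘ q.2) ∈ badPairs c k
        rw [hq2.2]
        exact hq1
    · intro p hp
      rfl
    · intro q hq
      rw [Finset.mem_sigma] at hq
      obtain ⟨hq1, hq2⟩ := hq
      rw [carry, Finset.mem_filter] at hq2
      obtain ⟨⟨a, b⟩, s⟩ := q
      have h : a ∘ s = b := hq2.2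
      subst h
      rfl
  rw [h1, Finset.sum_mul, Finset.sum_congr rfl (g := fun _ => (5 * c).factorial), Finset.sum_const,
    smul_eq_mul]
  intro q hq
  rw [badPairs, Finset.mem_filter] at hq
  have h2 := card_carry q.1 q.2 (hq.2.2.1.trans hq.2.1.symm)
  rw [hq.2.1] at h2
  rw [mul_comm, h2]

lemma card_badOrd_le (c : ℕ) :
    ((badOrd c).card : ℝ) ≤ ((5 * c).factorial : ℝ) *
      ∑ k ∈ range (5 * c / 2 + 1), ((badPairs c k).card : ℝ) / ((5 * c).choose k : ℝ) := by
  have h1 : badOrd c ⊆ (range (5 * c / 2 + 1)).biUnion fun k =>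
      ((univ.filter fun p : (Fin (5 * c) → Bool) × Equiv.Perm (Fin (5 * c)) =>
      ones p.1 = k ∧ (p.1, p.1 ∘ p.2) ∈ badPairs c k)).image Prod.snd := by
    intro s hs
    rw [badOrd, Finset.mem_filter] at hs
    obtain ⟨_, u, hu, hb⟩ := hs
    rw [Finset.mem_biUnion]
    refine ⟨ones u, ?_, ?_⟩
    · rw [Finset.mem_range]; omega
    · rw [Finset.mem_image]
      refine ⟨(u, s), ?_, rfl⟩
      rw [Finset.mem_filter]
      exact ⟨mem_univ _, rfl, hb⟩
  have h2 : (badOrd c).card ≤ ∑ k ∈ range (5 * c / 2 + 1),
      (univ.filter fun p : (Fin (5 * c) → Bool) × Equiv.Perm (Fin (5 * c)) =>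
      ones p.1 = k ∧ (p.1, p.1 ∘ p.2) ∈ badPairs c k).card := by
    calc _ ≤ _ := Finset.card_le_card h1
      _ ≤ _ := Finset.card_biUnion_le
      _ ≤ _ := Finset.sum_le_sum fun k _ => Finset.card_image_le
  calc ((badOrd c).card : ℝ) ≤ ((∑ k ∈ range (5 * c / 2 + 1),
      (univ.filter fun p : (Fin (5 * c) → Bool) × Equiv.Perm (Fin (5 * c)) =>
      ones p.1 = k ∧ (p.1, p.1 ∘ p.2) ∈ badPairs c k).card : ℕ) : ℝ) := by exact_mod_cast h2
    _ = ((5 * c).factorial : ℝ) *
      ∑ k ∈ range (5 * c / 2 + 1), ((badPairs c k).card : ℝ) / ((5 * c).choose k : ℝ) := by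
      rw [Nat.cast_sum, Finset.mul_sum]
      apply Finset.sum_congr rfl
      intro k hk
      rw [Finset.mem_range] at hk
      have h3 := card_pairs c k
      have h4 : (0 : ℝ) < ((5 * c).choose k : ℝ) := by
        exact_mod_cast Nat.choose_pos (by omega)
      rw [mul_div_assoc', eq_div_iff h4.ne', mul_comm ((5 * c).factorial : ℝ)]
      exact_mod_cast h3

lemma cyc_ordOf (s : Equiv.Perm (Fin N)) (u : Fin N → Bool) :
    cyc (ordOf s) u = cyc (finRotate N) (u ∘ s) := by
  unfold cyc
  symm
  apply Finset.card_bij (fun i _ => s i)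
  · intro a ha
    rw [Finset.mem_filter] at ha ⊢
    refine ⟨mem_univ _, ?_⟩
    have h : ordOf s (s a) = s (finRotate N a) := by
      unfold ordOf
      rw [Equiv.Perm.mul_apply, Equiv.Perm.mul_apply]
      congr 2
      exact s.symm_apply_apply a
    rw [h]
    exact ha.2
  · intro a _ b _ h
    exact s.injective h
  · intro b hb
    rw [Finset.mem_filter] at hb
    refine ⟨s.symm b, ?_, by simp⟩
    rw [Finset.mem_filter]
    refine ⟨mem_univ _, ?_⟩
    have h : ordOf s b = s (finRotate N (s.symm b)) := by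
      unfold ordOf
      rw [Equiv.Perm.mul_apply, Equiv.Perm.mul_apply]
      rfl
    rw [h] at hb
    show u (s (s.symm b)) ≠ u (s (finRotate N (s.symm b)))
    rw [Equiv.apply_symm_apply]
    exact hb.2

end Count

section Elt

/-- numbering of the elements along the first cyclic order -/
def elt (c : ℕ) : Fin c × Fin 5 ≃ Fin (5 * c) := finProdFinEquiv.trans (finCongr (mul_comm c 5))

lemma elt_val (c : ℕ) (o : Fin c) (i : Fin 5) : (elt c (o, i) : ℕ) = 5 * o + i := by
  simp [elt, finProdFinEquiv, add_comm]

lemma finRotate_val {N : ℕ} (x : Fin N) :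
    (finRotate N x : ℕ) = if (x : ℕ) + 1 = N then 0 else (x : ℕ) + 1 := by
  rcases N with _ | n
  · exact x.elim0
  · rw [coe_finRotate]
    have : x = Fin.last n ↔ (x : ℕ) + 1 = n + 1 := by
      rw [Fin.ext_iff, Fin.val_last]; omega
    simp only [this]

lemma rot_elt_succ (c : ℕ) (o : Fin c) (i j : Fin 5) (h : (j : ℕ) = i + 1) :
    finRotate (5 * c) (elt c (o, i)) = elt c (o, j) := by
  apply Fin.ext
  rw [finRotate_val, elt_val, elt_val]
  have := o.2
  have := j.2
  split_ifs <;> omega

lemma rot_elt_last (c : ℕ) (o : Fin c) :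
    finRotate (5 * c) (elt c (o, 4)) = elt c (finRotate c o, 0) := by
  apply Fin.ext
  rw [finRotate_val, elt_val, elt_val, finRotate_val]
  have := o.2
  have h4 : ((4 : Fin 5) : ℕ) = 4 := rfl
  have h0 : ((0 : Fin 5) : ℕ) = 0 := rfl
  rw [h4, h0]
  split_ifs <;> omega

/-- the second cyclic order on the elements -/
def ordElt (c : ℕ) (s : Equiv.Perm (Fin (5 * c))) : Equiv.Perm (Fin c × Fin 5) :=
  (elt c).symm.permCongr (ordOf s)

lemma elt_ordElt (c : ℕ) (s : Equiv.Perm (Fin (5 * c))) (x : Fin c × Fin 5) :
    elt c (ordElt c s x) = ordOf s (elt c x) := by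
  simp [ordElt, Equiv.permCongr_apply]

lemma ordElt_sameCycle (c : ℕ) (s : Equiv.Perm (Fin (5 * c))) (x y : Fin c × Fin 5) :
    (ordElt c s).SameCycle x y := by
  obtain ⟨n, hn⟩ := ordOf_sameCycle s (elt c x) (elt c y)
  refine ⟨n, ?_⟩
  have h : ∀ m : ℤ, (ordElt c s) ^ m = (elt c).symm.permCongr ((ordOf s) ^ m) := by
    intro m
    exact (map_zpow (elt c).symm.permCongrHom (ordOf s) m).symm
  rw [h, Equiv.permCongr_apply, Equiv.symm_symm, hn, Equiv.symm_apply_apply]

/-- the labels on all the elements -/
def lift (c : ℕ) (u : Fin c × Fin 5 → Bool) : Fin (5 * c) → Bool := u ∘ (elt c).symm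

lemma lift_elt (c : ℕ) (u : Fin c × Fin 5 → Bool) (x : Fin c × Fin 5) :
    lift c u (elt c x) = u x := by
  simp [lift]

lemma cyc_eq_sum {α : Type} [Fintype α] (R : Equiv.Perm α) (u : α → Bool) :
    cyc R u = ∑ x, if u x ≠ u (R x) then 1 else 0 := by
  rw [cyc, Finset.card_filter]

lemma cycA (c : ℕ) (u : Fin c × Fin 5 → Bool) :
    cyc (finRotate (5 * c)) (lift c u) = ∑ o : Fin c,
      ((if u (o, 0) ≠ u (o, 1) then 1 else 0) + (if u (o, 1) ≠ u (o, 2) then 1 else 0)
      + (if u (o, 2) ≠ u (o, 3) then 1 else 0)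
    + (if u (o, 3) ≠ u (o, 4) then 1 else 0) + (if u (o, 4) ≠ u (finRotate c o, 0) then 1 else 0)) := by
  rw [cyc_eq_sum, ← Equiv.sum_comp (elt c), Fintype.sum_prod_type]
  apply Finset.sum_congr rfl
  intro o _
  rw [Fin.sum_univ_five, rot_elt_last, rot_elt_succ c o 0 1 rfl, rot_elt_succ c o 1 2 rfl,
    rot_elt_succ c o 2 3 rfl, rot_elt_succ c o 3 4 rfl]
  simp only [lift_elt]

lemma cycB (c : ℕ) (s : Equiv.Perm (Fin (5 * c))) (u : Fin c × Fin 5 → Bool) :
    cyc (ordOf s) (lift c u) = ∑ o : Fin c, ∑ i : Fin 5,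
      if u (o, i) ≠ u (ordElt c s (o, i)) then 1 else 0 := by
  rw [cyc_eq_sum, ← Equiv.sum_comp (elt c), Fintype.sum_prod_type]
  apply Finset.sum_congr rfl
  intro o _
  apply Finset.sum_congr rfl
  intro i _
  rw [← elt_ordElt, lift_elt, lift_elt]

/-- contacts labelled by a one between two zeros -/
def iso (c : ℕ) (u : Fin c × Fin 5 → Bool) (l : Fin c → Bool) : ℕ :=
  (univ.filter fun o => l o = true ∧ u (o, 0) = false ∧ u (o, 1) = false).card

lemma sum_block_ge (c : ℕ) (s : Equiv.Perm (Fin (5 * c))) (u : Fin c × Fin 5 → Bool)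
    (l : Fin c → Bool) :
    cyc (finRotate (5 * c)) (lift c u) + 2 * iso c u l + cyc (ordOf s) (lift c u)
      ≤ ∑ o, blockChanges (finRotate c) (ordElt c s) u l o := by
  rw [cycA, cycB, iso, Finset.card_filter, Finset.mul_sum, ← Finset.sum_add_distrib,
    ← Finset.sum_add_distrib]
  apply Finset.sum_le_sum
  intro o _
  unfold blockChanges
  apply Nat.add_le_add_right
  have h : (if u (o, 0) ≠ u (o, 1) then 1 else 0)
      + 2 * (if l o = true ∧ u (o, 0) = false ∧ u (o, 1) = false then 1 else 0)
      ≤ (if u (o, 0) ≠ l o then 1 else 0) + (if l o ≠ u (o, 1) then 1 else 0) := by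
    cases l o <;> cases u (o, 0) <;> cases u (o, 1) <;> simp
  omega

lemma card_le_touched (c : ℕ) (u : Fin c × Fin 5 → Bool) (l : Fin c → Bool) :
    (univ.filter fun o => l o = true).card ≤ touched (lift c u) + iso c u l := by
  have h1 : (univ.filter fun o : Fin c => u (o, 0) = true ∨ u (o, 1) = true).card
      ≤ touched (lift c u) := by
    unfold touched
    apply Finset.card_le_card_of_injOn (fun o : Fin c => (o : ℕ))
    · intro o ho
      simp only [coe_filter, mem_univ, true_and, Set.mem_ofPred_eq] at ho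
      simp only [coe_filter, Set.mem_ofPred_eq, mem_range]
      refine ⟨o.2, ?_⟩
      rcases ho with ho | ho
      · refine ⟨elt c (o, 0), Or.inl ?_, ?_⟩
        · rw [elt_val]; rfl
        · rw [lift_elt]; exact ho
      · refine ⟨elt c (o, 1), Or.inr ?_, ?_⟩
        · rw [elt_val]; rfl
        · rw [lift_elt]; exact ho
    · intro a _ b _ h
      exact Fin.ext h
  have h2 : (univ.filter fun o => l o = true)
      ⊆ (univ.filter fun o : Fin c => u (o, 0) = true ∨ u (o, 1) = true)
        ∪ (univ.filter fun o => l o = true ∧ u (o, 0) = false ∧ u (o, 1) = false) := by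
    intro o ho
    rw [Finset.mem_filter] at ho
    rw [Finset.mem_union, Finset.mem_filter, Finset.mem_filter]
    cases h0 : u (o, 0)
    · cases h1 : u (o, 1)
      · right; exact ⟨mem_univ _, ho.2, rfl, rfl⟩
      · left; exact ⟨mem_univ _, Or.inr rfl⟩
    · left; exact ⟨mem_univ _, Or.inl rfl⟩
  calc _ ≤ _ := Finset.card_le_card h2
    _ ≤ _ := Finset.card_union_le _ _
    _ ≤ _ := Nat.add_le_add_right h1 _

lemma amp_small (c : ℕ) (s : Equiv.Perm (Fin (5 * c))) (hs : s ∉ badOrd c)
    (u : Fin c × Fin 5 → Bool) (l : Fin c → Bool) (hu : 2 * ones (lift c u) ≤ 5 * c) :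
    2 * min (univ.filter fun o => l o = true).card (univ.filter fun o => l o = false).card
        ≤ ∑ o, blockChanges (finRotate c) (ordElt c s) u l o + 4 := by
  have h1 := sum_block_ge c s u l
  have h2 := card_le_touched c u l
  have h3 := two_runs_le (lift c u)
  have h4 := two_runs_le (lift c u ∘ s)
  rw [← cyc_ordOf] at h4
  have h5 : (univ.filter fun o => l o = true).card + (univ.filter fun o => l o = false).card = c := by
    rw [← Finset.card_union_of_disjoint]
    · have : (univ.filter fun o => l o = true) ∪ (univ.filter fun o => l o = false) = univ := by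
        ext o
        cases h : l o <;> simp [h]
      rw [this, Finset.card_univ, Fintype.card_fin]
    · rw [Finset.disjoint_filter]
      intro o _ h h'
      rw [h] at h'
      exact absurd h' (by simp)
  have h6 : ¬ (runs (lift c u) + runs (lift c u ∘ s) + 1 ≤ touched (lift c u) ∧
      2 * (runs (lift c u) + runs (lift c u ∘ s) + 1) ≤ c) := by
    intro hb
    apply hs
    rw [badOrd, Finset.mem_filter]
    refine ⟨mem_univ _, lift c u, hu, ?_⟩
    rw [badPairs, Finset.mem_filter]
    exact ⟨mem_univ _, rfl, ones_comp (lift c u) s, hb.1, hb.2⟩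
  set C1 := (univ.filter fun o => l o = true).card
  set C0 := (univ.filter fun o => l o = false).card
  rcases Nat.lt_or_ge (runs (lift c u) + runs (lift c u ∘ s)) (touched (lift c u)) with h7 | h7
  · have h8 : c < 2 * (runs (lift c u) + runs (lift c u ∘ s) + 1) := by
      by_contra h9
      exact h6 ⟨by omega, by omega⟩
    have h9 : 2 * min C1 C0 ≤ c := by omega
    omega
  · have h9 : min C1 C0 ≤ C1 := min_le_left _ _
    omega

lemma blockChanges_not (c : ℕ) (s : Equiv.Perm (Fin (5 * c)))
    (u : Fin c × Fin 5 → Bool) (l : Fin c → Bool) (o : Fin c) :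
    blockChanges (finRotate c) (ordElt c s) (fun x => !u x) (fun o => !l o) o
      = blockChanges (finRotate c) (ordElt c s) u l o := by
  unfold blockChanges
  have h : ∀ a b : Bool, ((!a) ≠ !b) = (a ≠ b) := by
    intro a b
    cases a <;> cases b <;> simp
  simp only [h]

lemma ones_not {N : ℕ} (u : Fin N → Bool) : ones (fun x => !u x) + ones u = N := by
  unfold ones
  rw [← Finset.card_union_of_disjoint]
  · have : (univ.filter fun i => (!u i) = true) ∪ (univ.filter fun i => u i = true) = univ := by
      ext i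
      cases h : u i <;> simp [h]
    rw [this, Finset.card_univ, Fintype.card_fin]
  · rw [Finset.disjoint_filter]
    intro i _ h h'
    simp only [h'] at h
    exact absurd h (by simp)

lemma amp_all (c : ℕ) (s : Equiv.Perm (Fin (5 * c))) (hs : s ∉ badOrd c)
    (u : Fin c × Fin 5 → Bool) (l : Fin c → Bool) :
    2 * min (univ.filter fun o => l o = true).card (univ.filter fun o => l o = false).card
        ≤ ∑ o, blockChanges (finRotate c) (ordElt c s) u l o + 4 := by
  by_cases hu : 2 * ones (lift c u) ≤ 5 * c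
  · exact amp_small c s hs u l hu
  · have h1 := amp_small c s hs (fun x => !u x) (fun o => !l o) (by
      have h2 := ones_not (lift c u)
      have h3 : lift c (fun x => !u x) = fun x => !(lift c u x) := rfl
      rw [h3]
      omega)
    simp only [blockChanges_not, Bool.not_eq_true', Bool.not_eq_false'] at h1
    rw [min_comm]
    exact h1

/-- permutations with a forbidden coincidence -/
def badCoin (c : ℕ) : Finset (Equiv.Perm (Fin (5 * c))) :=
  (univ : Finset (Fin c × Fin 4)).biUnion fun p =>
    coin (elt c (p.1, p.2.succ)) (finRotate (5 * c) (elt c (p.1, p.2.succ)))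

lemma card_badCoin (c : ℕ) (hc : 1 ≤ c) :
    (5 * c - 1) * (badCoin c).card ≤ 4 * c * (5 * c).factorial := by
  have hne : ∀ x : Fin (5 * c), x ≠ finRotate (5 * c) x := by
    intro x h
    have h1 := congrArg (fun y : Fin (5 * c) => (y : ℕ)) h
    simp only [finRotate_val] at h1
    split_ifs at h1 <;> omega
  calc (5 * c - 1) * (badCoin c).card
      ≤ (5 * c - 1) * ∑ p : Fin c × Fin 4, (coin (elt c (p.1, p.2.succ))
        (finRotate (5 * c) (elt c (p.1, p.2.succ)))).card :=
        Nat.mul_le_mul_left _ Finset.card_biUnion_le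
    _ = ∑ p : Fin c × Fin 4, (5 * c).factorial := by
        rw [Finset.mul_sum]
        apply Finset.sum_congr rfl
        intro p _
        exact card_coin (by omega) _ _ (hne _)
    _ = 4 * c * (5 * c).factorial := by
        rw [Finset.sum_const, Finset.card_univ, Fintype.card_prod, Fintype.card_fin,
          Fintype.card_fin, smul_eq_mul, mul_comm c 4]

theorem amplifiersExist_of_count (h : CountBound) : AmplifiersExist := by
  obtain ⟨c₀, hc₀⟩ := h
  refine ⟨max c₀ 10, ?_⟩
  intro c hc
  have hc1 : c₀ ≤ c := le_trans (le_max_left _ _) hc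
  have hc2 : 10 ≤ c := le_trans (le_max_right _ _) hc
  have h1 : ((badOrd c).card : ℝ) ≤ ((5 * c).factorial : ℝ) * (1 / 10) :=
    (card_badOrd_le c).trans (mul_le_mul_of_nonneg_left (hc₀ c hc1) (Nat.cast_nonneg _))
  have h2 : ((badCoin c).card : ℝ) ≤ ((5 * c).factorial : ℝ) * (82 / 100) := by
    have h3 := card_badCoin c (by omega)
    have h4 : ((5 * c - 1 : ℕ) : ℝ) = 5 * (c : ℝ) - 1 := by
      rw [Nat.cast_sub (by omega)]; push_cast; ring
    have h5 : ((5 * c - 1 : ℕ) : ℝ) * ((badCoin c).card : ℝ) ≤ 4 * c * ((5 * c).factorial : ℝ) := by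
      exact_mod_cast h3
    rw [h4] at h5
    have h6 : (10 : ℝ) ≤ c := by exact_mod_cast hc2
    have h7 : (0 : ℝ) < ((5 * c).factorial : ℝ) := by exact_mod_cast Nat.factorial_pos _
    have h8 : 4 * (c : ℝ) * ((5 * c).factorial : ℝ)
        ≤ (5 * (c : ℝ) - 1) * (((5 * c).factorial : ℝ) * (82 / 100)) := by
      nlinarith
    have h9 : (0 : ℝ) < 5 * (c : ℝ) - 1 := by linarith
    exact le_of_mul_le_mul_left (h5.trans h8) h9
  have h3 : ∃ s : Equiv.Perm (Fin (5 * c)), s ∉ badOrd c ∧ s ∉ badCoin c := by
    by_contra hcon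
    push Not at hcon
    have h4 : (univ : Finset (Equiv.Perm (Fin (5 * c)))) ⊆ badOrd c ∪ badCoin c := by
      intro s _
      rw [Finset.mem_union]
      by_cases h5 : s ∈ badOrd c
      · exact Or.inl h5
      · exact Or.inr (hcon s h5)
    have h5 := (Finset.card_le_card h4).trans (Finset.card_union_le _ _)
    rw [Finset.card_univ, Fintype.card_perm, Fintype.card_fin] at h5
    have h6 : ((5 * c).factorial : ℝ) ≤ ((badOrd c).card : ℝ) + ((badCoin c).card : ℝ) := by
      exact_mod_cast h5
    have h7 : (0 : ℝ) < ((5 * c).factorial : ℝ) := by exact_mod_cast Nat.factorial_pos _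
    linarith
  obtain ⟨s, hs1, hs2⟩ := h3
  have h4 : ∀ (o : Fin c) (i : Fin 4), ordElt c s (o, i.succ) ≠
      (elt c).symm (finRotate (5 * c) (elt c (o, i.succ))) := by
    intro o i hcon
    apply hs2
    rw [badCoin, Finset.mem_biUnion]
    refine ⟨(o, i), mem_univ _, ?_⟩
    rw [coin, Finset.mem_filter]
    refine ⟨mem_univ _, ?_⟩
    show ordOf s (elt c (o, i.succ)) = finRotate (5 * c) (elt c (o, i.succ))
    rw [← elt_ordElt, hcon, Equiv.apply_symm_apply]
  refine ⟨ordElt c s, ordElt_sameCycle c s, ?_, ?_, ?_, ?_, amp_all c s hs1⟩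
  · intro o hcon
    apply h4 o 0
    rw [show (Fin.succ (0 : Fin 4)) = (1 : Fin 5) from rfl, rot_elt_succ c o 1 2 rfl,
      Equiv.symm_apply_apply]
    exact hcon
  · intro o hcon
    apply h4 o 1
    rw [show (Fin.succ (1 : Fin 4)) = (2 : Fin 5) from rfl, rot_elt_succ c o 2 3 rfl,
      Equiv.symm_apply_apply]
    exact hcon
  · intro o hcon
    apply h4 o 2
    rw [show (Fin.succ (2 : Fin 4)) = (3 : Fin 5) from rfl, rot_elt_succ c o 3 4 rfl,
      Equiv.symm_apply_apply]
    exact hcon
  · intro o hcon
    apply h4 o 3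
    rw [show (Fin.succ (3 : Fin 4)) = (4 : Fin 5) from rfl, rot_elt_last,
      Equiv.symm_apply_apply]
    exact hcon

end Elt

end Vale.Agent.P333
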