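import Vale.Agent.P333.AmpDefs

namespace Vale.Agent.P333

open Finset

section transfer

variable (P Q y w : ℝ)

def ext {n : ℕ} (u : Fin n → Bool) (i : ℕ) : Bool := if h : i < n then u ⟨i, h⟩ else false

def shiftIn (b : Bool) (f : ℕ → Bool) : ℕ → Bool
  | 0 => b
  | i + 1 => f i

def Dw (b : Bool) : ℝ := if b = true then P else Q

def Dl (a b : Bool) : ℝ := if a = true ∧ b = false then w else 1

def Ct (ph : ℕ) (a b : Bool) : ℝ := if ph % 5 = 1 ∧ (a = true ∨ b = true) then y else 1

def tau (ph : ℕ) (a b : Bool) : ℝ := Dw P Q b * Dl w a b * Ct y ph a b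

def Wt (ph n : ℕ) (F : ℕ → Bool) : ℝ :=
  (∏ i ∈ range n, tau P Q y w (ph + i) (F i) (F (i + 1))) * Dl w (F n) false

def S (ph n : ℕ) (prev : Bool) : ℝ := ∑ u : Fin n → Bool, Wt P Q y w ph n (shiftIn prev (ext u))

lemma ext_cons_zero {n : ℕ} (b : Bool) (v : Fin n → Bool) :
    ext (Fin.cons b v : Fin (n + 1) → Bool) 0 = b := by
  simp [ext]

lemma ext_cons_succ {n : ℕ} (b : Bool) (v : Fin n → Bool) (i : ℕ) :
    ext (Fin.cons b v : Fin (n + 1) → Bool) (i + 1) = ext v i := by
  unfold ext
  by_cases h : i < n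
  · rw [dif_pos h, dif_pos (by omega)]
    have : (⟨i + 1, by omega⟩ : Fin (n + 1)) = Fin.succ ⟨i, h⟩ := rfl
    rw [this, Fin.cons_succ]
  · rw [dif_neg h, dif_neg (by omega)]

lemma shiftIn_tail {n : ℕ} (a b : Bool) (v : Fin n → Bool) (i : ℕ) :
    shiftIn a (ext (Fin.cons b v : Fin (n + 1) → Bool)) (i + 1) = shiftIn b (ext v) i := by
  cases i with
  | zero => exact ext_cons_zero b v
  | succ i => exact ext_cons_succ b v i

lemma Wt_succ (ph n : ℕ) (F : ℕ → Bool) :
    Wt P Q y w ph (n + 1) F =
      tau P Q y w ph (F 0) (F 1) * Wt P Q y w (ph + 1) n (fun i => F (i + 1)) := by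
  unfold Wt
  rw [prod_range_succ']
  have h : ∏ i ∈ range n, tau P Q y w (ph + (i + 1)) (F (i + 1)) (F (i + 1 + 1)) =
      ∏ i ∈ range n, tau P Q y w (ph + 1 + i) (F (i + 1)) (F (i + 1 + 1)) :=
    prod_congr rfl fun i _ => by rw [show ph + (i + 1) = ph + 1 + i by omega]
  rw [h, add_zero]
  ring

lemma S_zero (ph : ℕ) (prev : Bool) : S P Q y w ph 0 prev = Dl w prev false := by
  simp [S, Wt, shiftIn]

lemma S_succ (ph n : ℕ) (prev : Bool) :
    S P Q y w ph (n + 1) prev =
      tau P Q y w ph prev true * S P Q y w (ph + 1) n true +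
        tau P Q y w ph prev false * S P Q y w (ph + 1) n false := by
  unfold S
  rw [← (Fin.consEquiv (fun _ : Fin (n + 1) => Bool)).sum_comp, Fintype.sum_prod_type,
    Fintype.sum_bool]
  congr 1
  · rw [mul_sum]
    refine sum_congr rfl fun v _ => ?_
    rw [Wt_succ]
    have h1 : shiftIn prev (ext ((Fin.consEquiv (fun _ : Fin (n + 1) => Bool)) (true, v))) 0 = prev :=
      rfl
    have h2 : shiftIn prev (ext ((Fin.consEquiv (fun _ : Fin (n + 1) => Bool)) (true, v))) 1 = true :=
      ext_cons_zero true v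
    have h3 : (fun i => shiftIn prev
        (ext ((Fin.consEquiv (fun _ : Fin (n + 1) => Bool)) (true, v))) (i + 1)) =
        shiftIn true (ext v) := by
      funext i
      exact shiftIn_tail prev true v i
    rw [h1, h2, h3]
  · rw [mul_sum]
    refine sum_congr rfl fun v _ => ?_
    rw [Wt_succ]
    have h1 : shiftIn prev (ext ((Fin.consEquiv (fun _ : Fin (n + 1) => Bool)) (false, v))) 0 = prev :=
      rfl
    have h2 : shiftIn prev (ext ((Fin.consEquiv (fun _ : Fin (n + 1) => Bool)) (false, v))) 1 = false :=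
      ext_cons_zero false v
    have h3 : (fun i => shiftIn prev
        (ext ((Fin.consEquiv (fun _ : Fin (n + 1) => Bool)) (false, v))) (i + 1)) =
        shiftIn false (ext v) := by
      funext i
      exact shiftIn_tail prev false v i
    rw [h1, h2, h3]

structure Cert (P Q y w V ρ : ℝ) : Prop where
  hP : 0 ≤ P
  hQ : 0 ≤ Q
  hy : 0 ≤ y
  hw : 0 ≤ w
  hρ : 0 ≤ ρ
  hV : w ≤ V
  stages : ∃ a1 b1 a2 b2 a3 b3 a4 b4 : ℝ,
    Q + P * V ≤ a1 ∧ w * Q + P * V ≤ b1 ∧
    Q * a1 + P * b1 ≤ a2 ∧ w * Q * a1 + P * b1 ≤ b2 ∧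
    Q * a2 + P * b2 ≤ a3 ∧ w * Q * a2 + P * b2 ≤ b3 ∧
    Q * a3 + y * P * b3 ≤ a4 ∧ y * w * Q * a3 + y * P * b3 ≤ b4 ∧
    Q * a4 + P * b4 ≤ ρ ∧ w * Q * a4 + P * b4 ≤ ρ * V

lemma S_bound {P Q y w V ρ : ℝ} (h : Cert P Q y w V ρ) (m ph : ℕ) (hph : ph % 5 = 0) :
    S P Q y w ph (5 * m) false ≤ ρ ^ m ∧ S P Q y w ph (5 * m) true ≤ ρ ^ m * V := by
  obtain ⟨hP, hQ, hy, hw, hρ, hV, a1, b1, a2, b2, a3, b3, a4, b4, h1, h1', h2, h2', h3, h3', h4,
    h4', h5, h5'⟩ := h
  induction m generalizing ph with
  | zero =>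
    simp only [mul_zero, S_zero, Dl, pow_zero, one_mul]
    constructor
    · simp
    · simpa using hV
  | succ m ih =>
    obtain ⟨ih0, ih1⟩ := ih (ph + 5) (by omega)
    have hr : 0 ≤ ρ ^ m := pow_nonneg hρ m
    have e : 5 * (m + 1) = 5 * m + 1 + 1 + 1 + 1 + 1 := by ring
    have p0 : (ph % 5 = 1) = False := by
      rw [hph]; simp
    have p1 : (ph + 1) % 5 = 1 := by omega
    have p2 : ((ph + 1 + 1) % 5 = 1) = False := by
      simp only [eq_iff_iff, iff_false]; omega
    have p3 : ((ph + 1 + 1 + 1) % 5 = 1) = False := by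
      simp only [eq_iff_iff, iff_false]; omega
    have p4 : ((ph + 1 + 1 + 1 + 1) % 5 = 1) = False := by
      simp only [eq_iff_iff, iff_false]; omega
    -- position ph + 4
    have A1 : S P Q y w (ph + 1 + 1 + 1 + 1) (5 * m + 1) false ≤ ρ ^ m * a1 := by
      rw [S_succ]
      simp only [tau, Dw, Dl, Ct, p4, false_and, if_false, mul_one, reduceCtorEq, if_true,
        Bool.false_eq_true, and_false, and_true]
      have : P * S P Q y w (ph + 5) (5 * m) true + Q * S P Q y w (ph + 5) (5 * m) false ≤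
          P * (ρ ^ m * V) + Q * ρ ^ m := by gcongr
      calc _ ≤ _ := this
        _ = ρ ^ m * (Q + P * V) := by ring
        _ ≤ _ := by gcongr
    have B1 : S P Q y w (ph + 1 + 1 + 1 + 1) (5 * m + 1) true ≤ ρ ^ m * b1 := by
      rw [S_succ]
      simp only [tau, Dw, Dl, Ct, p4, false_and, if_false, mul_one, reduceCtorEq, if_true,
        Bool.false_eq_true, and_false, and_true]
      have : P * S P Q y w (ph + 5) (5 * m) true + Q * w * S P Q y w (ph + 5) (5 * m) false ≤
          P * (ρ ^ m * V) + Q * w * ρ ^ m := by gcongr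
      calc _ ≤ _ := this
        _ = ρ ^ m * (w * Q + P * V) := by ring
        _ ≤ _ := by gcongr
    have A2 : S P Q y w (ph + 1 + 1 + 1) (5 * m + 1 + 1) false ≤ ρ ^ m * a2 := by
      rw [S_succ]
      simp only [tau, Dw, Dl, Ct, p3, false_and, if_false, mul_one, reduceCtorEq, if_true,
        Bool.false_eq_true, and_false, and_true]
      calc _ ≤ P * (ρ ^ m * b1) + Q * (ρ ^ m * a1) := by gcongr
        _ = ρ ^ m * (Q * a1 + P * b1) := by ring
        _ ≤ _ := by gcongr
    have B2 : S P Q y w (ph + 1 + 1 + 1) (5 * m + 1 + 1) true ≤ ρ ^ m * b2 := by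
      rw [S_succ]
      simp only [tau, Dw, Dl, Ct, p3, false_and, if_false, mul_one, reduceCtorEq, if_true,
        Bool.false_eq_true, and_false, and_true]
      calc _ ≤ P * (ρ ^ m * b1) + Q * w * (ρ ^ m * a1) := by gcongr
        _ = ρ ^ m * (w * Q * a1 + P * b1) := by ring
        _ ≤ _ := by gcongr
    have A3 : S P Q y w (ph + 1 + 1) (5 * m + 1 + 1 + 1) false ≤ ρ ^ m * a3 := by
      rw [S_succ]
      simp only [tau, Dw, Dl, Ct, p2, false_and, if_false, mul_one, reduceCtorEq, if_true,
        Bool.false_eq_true, and_false, and_true]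
      calc _ ≤ P * (ρ ^ m * b2) + Q * (ρ ^ m * a2) := by gcongr
        _ = ρ ^ m * (Q * a2 + P * b2) := by ring
        _ ≤ _ := by gcongr
    have B3 : S P Q y w (ph + 1 + 1) (5 * m + 1 + 1 + 1) true ≤ ρ ^ m * b3 := by
      rw [S_succ]
      simp only [tau, Dw, Dl, Ct, p2, false_and, if_false, mul_one, reduceCtorEq, if_true,
        Bool.false_eq_true, and_false, and_true]
      calc _ ≤ P * (ρ ^ m * b2) + Q * w * (ρ ^ m * a2) := by gcongr
        _ = ρ ^ m * (w * Q * a2 + P * b2) := by ring
        _ ≤ _ := by gcongr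
    have A4 : S P Q y w (ph + 1) (5 * m + 1 + 1 + 1 + 1) false ≤ ρ ^ m * a4 := by
      rw [S_succ]
      simp only [tau, Dw, Dl, Ct, p1, true_and, if_false, mul_one, reduceCtorEq, if_true,
        Bool.false_eq_true, and_false, and_true, or_true, or_false, false_and]
      calc _ ≤ P * y * (ρ ^ m * b3) + Q * (ρ ^ m * a3) := by gcongr
        _ = ρ ^ m * (Q * a3 + y * P * b3) := by ring
        _ ≤ _ := by gcongr
    have B4 : S P Q y w (ph + 1) (5 * m + 1 + 1 + 1 + 1) true ≤ ρ ^ m * b4 := by
      rw [S_succ]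
      simp only [tau, Dw, Dl, Ct, p1, true_and, if_false, mul_one, reduceCtorEq, if_true,
        Bool.false_eq_true, and_false, and_true, or_true, or_false, false_and]
      calc _ ≤ P * y * (ρ ^ m * b3) + Q * w * y * (ρ ^ m * a3) := by gcongr
        _ = ρ ^ m * (y * w * Q * a3 + y * P * b3) := by ring
        _ ≤ _ := by gcongr
    rw [e]
    constructor
    · rw [S_succ]
      simp only [tau, Dw, Dl, Ct, p0, false_and, if_false, mul_one, reduceCtorEq, if_true,
        Bool.false_eq_true, and_false, and_true]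
      calc _ ≤ P * (ρ ^ m * b4) + Q * (ρ ^ m * a4) := by gcongr
        _ = ρ ^ m * (Q * a4 + P * b4) := by ring
        _ ≤ ρ ^ m * ρ := by gcongr
        _ = ρ ^ (m + 1) := by ring
    · rw [S_succ]
      simp only [tau, Dw, Dl, Ct, p0, false_and, if_false, mul_one, reduceCtorEq, if_true,
        Bool.false_eq_true, and_false, and_true]
      calc _ ≤ P * (ρ ^ m * b4) + Q * w * (ρ ^ m * a4) := by gcongr
        _ = ρ ^ m * (w * Q * a4 + P * b4) := by ring
        _ ≤ ρ ^ m * (ρ * V) := by gcongr
        _ = ρ ^ (m + 1) * V := by ring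

lemma prod_five (c : ℕ) (g : ℕ → ℝ) (hg : ∀ i, i % 5 ≠ 1 → g i = 1) :
    ∏ i ∈ range (5 * c), g i = ∏ o ∈ range c, g (5 * o + 1) := by
  induction c with
  | zero => simp
  | succ c ih =>
    rw [show 5 * (c + 1) = 5 * c + 1 + 1 + 1 + 1 + 1 by ring]
    rw [prod_range_succ, prod_range_succ, prod_range_succ, prod_range_succ, prod_range_succ,
      prod_range_succ, ih, hg (5 * c) (by omega), hg (5 * c + 1 + 1) (by omega),
      hg (5 * c + 1 + 1 + 1) (by omega), hg (5 * c + 1 + 1 + 1 + 1) (by omega)]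
    ring

lemma Wt_eq (c : ℕ) (u : Fin (5 * c) → Bool) :
    Wt P Q y w 0 (5 * c) (shiftIn false (ext u)) =
      P ^ ones u * Q ^ (5 * c - ones u) * y ^ touched u * w ^ runs u := by
  unfold Wt tau
  simp only [zero_add]
  rw [prod_mul_distrib, prod_mul_distrib]
  have hF : ∀ i, shiftIn false (ext u) (i + 1) = ext u i := fun i => rfl
  have h1 : ∏ i ∈ range (5 * c), Dw P Q (shiftIn false (ext u) (i + 1)) =
      P ^ ones u * Q ^ (5 * c - ones u) := by
    simp only [hF]
    rw [← Fin.prod_univ_eq_prod_range (fun i => Dw P Q (ext u i))]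
    have h2 : ∀ i : Fin (5 * c), Dw P Q (ext u i) = if u i = true then P else Q := by
      intro i
      unfold Dw ext
      rw [dif_pos i.2]
    simp only [h2]
    rw [prod_ite, prod_const, prod_const]
    have h3 : (univ.filter fun i => ¬ u i = true).card = 5 * c - ones u := by
      have h4 := Finset.card_filter_add_card_filter_not (s := (univ : Finset (Fin (5 * c))))
        (fun i => u i = true)
      rw [card_univ, Fintype.card_fin] at h4
      unfold ones
      omega
    rw [h3]
    rfl
  have h2 : (∏ i ∈ range (5 * c), Dl w (shiftIn false (ext u) i) (shiftIn false (ext u) (i + 1))) *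
      Dl w (shiftIn false (ext u) (5 * c)) false = w ^ runs u := by
    have h3 : ext u (5 * c) = false := by
      unfold ext
      rw [dif_neg (by omega)]
    have h4 : Dl w (shiftIn false (ext u) (5 * c)) false =
        Dl w (shiftIn false (ext u) (5 * c)) (shiftIn false (ext u) (5 * c + 1)) := by
      rw [hF, h3]
    rw [h4, ← prod_range_succ (fun i => Dl w (shiftIn false (ext u) i)
      (shiftIn false (ext u) (i + 1))), prod_range_succ']
    have h5 : Dl w (shiftIn false (ext u) 0) (shiftIn false (ext u) (0 + 1)) = 1 := by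
      simp [Dl, shiftIn]
    rw [h5, mul_one]
    simp only [hF]
    rw [← Fin.prod_univ_eq_prod_range (fun i => Dl w (ext u i) (ext u (i + 1)))]
    unfold Dl
    rw [prod_ite, prod_const, prod_const_one, mul_one]
    congr 1
    unfold runs
    congr 1
    ext i
    simp only [mem_filter, mem_univ, true_and]
    have h6 : ext u i = u i := by
      unfold ext
      rw [dif_pos i.2]
    rw [h6]
    refine and_congr_right fun _ => ?_
    unfold ext
    by_cases h7 : (i : ℕ) + 1 < 5 * c
    · rw [dif_pos h7]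
      constructor
      · intro h8 j hj
        rw [← h8]
        congr 1
        exact Fin.ext hj
      · intro h8
        exact h8 ⟨i + 1, h7⟩ rfl
    · rw [dif_neg h7]
      constructor
      · intro _ j hj
        exfalso
        have := j.2
        omega
      · intro _
        rfl
  have h3 : ∏ i ∈ range (5 * c), Ct y i (shiftIn false (ext u) i) (shiftIn false (ext u) (i + 1)) =
      y ^ touched u := by
    rw [prod_five]
    · simp only [hF]
      have h4 : ∀ o, Ct y (5 * o + 1) (ext u (5 * o)) (ext u (5 * o + 1)) =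
          if ext u (5 * o) = true ∨ ext u (5 * o + 1) = true then y else 1 := by
        intro o
        unfold Ct
        have : (5 * o + 1) % 5 = 1 := by omega
        simp [this]
      simp only [h4]
      rw [prod_ite, prod_const, prod_const_one, mul_one]
      congr 1
      unfold touched
      congr 1
      ext o
      simp only [mem_filter, and_congr_right_iff]
      intro _
      have h5 : ∀ j, ext u j = true ↔ ∃ i : Fin (5 * c), (i : ℕ) = j ∧ u i = true := by
        intro j
        unfold ext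
        by_cases h : j < 5 * c
        · rw [dif_pos h]
          constructor
          · intro h6
            exact ⟨⟨j, h⟩, rfl, h6⟩
          · rintro ⟨i, hi, h6⟩
            rw [← h6]
            congr 1
            exact Fin.ext hi.symm
        · rw [dif_neg h]
          constructor
          · intro h6
            exact absurd h6 (by simp)
          · rintro ⟨i, hi, _⟩
            exact absurd i.2 (by omega)
      rw [h5, h5]
      constructor
      · rintro (⟨i, hi, h6⟩ | ⟨i, hi, h6⟩)
        · exact ⟨i, Or.inl hi, h6⟩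
        · exact ⟨i, Or.inr hi, h6⟩
      · rintro ⟨i, hi | hi, h6⟩
        · exact Or.inl ⟨i, hi, h6⟩
        · exact Or.inr ⟨i, hi, h6⟩
    · intro i hi
      unfold Ct
      rw [if_neg]
      tauto
  rw [h1, h3, ← h2]
  ring

lemma transfer_bound {P Q y w V ρ : ℝ} (h : Cert P Q y w V ρ) (c : ℕ) :
    ∑ u : Fin (5 * c) → Bool, P ^ ones u * Q ^ (5 * c - ones u) * y ^ touched u * w ^ runs u ≤
      ρ ^ c := by
  have h1 := (S_bound h c 0 rfl).1
  unfold S at h1
  simp only [Wt_eq] at h1
  exact h1

end transfer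

end Vale.Agent.P333
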