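import Vale.Agent.P333.AmpB1

namespace Vale.Agent.P333

open Finset

/-- the terms `C(N,j) k^j (N-k)^(N-j)` are largest at `j = k` -/
lemma mode_le (N k j : ℕ) (hk : k ≤ N) (hj : j ≤ N) :
    N.choose j * (k ^ j * (N - k) ^ (N - j)) ≤ N.choose k * (k ^ k * (N - k) ^ (N - k)) := by
  set T : ℕ → ℕ := fun j => N.choose j * (k ^ j * (N - k) ^ (N - j)) with hT
  have hstep_up : ∀ i, i < k → T i ≤ T (i + 1) := by
    intro i hi
    have h1 : N.choose (i + 1) * (i + 1) = N.choose i * (N - i) := Nat.choose_succ_right_eq N i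
    have h2 : (i + 1) * (N - k) ≤ (N - i) * k := by
      obtain ⟨r, rfl⟩ := Nat.exists_eq_add_of_le hk
      obtain ⟨t, rfl⟩ := Nat.exists_eq_add_of_lt hi
      have h3 : i + t + 1 + r - (i + t + 1) = r := by omega
      have h4 : i + t + 1 + r - i = t + 1 + r := by omega
      rw [h3, h4]
      nlinarith
    have h5 : (i + 1) * T i ≤ (i + 1) * T (i + 1) := by
      simp only [hT]
      have h6 : N - i = N - (i + 1) + 1 := by omega
      calc (i + 1) * (N.choose i * (k ^ i * (N - k) ^ (N - i)))
          = (N.choose i * (k ^ i * (N - k) ^ (N - (i + 1)))) * ((i + 1) * (N - k)) := by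
            rw [h6, pow_succ]; ring
        _ ≤ (N.choose i * (k ^ i * (N - k) ^ (N - (i + 1)))) * ((N - i) * k) :=
            Nat.mul_le_mul_left _ h2
        _ = (N.choose i * (N - i)) * (k ^ (i + 1) * (N - k) ^ (N - (i + 1))) := by
            rw [pow_succ]; ring
        _ = (i + 1) * (N.choose (i + 1) * (k ^ (i + 1) * (N - k) ^ (N - (i + 1)))) := by
            rw [← h1]; ring
    exact Nat.le_of_mul_le_mul_left h5 (by omega)
  have hstep_down : ∀ i, k ≤ i → i < N → T (i + 1) ≤ T i := by
    intro i hi hiN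
    have h1 : N.choose (i + 1) * (i + 1) = N.choose i * (N - i) := Nat.choose_succ_right_eq N i
    have h2 : (N - i) * k ≤ (i + 1) * (N - k) := by
      obtain ⟨r, rfl⟩ := Nat.exists_eq_add_of_le hi
      obtain ⟨t, rfl⟩ := Nat.exists_eq_add_of_lt hiN
      have h3 : k + r + t + 1 - (k + r) = t + 1 := by omega
      have h4 : k + r + t + 1 - k = r + t + 1 := by omega
      rw [h3, h4]
      nlinarith
    have h5 : (i + 1) * T (i + 1) ≤ (i + 1) * T i := by
      simp only [hT]
      have h6 : N - i = N - (i + 1) + 1 := by omega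
      calc (i + 1) * (N.choose (i + 1) * (k ^ (i + 1) * (N - k) ^ (N - (i + 1))))
          = (N.choose (i + 1) * (i + 1)) * (k ^ (i + 1) * (N - k) ^ (N - (i + 1))) := by ring
        _ = (N.choose i * (k ^ i * (N - k) ^ (N - (i + 1)))) * ((N - i) * k) := by
            rw [h1, pow_succ]; ring
        _ ≤ (N.choose i * (k ^ i * (N - k) ^ (N - (i + 1)))) * ((i + 1) * (N - k)) :=
            Nat.mul_le_mul_left _ h2
        _ = (i + 1) * (N.choose i * (k ^ i * (N - k) ^ (N - i))) := by
            rw [h6, pow_succ]; ring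
    exact Nat.le_of_mul_le_mul_left h5 (by omega)
  rcases Nat.le_total j k with h | h
  · have : ∀ d, d ≤ k - j → T j ≤ T (j + d) := by
      intro d
      induction d with
      | zero => intro _; exact le_rfl
      | succ d ih => intro hd; exact (ih (by omega)).trans (hstep_up (j + d) (by omega))
    have := this (k - j) le_rfl
    rwa [Nat.add_sub_cancel' h] at this
  · have : ∀ d, d ≤ j - k → T (k + d) ≤ T k := by
      intro d
      induction d with
      | zero => intro _; exact le_rfl
      | succ d ih => intro hd; exact (hstep_down (k + d) (by omega) (by omega)).trans (ih (by omega))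
    have := this (j - k) le_rfl
    rwa [Nat.add_sub_cancel' h] at this

lemma one_le_choose (N k : ℕ) (hN : 1 ≤ N) (hk : k ≤ N) :
    (1 : ℝ) ≤ ((N : ℝ) + 1) * (N.choose k : ℝ) *
      (((k : ℝ) / N) ^ k * (1 - (k : ℝ) / N) ^ (N - k)) := by
  have h1 : N ^ N ≤ (N + 1) * (N.choose k * (k ^ k * (N - k) ^ (N - k))) := by
    calc N ^ N = (k + (N - k)) ^ N := by rw [Nat.add_sub_cancel' hk]
      _ = ∑ j ∈ range (N + 1), k ^ j * (N - k) ^ (N - j) * N.choose j := add_pow _ _ _
      _ ≤ ∑ j ∈ range (N + 1), N.choose k * (k ^ k * (N - k) ^ (N - k)) := by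
          refine sum_le_sum fun j hj => ?_
          rw [mem_range] at hj
          rw [mul_comm]
          exact mode_le N k j hk (by omega)
      _ = _ := by rw [sum_const, card_range, smul_eq_mul]
  have hN' : (0 : ℝ) < N := by exact_mod_cast hN
  have h2 : ((N : ℝ)) ^ N ≤ ((N : ℝ) + 1) * ((N.choose k : ℝ) *
      ((k : ℝ) ^ k * ((N : ℝ) - k) ^ (N - k))) := by
    have : ((N ^ N : ℕ) : ℝ) ≤ (((N + 1) * (N.choose k * (k ^ k * (N - k) ^ (N - k))) : ℕ) : ℝ) := by
      exact_mod_cast h1
    push_cast [Nat.cast_sub hk] at this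
    exact this
  have h3 : ((k : ℝ) / N) ^ k * (1 - (k : ℝ) / N) ^ (N - k) =
      ((k : ℝ) ^ k * ((N : ℝ) - k) ^ (N - k)) / (N : ℝ) ^ N := by
    have h4 : 1 - (k : ℝ) / N = ((N : ℝ) - k) / N := by field_simp
    rw [h4, div_pow, div_pow, div_mul_div_comm, ← pow_add, Nat.add_sub_cancel' hk]
  rw [h3, mul_div_assoc', le_div_iff₀ (by positivity)]
  linarith

end Vale.Agent.P333
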