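import Vale.Agent.P333.AmpB2

namespace Vale.Agent.P333

open Finset

lemma bside (c k : ℕ) (s w : ℝ) (hs : 0 < s) (hw0 : 0 < w) (hw : w ≤ 1) :
    ∑ W ∈ univ.filter (fun W : Fin (5 * c) → Bool => ones W = k), w ^ runs W ≤
      (1 + s) ^ k * (1 + w / s) ^ (5 * c - k) := by
  have hsw : 0 < s + w := by linarith
  have h1s : 0 < 1 + s := by linarith
  have hcert : Cert (1 / (1 + s)) (s / (s + w)) 1 w (w * (1 + s) / (s + w)) 1 := by
    refine ⟨by positivity, by positivity, by norm_num, hw0.le, by norm_num, ?_,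
      1, w * (1 + s) / (s + w), 1, w * (1 + s) / (s + w), 1, w * (1 + s) / (s + w),
      1, w * (1 + s) / (s + w), ?_⟩
    · rw [le_div_iff₀ hsw]
      nlinarith
    · have e1 : s / (s + w) + 1 / (1 + s) * (w * (1 + s) / (s + w)) = 1 := by
        field_simp
      have e2 : w * (s / (s + w)) + 1 / (1 + s) * (w * (1 + s) / (s + w)) =
          w * (1 + s) / (s + w) := by
        field_simp
        ring
      refine ⟨e1.le, e2.le, ?_, ?_, ?_, ?_, ?_, ?_, ?_, ?_⟩
      · rw [mul_one]; exact e1.le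
      · rw [mul_one]; exact e2.le
      · rw [mul_one]; exact e1.le
      · rw [mul_one]; exact e2.le
      · rw [mul_one, one_mul]; exact e1.le
      · rw [mul_one, one_mul, one_mul]; exact e2.le
      · rw [mul_one]; exact e1.le
      · rw [mul_one, one_mul]; exact e2.le
  have h := transfer_bound hcert c
  rw [one_pow] at h
  have h2 : (1 / (1 + s)) ^ k * (s / (s + w)) ^ (5 * c - k) *
      ∑ W ∈ univ.filter (fun W : Fin (5 * c) → Bool => ones W = k), w ^ runs W ≤ 1 := by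
    refine le_trans ?_ h
    rw [mul_sum]
    calc ∑ W ∈ univ.filter (fun W : Fin (5 * c) → Bool => ones W = k),
          (1 / (1 + s)) ^ k * (s / (s + w)) ^ (5 * c - k) * w ^ runs W
        = ∑ W ∈ univ.filter (fun W : Fin (5 * c) → Bool => ones W = k),
          (1 / (1 + s)) ^ ones W * (s / (s + w)) ^ (5 * c - ones W) * 1 ^ touched W *
            w ^ runs W := by
          refine sum_congr rfl fun W hW => ?_
          rw [(mem_filter.mp hW).2, one_pow, mul_one]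
      _ ≤ _ := by
          refine sum_le_sum_of_subset_of_nonneg (filter_subset _ _) fun W _ _ => ?_
          positivity
  have h3 : (1 + s) ^ k * (1 + w / s) ^ (5 * c - k) *
      ((1 / (1 + s)) ^ k * (s / (s + w)) ^ (5 * c - k)) = 1 := by
    rw [mul_mul_mul_comm, ← mul_pow, ← mul_pow]
    have e1 : (1 + s) * (1 / (1 + s)) = 1 := by field_simp
    have e2 : (1 + w / s) * (s / (s + w)) = 1 := by field_simp
    rw [e1, e2, one_pow, one_pow, one_mul]
  have h4 : 0 ≤ (1 + s) ^ k * (1 + w / s) ^ (5 * c - k) := by positivity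
  calc ∑ W ∈ univ.filter (fun W : Fin (5 * c) → Bool => ones W = k), w ^ runs W
      = ((1 + s) ^ k * (1 + w / s) ^ (5 * c - k) *
        ((1 / (1 + s)) ^ k * (s / (s + w)) ^ (5 * c - k))) *
        ∑ W ∈ univ.filter (fun W : Fin (5 * c) → Bool => ones W = k), w ^ runs W := by
        rw [h3, one_mul]
    _ = (1 + s) ^ k * (1 + w / s) ^ (5 * c - k) *
        ((1 / (1 + s)) ^ k * (s / (s + w)) ^ (5 * c - k) *
        ∑ W ∈ univ.filter (fun W : Fin (5 * c) → Bool => ones W = k), w ^ runs W) := by ring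
    _ ≤ (1 + s) ^ k * (1 + w / s) ^ (5 * c - k) * 1 := mul_le_mul_of_nonneg_left h2 h4
    _ = _ := mul_one _

lemma aside {P Q y w V ρ : ℝ} (h : Cert P Q y w V ρ) (c k : ℕ) :
    P ^ k * Q ^ (5 * c - k) *
      ∑ u ∈ univ.filter (fun u : Fin (5 * c) → Bool => ones u = k), y ^ touched u * w ^ runs u ≤
      ρ ^ c := by
  have h1 := transfer_bound h c
  refine le_trans ?_ h1
  rw [mul_sum]
  have hP := h.hP
  have hQ := h.hQ
  have hy := h.hy
  have hw := h.hw
  calc ∑ u ∈ univ.filter (fun u : Fin (5 * c) → Bool => ones u = k),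
        P ^ k * Q ^ (5 * c - k) * (y ^ touched u * w ^ runs u)
      = ∑ u ∈ univ.filter (fun u : Fin (5 * c) → Bool => ones u = k),
        P ^ ones u * Q ^ (5 * c - ones u) * y ^ touched u * w ^ runs u := by
        refine sum_congr rfl fun u hu => ?_
        rw [(mem_filter.mp hu).2]
        ring
    _ ≤ _ := by
        refine sum_le_sum_of_subset_of_nonneg (filter_subset _ _) fun u _ _ => ?_
        positivity

lemma bad_weight (c : ℕ) (y ζ : ℝ) (hy : 1 ≤ y) (hζ0 : 0 < ζ) (hζ : ζ ≤ 1)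
    (rA rB K : ℕ) (h1 : rA + rB + 1 ≤ K) (h2 : 2 * (rA + rB + 1) ≤ c) :
    1 ≤ (ζ ^ 2 / y) * (1 / ζ ^ c) * (y ^ K * (ζ ^ 2 / y) ^ rA * (ζ ^ 2 / y) ^ rB) := by
  obtain ⟨a, ha⟩ := Nat.exists_eq_add_of_le h1
  obtain ⟨b, hb⟩ := Nat.exists_eq_add_of_le h2
  have hy0 : 0 < y := by linarith
  have e : (ζ ^ 2 / y) * (1 / ζ ^ c) * (y ^ K * (ζ ^ 2 / y) ^ rA * (ζ ^ 2 / y) ^ rB) =
      y ^ a / ζ ^ b := by
    rw [ha, hb, div_pow, div_pow]
    rw [pow_add y (rA + rB + 1) a, pow_add ζ (2 * (rA + rB + 1)) b, pow_mul ζ 2]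
    rw [pow_succ (ζ ^ 2) (rA + rB), pow_add (ζ ^ 2) rA rB, pow_succ y (rA + rB), pow_add y rA rB]
    field_simp
  rw [e, le_div_iff₀ (by positivity), one_mul]
  exact (pow_le_one₀ hζ0.le hζ).trans (one_le_pow₀ hy)

lemma E_bound (c k : ℕ) (hc : 1 ≤ c) (hk : k ≤ 5 * c) {P Q y w V ρ : ℝ}
    (h : Cert P Q y w V ρ) (s ζ : ℝ) (hs : 0 < s) (hy : 1 ≤ y) (hζ0 : 0 < ζ) (hζ : ζ ≤ 1)
    (hw : w = ζ ^ 2 / y)
    (hP : ((k : ℝ) / (5 * c : ℕ)) * (1 + s) ≤ P)
    (hQ : (1 - (k : ℝ) / (5 * c : ℕ)) * (1 + w / s) ≤ Q) :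
    ((badPairs c k).card : ℝ) / ((5 * c).choose k : ℝ) ≤
      (((5 * c : ℕ) : ℝ) + 1) * (ζ ^ 2 / y) * (ρ / ζ) ^ c := by
  have hy0 : 0 < y := by linarith
  have hw0 : 0 < w := by rw [hw]; positivity
  have hw1 : w ≤ 1 := by
    rw [hw, div_le_one hy0]
    nlinarith
  set N := 5 * c with hN
  have hN1 : 1 ≤ N := by omega
  set t : ℝ := (k : ℝ) / (N : ℝ) with ht
  have ht0 : 0 ≤ t := by positivity
  have ht1 : t ≤ 1 := by
    rw [ht, div_le_one (by exact_mod_cast hN1)]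
    exact_mod_cast hk
  set A := ∑ u ∈ univ.filter (fun u : Fin N → Bool => ones u = k), y ^ touched u * w ^ runs u
    with hA
  set B := ∑ W ∈ univ.filter (fun W : Fin N → Bool => ones W = k), w ^ runs W with hB
  have hA0 : 0 ≤ A := sum_nonneg fun u _ => by positivity
  have hB0 : 0 ≤ B := sum_nonneg fun u _ => by positivity
  have hcard : ((badPairs c k).card : ℝ) ≤ (ζ ^ 2 / y) * (1 / ζ ^ c) * (A * B) := by
    rw [hA, hB, sum_mul_sum, ← sum_product', mul_sum]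
    calc ((badPairs c k).card : ℝ) = ∑ p ∈ badPairs c k, (1 : ℝ) := by simp
      _ ≤ ∑ p ∈ badPairs c k, (ζ ^ 2 / y) * (1 / ζ ^ c) *
          (y ^ touched p.1 * w ^ runs p.1 * w ^ runs p.2) := by
          refine sum_le_sum fun p hp => ?_
          rw [badPairs, mem_filter] at hp
          rw [hw]
          exact bad_weight c y ζ hy hζ0 hζ _ _ _ hp.2.2.2.1 hp.2.2.2.2
      _ ≤ _ := by
          refine sum_le_sum_of_subset_of_nonneg ?_ fun p _ _ => by positivity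
          intro p hp
          rw [badPairs, mem_filter] at hp
          rw [mem_product, mem_filter, mem_filter]
          exact ⟨⟨mem_univ _, hp.2.1⟩, ⟨mem_univ _, hp.2.2.1⟩⟩
  have hchoose : (0 : ℝ) < (N.choose k : ℝ) := by exact_mod_cast Nat.choose_pos hk
  have h1 := one_le_choose N k hN1 hk
  have h2 : 1 / (N.choose k : ℝ) ≤ ((N : ℝ) + 1) * (t ^ k * (1 - t) ^ (N - k)) := by
    rw [div_le_iff₀ hchoose]
    calc (1 : ℝ) ≤ _ := h1
      _ = _ := by ring
  have h3 : B * (t ^ k * (1 - t) ^ (N - k)) ≤ P ^ k * Q ^ (N - k) := by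
    have hb := bside c k s w hs hw0 hw1
    have h1t : 0 ≤ 1 - t := by linarith
    have hP0 := h.hP
    have hQ0 := h.hQ
    calc B * (t ^ k * (1 - t) ^ (N - k))
        ≤ ((1 + s) ^ k * (1 + w / s) ^ (N - k)) * (t ^ k * (1 - t) ^ (N - k)) := by
          gcongr
      _ = (t * (1 + s)) ^ k * ((1 - t) * (1 + w / s)) ^ (N - k) := by
          rw [mul_pow, mul_pow]; ring
      _ ≤ P ^ k * Q ^ (N - k) := by gcongr
  have h4 := aside h c k
  have h5 : A * (B * (t ^ k * (1 - t) ^ (N - k))) ≤ ρ ^ c := by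
    calc A * (B * (t ^ k * (1 - t) ^ (N - k))) ≤ A * (P ^ k * Q ^ (N - k)) := by gcongr
      _ = P ^ k * Q ^ (N - k) * A := by ring
      _ ≤ ρ ^ c := h4
  calc ((badPairs c k).card : ℝ) / (N.choose k : ℝ)
      = ((badPairs c k).card : ℝ) * (1 / (N.choose k : ℝ)) := by ring
    _ ≤ ((ζ ^ 2 / y) * (1 / ζ ^ c) * (A * B)) *
        (((N : ℝ) + 1) * (t ^ k * (1 - t) ^ (N - k))) := by
        gcongr
    _ = ((N : ℝ) + 1) * (ζ ^ 2 / y) * (1 / ζ ^ c) * (A * (B * (t ^ k * (1 - t) ^ (N - k)))) := by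
        ring
    _ ≤ ((N : ℝ) + 1) * (ζ ^ 2 / y) * (1 / ζ ^ c) * ρ ^ c := by
        gcongr
    _ = ((N : ℝ) + 1) * (ζ ^ 2 / y) * (ρ / ζ) ^ c := by
        rw [div_pow]; ring

end Vale.Agent.P333
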