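import Vale.Agent.P333.AmpB3

namespace Vale.Agent.P333

open Finset

/-- exact certificate for given numbers -/
lemma cert_of_exact (P Q y w V ρ : ℝ) (hP : 0 ≤ P) (hQ : 0 ≤ Q) (hy : 0 ≤ y) (hw : 0 ≤ w)
    (hρ : 0 ≤ ρ) (hV : w ≤ V)
    (a1 b1 a2 b2 a3 b3 a4 b4 : ℝ)
    (h1 : Q + P * V ≤ a1) (h1' : w * Q + P * V ≤ b1)
    (h2 : Q * a1 + P * b1 ≤ a2) (h2' : w * Q * a1 + P * b1 ≤ b2)
    (h3 : Q * a2 + P * b2 ≤ a3) (h3' : w * Q * a2 + P * b2 ≤ b3)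
    (h4 : Q * a3 + y * P * b3 ≤ a4) (h4' : y * w * Q * a3 + y * P * b3 ≤ b4)
    (h5 : Q * a4 + P * b4 ≤ ρ) (h5' : w * Q * a4 + P * b4 ≤ ρ * V) : Cert P Q y w V ρ :=
  ⟨hP, hQ, hy, hw, hρ, hV, a1, b1, a2, b2, a3, b3, a4, b4, h1, h1', h2, h2', h3, h3', h4, h4',
    h5, h5'⟩

lemma row (c k : ℕ) (hc : 1 ≤ c) (hk : k ≤ 5 * c) (a b s y ζ V w P Q : ℝ)
    (ha : a ≤ (k : ℝ) / (5 * c : ℕ)) (hb : (k : ℝ) / (5 * c : ℕ) ≤ b)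
    (hs : 0 < s) (hy : 1 ≤ y) (hζ0 : 0 < ζ) (hζ : ζ ≤ 1)
    (hw : w = ζ ^ 2 / y) (hP : P = b * (1 + s)) (hQ : Q = (1 - a) * (1 + w / s))
    (h : Cert P Q y w V (998 / 1000 * ζ)) :
    ((badPairs c k).card : ℝ) / ((5 * c).choose k : ℝ) ≤
      (((5 * c : ℕ) : ℝ) + 1) * (998 / 1000) ^ c := by
  have hw0 : 0 ≤ w := h.hw
  have h1 := E_bound c k hc hk h s ζ hs hy hζ0 hζ hw
    (by rw [hP]; exact mul_le_mul_of_nonneg_right hb (by linarith))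
    (by
      rw [hQ]
      refine mul_le_mul_of_nonneg_right (by linarith) ?_
      positivity)
  refine h1.trans ?_
  have e : 998 / 1000 * ζ / ζ = (998 / 1000 : ℝ) := by
    rw [mul_div_assoc, div_self hζ0.ne', mul_one]
  rw [e]
  have h2 : ζ ^ 2 / y ≤ 1 := by
    rw [div_le_one (by linarith)]
    nlinarith
  have h3 : (0 : ℝ) ≤ ((5 * c : ℕ) : ℝ) + 1 := by positivity
  have h4 : (((5 * c : ℕ) : ℝ) + 1) * (ζ ^ 2 / y) ≤ (((5 * c : ℕ) : ℝ) + 1) * 1 :=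
    mul_le_mul_of_nonneg_left h2 h3
  rw [mul_one] at h4
  exact mul_le_mul_of_nonneg_right h4 (by positivity)

end Vale.Agent.P333
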