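import Vale.Agent.P333.AmpB5

namespace Vale.Agent.P333

open Finset Filter

lemma small_cert (t : ℝ) (ht0 : 0 < t) (ht : t ≤ 1 / 40) :
    Cert (3 / 2 * t) ((1 - t) * (1 + 2 * t ^ 2)) (1 / t ^ 2) (t ^ 2) (2 * t) (1 - t) := by
  set Q := (1 - t) * (1 + 2 * t ^ 2) with hQ
  have ht2 : t ^ 2 ≤ t / 40 := by nlinarith
  have ht3 : t ^ 3 ≤ t ^ 2 / 40 := by nlinarith [sq_nonneg t]
  have hQ0 : 0 ≤ Q := by
    rw [hQ]
    have : 0 ≤ 1 - t := by linarith
    positivity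
  have hQ1 : Q ≤ 1 - t + 2 * t ^ 2 := by
    rw [hQ]
    nlinarith [pow_pos ht0 3]
  have hQ1' : Q ≤ 1 := by nlinarith
  have hp3 : 0 < t ^ 3 := pow_pos ht0 3
  have hp2 : 0 < t ^ 2 := pow_pos ht0 2
  have hyw : 1 / t ^ 2 * t ^ 2 = 1 := by field_simp
  have hyP : 1 / t ^ 2 * (3 / 2 * t) * (105 / 100 * t ^ 2) = 1575 / 1000 * t := by
    field_simp
    ring
  refine ⟨by positivity, hQ0, by positivity, by positivity, by linarith, by nlinarith,
    1 - 875 / 1000 * t, 4 * t ^ 2, 1 - 179 / 100 * t, 115 / 100 * t ^ 2,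
    1 - 269 / 100 * t, 105 / 100 * t ^ 2, 1 - 199 / 100 * t, 1 - 199 / 100 * t, ?_⟩
  have hwQ : t ^ 2 * Q ≤ t ^ 2 := by nlinarith
  refine ⟨?_, ?_, ?_, ?_, ?_, ?_, ?_, ?_, ?_, ?_⟩
  · nlinarith
  · nlinarith
  · have h1 : Q * (1 - 875 / 1000 * t) ≤ (1 - t + 2 * t ^ 2) * (1 - 875 / 1000 * t) :=
      mul_le_mul_of_nonneg_right hQ1 (by linarith)
    nlinarith
  · have h1 : t ^ 2 * Q * (1 - 875 / 1000 * t) ≤ t ^ 2 * 1 := by
      have : t ^ 2 * Q * (1 - 875 / 1000 * t) ≤ t ^ 2 * (1 - 875 / 1000 * t) :=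
        mul_le_mul_of_nonneg_right hwQ (by linarith)
      nlinarith
    nlinarith
  · have h1 : Q * (1 - 179 / 100 * t) ≤ (1 - t + 2 * t ^ 2) * (1 - 179 / 100 * t) :=
      mul_le_mul_of_nonneg_right hQ1 (by linarith)
    nlinarith
  · have h1 : t ^ 2 * Q * (1 - 179 / 100 * t) ≤ t ^ 2 * 1 := by
      have : t ^ 2 * Q * (1 - 179 / 100 * t) ≤ t ^ 2 * (1 - 179 / 100 * t) :=
        mul_le_mul_of_nonneg_right hwQ (by linarith)
      nlinarith
    nlinarith
  · have h1 : Q * (1 - 269 / 100 * t) ≤ (1 - t + 2 * t ^ 2) * (1 - 269 / 100 * t) :=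
      mul_le_mul_of_nonneg_right hQ1 (by linarith)
    rw [hyP]
    nlinarith
  · have h1 : Q * (1 - 269 / 100 * t) ≤ (1 - t + 2 * t ^ 2) * (1 - 269 / 100 * t) :=
      mul_le_mul_of_nonneg_right hQ1 (by linarith)
    rw [hyP, hyw, one_mul]
    nlinarith
  · have h1 : Q * (1 - 199 / 100 * t) ≤ (1 - t + 2 * t ^ 2) * (1 - 199 / 100 * t) :=
      mul_le_mul_of_nonneg_right hQ1 (by linarith)
    nlinarith
  · have h1 : t ^ 2 * Q * (1 - 199 / 100 * t) ≤ t ^ 2 * 1 := by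
      have : t ^ 2 * Q * (1 - 199 / 100 * t) ≤ t ^ 2 * (1 - 199 / 100 * t) :=
        mul_le_mul_of_nonneg_right hwQ (by linarith)
      nlinarith
    nlinarith

lemma small_row (c k : ℕ) (hc : 1 ≤ c) (hk1 : 1 ≤ k) (hk : k ≤ 5 * c)
    (hb : (k : ℝ) / (5 * c : ℕ) ≤ 1 / 40) :
    ((badPairs c k).card : ℝ) / ((5 * c).choose k : ℝ) ≤
      (((5 * c : ℕ) : ℝ) + 1) / ((5 * c : ℕ) : ℝ) ^ 2 *
        ((k : ℝ) ^ 2 * Real.exp (-(1 / 5)) ^ k) := by
  set N : ℝ := ((5 * c : ℕ) : ℝ) with hN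
  have hN0 : 0 < N := by
    rw [hN]
    exact_mod_cast (by omega : 0 < 5 * c)
  set t : ℝ := (k : ℝ) / N with ht
  have ht0 : 0 < t := by
    have : (0 : ℝ) < k := by exact_mod_cast hk1
    positivity
  have hcert := small_cert t ht0 hb
  have hy : 1 ≤ 1 / t ^ 2 := by
    rw [le_div_iff₀ (by positivity)]
    nlinarith
  have h := E_bound c k hc hk hcert (1 / 2) 1 (by norm_num) hy one_pos le_rfl
    (by field_simp) (by rw [← hN, ← ht]; linarith)
    (by
      rw [← hN, ← ht]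
      have : t ^ 2 / (1 / 2) = 2 * t ^ 2 := by ring
      rw [this])
  refine h.trans ?_
  rw [div_one, ← hN]
  have h1 : (1 - t) ^ c ≤ Real.exp (-(1 / 5)) ^ k := by
    have h2 : 1 - t ≤ Real.exp (-t) := Real.one_sub_le_exp_neg t
    calc (1 - t) ^ c ≤ Real.exp (-t) ^ c := pow_le_pow_left₀ (by linarith) h2 c
      _ = Real.exp (-(1 / 5)) ^ k := by
        rw [← Real.exp_nat_mul, ← Real.exp_nat_mul]
        congr 1
        rw [ht, hN]
        push_cast
        have hc' : (c : ℝ) ≠ 0 := by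
          have : (0 : ℝ) < c := by exact_mod_cast hc
          exact this.ne'
        field_simp
  have h2 : (1 : ℝ) ^ 2 / (1 / t ^ 2) = t ^ 2 := by field_simp
  rw [h2]
  calc (N + 1) * t ^ 2 * (1 - t) ^ c ≤ (N + 1) * t ^ 2 * Real.exp (-(1 / 5)) ^ k := by
        gcongr
    _ = (N + 1) / N ^ 2 * ((k : ℝ) ^ 2 * Real.exp (-(1 / 5)) ^ k) := by
        rw [ht, div_pow]
        ring

lemma badPairs_zero (c : ℕ) : badPairs c 0 = ∅ := by
  rw [badPairs, filter_eq_empty_iff]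
  rintro p _ ⟨h1, _, h3, _⟩
  have h4 : touched p.1 = 0 := by
    unfold touched
    rw [card_eq_zero, filter_eq_empty_iff]
    rintro o _ ⟨i, _, hi⟩
    unfold ones at h1
    rw [card_eq_zero, filter_eq_empty_iff] at h1
    exact h1 (mem_univ i) hi
  omega

theorem countBound : CountBound := by
  set r : ℝ := Real.exp (-(1 / 5)) with hr
  have hr0 : 0 ≤ r := (Real.exp_pos _).le
  have hr1 : r < 1 := by
    rw [hr, Real.exp_lt_one_iff]
    norm_num
  have hsum : Summable fun n : ℕ => (n : ℝ) ^ 2 * r ^ n :=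
    summable_pow_mul_geometric_of_norm_lt_one 2 (by rwa [Real.norm_of_nonneg hr0])
  set M : ℝ := ∑' n : ℕ, (n : ℝ) ^ 2 * r ^ n with hM
  have hM0 : 0 ≤ M := tsum_nonneg fun n => by positivity
  have hlim1 : Tendsto (fun c : ℕ => (36 : ℝ) * ((c : ℝ) ^ 2 * (998 / 1000 : ℝ) ^ c)) atTop
      (nhds 0) := by
    have := (tendsto_pow_const_mul_const_pow_of_abs_lt_one 2
      (r := (998 / 1000 : ℝ)) (by rw [abs_of_nonneg] <;> norm_num)).const_mul (36 : ℝ)
    rwa [mul_zero] at this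
  have hlim2 : Tendsto (fun c : ℕ => M * (1 / (c : ℝ))) atTop (nhds 0) := by
    have := (tendsto_one_div_atTop_nhds_zero_nat (𝕜 := ℝ)).const_mul M
    rwa [mul_zero] at this
  have he1 := hlim1.eventually (gt_mem_nhds (show (0 : ℝ) < 1 / 20 by norm_num))
  have he2 := hlim2.eventually (gt_mem_nhds (show (0 : ℝ) < 1 / 20 by norm_num))
  obtain ⟨c₀, hc₀⟩ := eventually_atTop.mp (he1.and (he2.and (eventually_ge_atTop 1)))
  refine ⟨c₀, fun c hc => ?_⟩
  obtain ⟨h1, h2, h3⟩ := hc₀ c hc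
  have hcpos : (1 : ℝ) ≤ c := by exact_mod_cast h3
  set N : ℝ := ((5 * c : ℕ) : ℝ) with hN
  have hNc : N = 5 * c := by rw [hN]; push_cast; ring
  have hterm : ∀ k ∈ range (5 * c / 2 + 1),
      ((badPairs c k).card : ℝ) / ((5 * c).choose k : ℝ) ≤
        (N + 1) / N ^ 2 * ((k : ℝ) ^ 2 * r ^ k) + (N + 1) * (998 / 1000) ^ c := by
    intro k hk
    rw [mem_range] at hk
    have hk2 : 2 * k ≤ 5 * c := by omega
    have ha : 0 ≤ (N + 1) / N ^ 2 * ((k : ℝ) ^ 2 * r ^ k) := by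
      rw [hNc]; positivity
    have hb : 0 ≤ (N + 1) * (998 / 1000 : ℝ) ^ c := by
      rw [hNc]; positivity
    rcases Nat.eq_zero_or_pos k with h0 | hpos
    · subst h0
      rw [badPairs_zero, card_empty, Nat.cast_zero, zero_div]
      linarith
    · rcases le_total ((k : ℝ) / (5 * c : ℕ)) (1 / 40) with h4 | h4
      · have := small_row c k h3 hpos (by omega) h4
        linarith
      · have h5 : (k : ℝ) / (5 * c : ℕ) ≤ 1 / 2 := by
          rw [div_le_iff₀ (by exact_mod_cast (by omega : 0 < 5 * c))]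
          have : ((2 * k : ℕ) : ℝ) ≤ ((5 * c : ℕ) : ℝ) := by exact_mod_cast hk2
          push_cast at this ⊢
          linarith
        have := rows_all c k h3 (by omega) h4 h5
        linarith
  calc ∑ k ∈ range (5 * c / 2 + 1), ((badPairs c k).card : ℝ) / ((5 * c).choose k : ℝ)
      ≤ ∑ k ∈ range (5 * c / 2 + 1),
        ((N + 1) / N ^ 2 * ((k : ℝ) ^ 2 * r ^ k) + (N + 1) * (998 / 1000) ^ c) :=
        sum_le_sum hterm
    _ = (N + 1) / N ^ 2 * ∑ k ∈ range (5 * c / 2 + 1), (k : ℝ) ^ 2 * r ^ k +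
        ((5 * c / 2 + 1 : ℕ) : ℝ) * ((N + 1) * (998 / 1000) ^ c) := by
        rw [sum_add_distrib, ← mul_sum, sum_const, card_range, nsmul_eq_mul]
    _ ≤ (N + 1) / N ^ 2 * M + (N + 1) * ((N + 1) * (998 / 1000) ^ c) := by
        have h5 : ∑ k ∈ range (5 * c / 2 + 1), (k : ℝ) ^ 2 * r ^ k ≤ M :=
          hsum.sum_le_tsum _ fun n _ => by positivity
        have h6 : ((5 * c / 2 + 1 : ℕ) : ℝ) ≤ N + 1 := by
          rw [hN]
          exact_mod_cast (by omega : 5 * c / 2 + 1 ≤ 5 * c + 1)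
        have h7 : 0 ≤ (N + 1) / N ^ 2 := by rw [hNc]; positivity
        have h8 : 0 ≤ (N + 1) * (998 / 1000 : ℝ) ^ c := by rw [hNc]; positivity
        gcongr
    _ ≤ M * (1 / c) + 36 * ((c : ℝ) ^ 2 * (998 / 1000 : ℝ) ^ c) := by
        rw [hNc]
        have h5 : (5 * (c : ℝ) + 1) / (5 * c) ^ 2 ≤ 1 / c := by
          rw [div_le_div_iff₀ (by positivity) (by positivity)]
          nlinarith
        have h6 : (5 * (c : ℝ) + 1) * (5 * c + 1) ≤ 36 * c ^ 2 := by nlinarith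
        have h7 : 0 ≤ (998 / 1000 : ℝ) ^ c := by positivity
        have h8 : (5 * (c : ℝ) + 1) / (5 * c) ^ 2 * M ≤ 1 / c * M :=
          mul_le_mul_of_nonneg_right h5 hM0
        have h9 : (5 * (c : ℝ) + 1) * (5 * c + 1) * (998 / 1000 : ℝ) ^ c ≤
            36 * c ^ 2 * (998 / 1000 : ℝ) ^ c := mul_le_mul_of_nonneg_right h6 h7
        linarith
    _ ≤ 1 / 10 := by linarith

end Vale.Agent.P333
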