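import Vale.Agent.P333.Defs

namespace Vale.Agent.P333

open Finset

/-- Existence of amplifiers (task T1). -/
def AmplifiersExist : Prop :=
  ∃ c₀ : ℕ, ∀ k ≥ c₀, ∃ ord : Equiv.Perm (Fin k × Fin 5),
    (∀ x y, ord.SameCycle x y) ∧
    (∀ o, ord (o, 1) ≠ (o, 2)) ∧ (∀ o, ord (o, 2) ≠ (o, 3)) ∧ (∀ o, ord (o, 3) ≠ (o, 4)) ∧
    (∀ o, ord (o, 4) ≠ (finRotate k o, 0)) ∧
    ∀ (u : Fin k × Fin 5 → Bool) (c : Fin k → Bool),
      2 * min (univ.filter fun o => c o = true).card (univ.filter fun o => c o = false).card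
        ≤ ∑ o, blockChanges (finRotate k) ord u c o + 4

/-- number of ones -/
def ones {N : ℕ} (u : Fin N → Bool) : ℕ := (univ.filter fun i => u i = true).card

/-- number of maximal runs of ones of a finite sequence -/
def runs {N : ℕ} (u : Fin N → Bool) : ℕ :=
  (univ.filter fun i : Fin N => u i = true ∧ ∀ j : Fin N, (j : ℕ) = i + 1 → u j = false).card

/-- number of contacts next to a one (contact `o` sits between positions `5 o` and `5 o + 1`) -/
def touched {c : ℕ} (u : Fin (5 * c) → Bool) : ℕ :=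
  ((range c).filter fun o =>
    ∃ i : Fin (5 * c), ((i : ℕ) = 5 * o ∨ (i : ℕ) = 5 * o + 1) ∧ u i = true).card

/-- bad pairs -/
def badPairs (c k : ℕ) : Finset ((Fin (5 * c) → Bool) × (Fin (5 * c) → Bool)) :=
  univ.filter fun p => ones p.1 = k ∧ ones p.2 = k ∧ runs p.1 + runs p.2 + 1 ≤ touched p.1 ∧
    2 * (runs p.1 + runs p.2 + 1) ≤ c

/-- Target of task T1b. -/
def CountBound : Prop :=
  ∃ c₀ : ℕ, ∀ c ≥ c₀,
    ∑ k ∈ range (5 * c / 2 + 1), ((badPairs c k).card : ℝ) / ((5 * c).choose k : ℝ) ≤ 1 / 10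

end Vale.Agent.P333
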