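import Vale.Agent.P333.Defs

namespace Vale.Agent.P333

open Finset Letter

deriving instance DecidableEq, Fintype for Letter

/-- The contact is read negatively: only at the last position of an equation with right side 0. -/
def Inv (I : E3Lin) (o : I.Occ) : Prop := o.2 = 2 ∧ I.rhs o.1 = false

instance (I : E3Lin) (o : I.Occ) : Decidable (Inv I o) := by unfold Inv; infer_instance

/-- Equation `e` is violated by the assignment `x`. -/
def E3Lin.Viol (I : E3Lin) (x : Fin I.n → Bool) (e : Fin I.m) : Prop :=
  xor (x (I.var (e, 0))) (xor (x (I.var (e, 1))) (x (I.var (e, 2)))) ≠ I.rhs e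

instance (I : E3Lin) (x : Fin I.n → Bool) : DecidablePred (I.Viol x) := by
  unfold E3Lin.Viol; infer_instance

theorem unsat_def (I : E3Lin) (x : Fin I.n → Bool) : I.unsat x = (univ.filter (I.Viol x)).card :=
  rfl

section Strings

variable (I : E3Lin) (nxt : Equiv.Perm I.Occ) (ord : Equiv.Perm (I.Occ × Fin 5))

theorem pre_0 (o : I.Occ) : pre nxt (o, 0) = z (nxt.symm o, 4) := rfl

theorem pre_1 (o : I.Occ) : pre nxt (o, 1) = g o := rfl

theorem pre_2 (o : I.Occ) : pre nxt (o, 2) = z (o, 1) := rfl

theorem pre_3 (o : I.Occ) : pre nxt (o, 3) = z (o, 2) := rfl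

theorem pre_4 (o : I.Occ) : pre nxt (o, 4) = z (o, 3) := rfl

/-- first string of an element -/
def sA (x : I.Occ × Fin 5) : List (Letter I) := [pre nxt x, z x, z (ord x)]

/-- second string of an element -/
def sB (x : I.Occ × Fin 5) : List (Letter I) := [z x, z (ord x), pre nxt x, z x]

/-- first string of a contact -/
def s1 (o : I.Occ) : List (Letter I) :=
  if Inv I o then [g o, z (o, 0), g o, h o.1] else [z (o, 0), g o, h o.1]

/-- second string of a contact -/
def s2 (o : I.Occ) : List (Letter I) := [g o, h o.1, g (o.1, o.2 + 1)]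

/-- third string of a contact -/
def s3 (o : I.Occ) : List (Letter I) :=
  if Inv I o then [h o.1, g (o.1, o.2 + 1), g o, z (o, 0)]
  else [h o.1, g (o.1, o.2 + 1), z (o, 0), g o]

/-- string of an equation with right side 0 -/
def sF (e : Fin I.m) : List (Letter I) := [z ((e, 2), 0), q e, g (e, 2)]

/-- string joining equation `e` to the next one -/
def sR (e : Fin I.m) : List (Letter I) := [h e, h (finRotate I.m e)]

theorem strings_def : strings I nxt ord =
    univ.image (sA I nxt ord) ∪ univ.image (sB I nxt ord) ∪ univ.image (s1 I) ∪ univ.image (s2 I)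
    ∪ univ.image (s3 I) ∪ (univ.filter fun e => I.rhs e = false).image (sF I)
    ∪ univ.image (sR I) := by
  ext s
  simp only [strings, sA, sB, s1, s2, s3, sF, sR, Inv, mem_union, mem_image]

end Strings

end Vale.Agent.P333
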