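import Mathlib

namespace Vale.Agent.P333

/-- label change -/
def ch (a b : Bool) : ℤ := if a ≠ b then 1 else 0

def bi (a : Bool) : ℤ := if a = true then 1 else 0

def ind (k : Fin 3) (j : Fin 3) : ℤ := if k = j then 1 else 0

theorem cluster_aux : ∀ (r : Bool) (a0 a1 a2 : Fin 3) (p0 p1 p2 q0 q1 q2 : Bool),
    ∃ v0 v1 v2 : Bool,
      ch p0 v0 + ch v0 q0 + (ch p1 v1 + ch v1 q1) + (ch p2 v2 + ch v2 q2)
        + 2 * ch (xor v0 (xor v1 v2)) r ≤
      |ind a0 0 - bi p0| + |bi q0 - ind a0 0 + ind a0 1 - ind a2 2|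
      + (|ind a1 0 - bi p1| + |bi q1 - ind a1 0 + ind a1 1 - ind a0 2|)
      + (|(if r = false then 1 - ind a2 0 else ind a2 0) - bi p2|
        + |bi q2 - (if r = false then 1 - ind a2 0 else ind a2 0) + ind a2 1 - ind a1 2|)
      + |ind a0 2 - ind a0 1 + (ind a1 2 - ind a1 1) + (ind a2 2 - ind a2 1)| := by
  decide +kernel

end Vale.Agent.P333
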