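import Vale.Agent.P333.Imb

namespace Vale.Agent.P333

open Finset Letter Cut

variable {I : E3Lin} (nxt : Equiv.Perm I.Occ) (ord : Equiv.Perm (I.Occ × Fin 5))
variable (u : I.Occ × Fin 5 → Bool) (sel : I.Occ → Fin 3)

theorem ch_eq (a b : Bool) : ch a b = |bi a - bi b| := by revert a b; decide

theorem ch_comm (a b : Bool) : ch a b = ch b a := by revert a b; decide

theorem two_step (a b c : Bool) : |(bi a - bi b) + (bi c - bi b)| = ch b a + ch b c := by
  revert a b c; decide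

theorem slab01 (o : I.Occ) : ∃ t : Bool, slab sel o = bi t := by
  unfold slab ind bi
  by_cases hI : Inv I o <;> by_cases hs : sel o = 0
  · exact ⟨false, by simp [hI, hs]⟩
  · exact ⟨true, by simp [hI, hs]⟩
  · exact ⟨true, by simp [hI, hs]⟩
  · exact ⟨false, by simp [hI, hs]⟩

theorem block_cast (c : I.Occ → Bool) (o : I.Occ) : (blockChanges nxt ord u c o : ℤ) =
    ch (u (o, 0)) (c o) + ch (c o) (u (o, 1)) + ch (u (o, 1)) (u (o, 2)) +
      ch (u (o, 2)) (u (o, 3)) + ch (u (o, 3)) (u (o, 4)) + ch (u (o, 4)) (u (nxt o, 0))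
      + ∑ i : Fin 5, ch (u (o, i)) (u (ord (o, i))) := by
  simp only [blockChanges, ch]
  push_cast
  rfl

theorem sum_z (I' : E3Lin) (f : I'.Occ × Fin 5 → ℤ) :
    ∑ x, f x = ∑ o, (f (o, 0) + f (o, 1) + f (o, 2) + f (o, 3) + f (o, 4)) := by
  rw [Fintype.sum_prod_type]
  apply Finset.sum_congr rfl
  intro o _
  rw [Fin.sum_univ_five]

theorem z_part : ∑ x, |imb nxt ord u sel (z x)| =
    ∑ o, (|slab sel o - bi (u (o, 0))| + ch (u (o, 1)) (u (o, 2)) +
      ch (u (o, 2)) (u (o, 3)) + ch (u (o, 3)) (u (o, 4)) + ch (u (o, 4)) (u (nxt o, 0))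
      + ∑ i : Fin 5, ch (u (o, i)) (u (ord (o, i)))) := by
  have h1 : ∑ x, |imb nxt ord u sel (z x)| =
      ∑ o, (|slab sel o - bi (u (o, 0))| + ch (u (o, 1)) (u (o, 2)) +
      ch (u (o, 2)) (u (o, 3)) + ch (u (o, 3)) (u (o, 4)) + ch (u (o, 4)) (u (nxt o, 0)))
      + ∑ x : I.Occ × Fin 5, ch (u (ord.symm x)) (u x) := by
    rw [sum_z, sum_z, ← Finset.sum_add_distrib]
    apply Finset.sum_congr rfl
    intro o _
    rw [imb_z0, imb_zi _ _ _ _ _ (by simp), imb_zi _ _ _ _ _ (by simp),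
      imb_zi _ _ _ _ _ (by simp), imb_zi _ _ _ _ _ (by simp)]
    obtain ⟨t, ht⟩ := slab01 sel o
    rw [ht]
    simp only [sc, two_step]
    rw [← ch_eq, ch_comm (u (ord.symm (o, 0))), ch_comm (u (ord.symm (o, 1))),
      ch_comm (u (ord.symm (o, 2))), ch_comm (u (ord.symm (o, 3))), ch_comm (u (ord.symm (o, 4))),
      ch_comm t]
    ring
  rw [h1]
  have h2 : ∑ x : I.Occ × Fin 5, ch (u (ord.symm x)) (u x) =
      ∑ o, ∑ i : Fin 5, ch (u (o, i)) (u (ord (o, i))) := by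
    rw [← Equiv.sum_comp ord, Fintype.sum_prod_type]
    simp
  rw [h2, ← Finset.sum_add_distrib]

theorem sum_imb_ge : ∃ c : I.Occ → Bool,
    ∑ o, (blockChanges nxt ord u c o : ℤ) +
      2 * ∑ e, ch (xor (c (e, 0)) (xor (c (e, 1)) (c (e, 2)))) (I.rhs e) ≤
    ∑ a, |imb nxt ord u sel a| := by
  have hv := fun e : Fin I.m => cluster_aux (I.rhs e) (sel (e, 0)) (sel (e, 1)) (sel (e, 2))
    (u ((e, 0), 0)) (u ((e, 1), 0)) (u ((e, 2), 0)) (u ((e, 0), 1)) (u ((e, 1), 1)) (u ((e, 2), 1))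
  choose v0 v1 v2 hv using hv
  refine ⟨fun o => if o.2 = 0 then v0 o.1 else if o.2 = 1 then v1 o.1 else v2 o.1, ?_⟩
  rw [sum_letter, z_part]
  have hq : 0 ≤ ∑ e, |imb nxt ord u sel (q e)| := Finset.sum_nonneg fun _ _ => abs_nonneg _
  have hmain : ∑ o, (blockChanges nxt ord u (fun o => if o.2 = 0 then v0 o.1 else
      if o.2 = 1 then v1 o.1 else v2 o.1) o : ℤ) +
      2 * ∑ e, ch (xor (v0 e) (xor (v1 e) (v2 e))) (I.rhs e) ≤
      ∑ o, (|slab sel o - bi (u (o, 0))| + ch (u (o, 1)) (u (o, 2)) +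
      ch (u (o, 2)) (u (o, 3)) + ch (u (o, 3)) (u (o, 4)) + ch (u (o, 4)) (u (nxt o, 0))
      + ∑ i : Fin 5, ch (u (o, i)) (u (ord (o, i)))) + (∑ o, |imb nxt ord u sel (g o)|
      + ∑ e, |imb nxt ord u sel (h e)|) := by
    rw [← add_assoc, ← Finset.sum_add_distrib, Finset.mul_sum, Fintype.sum_prod_type,
      Fintype.sum_prod_type, ← Finset.sum_add_distrib, ← Finset.sum_add_distrib]
    apply Finset.sum_le_sum
    intro e _
    have h0 : slab sel (e, 0) = ind (sel (e, 0)) 0 := by simp [slab, Inv]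
    have h1 : slab sel (e, 1) = ind (sel (e, 1)) 0 := by simp [slab, Inv]
    have h2 : slab sel (e, 2) = if I.rhs e = false then 1 - ind (sel (e, 2)) 0
      else ind (sel (e, 2)) 0 := by simp [slab, Inv]
    have := hv e
    simp only [Fin.sum_univ_three, block_cast, imb_g, imb_h, h0, h1, h2]
    have i0 : ((0 : Fin 3) - 1) = 2 := rfl
    have i1 : ((1 : Fin 3) - 1) = 0 := rfl
    have i2 : ((2 : Fin 3) - 1) = 1 := rfl
    have j1 : ¬ ((1 : Fin 3) = 0) := by decide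
    have j2 : ¬ ((2 : Fin 3) = 0) := by decide
    have j3 : ¬ ((2 : Fin 3) = 1) := by decide
    simp only [i0, i1, i2, j1, j2, j3, if_true, if_false]
    linarith
  have e : ∑ e, ch (xor (if (e, (0 : Fin 3)).2 = 0 then v0 (e, (0 : Fin 3)).1 else
      if (e, (0 : Fin 3)).2 = 1 then v1 (e, (0 : Fin 3)).1 else v2 (e, (0 : Fin 3)).1)
      (xor (if (e, (1 : Fin 3)).2 = 0 then v0 (e, (1 : Fin 3)).1 else
      if (e, (1 : Fin 3)).2 = 1 then v1 (e, (1 : Fin 3)).1 else v2 (e, (1 : Fin 3)).1)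
      (if (e, (2 : Fin 3)).2 = 0 then v0 (e, (2 : Fin 3)).1 else
      if (e, (2 : Fin 3)).2 = 1 then v1 (e, (2 : Fin 3)).1 else v2 (e, (2 : Fin 3)).1))) (I.rhs e)
      = ∑ e, ch (xor (v0 e) (xor (v1 e) (v2 e))) (I.rhs e) := by
    apply Finset.sum_congr rfl
    intro e _
    simp
  simp only at e ⊢
  rw [e]
  linarith

end Vale.Agent.P333
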