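import Mathlib

namespace Vale.Agent.P333

open Finset

theorem exists_pos_of_infix {α : Type*} {s T : List α} (h : s <:+: T) :
    ∃ p, p + s.length ≤ T.length ∧ ∀ i < s.length, T[p + i]? = s[i]? := by
  obtain ⟨l₁, l₂, rfl⟩ := h
  refine ⟨l₁.length, by simp, ?_⟩
  intro i hi
  rw [List.append_assoc, List.getElem?_append_right (by omega), Nat.add_sub_cancel_left,
    List.getElem?_append_left hi]

theorem superstring_lower {α C : Type*} [Fintype α] [DecidableEq α] [Fintype C] [DecidableEq C]
    (str : C → List α) (nx : Equiv.Perm C) (fst lst : C → α)
    (hlen : ∀ π, 2 ≤ (str π).length)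
    (hfst : ∀ π, (str π)[0]? = some (fst π))
    (hlst : ∀ π, (str π)[(str π).length - 1]? = some (lst (nx π)))
    (H3 : ∀ π ρ d, 3 ≤ (str ρ).length → d + 3 ≤ (str π).length →
      (∀ i < 3, (str π)[d + i]? = (str ρ)[i]?) → π = ρ ∧ d = 0)
    (H2a : ∀ π ρ d, (str ρ).length = 2 → d + 2 ≤ (str π).length →
      (∀ i < 2, (str π)[d + i]? = (str ρ)[i]?) → π = ρ)
    (H2b : ∀ π ρ, 3 ≤ (str ρ).length → 3 ≤ (str π).length →
      (∀ i < 2, (str π)[(str π).length - 2 + i]? = (str ρ)[i]?) → ρ = nx π)
    (T : List α) (hT : ∀ π, str π <:+: T) :
    ∃ K : Finset C, (∀ π, ∃ k : ℕ, (nx ^ k) π ∈ K) ∧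
      ∑ π, ((str π).length - 2) + 2 * K.card ≤ T.length +
        ∑ a : α, min (K.filter (fun π => fst π = a)).card (K.filter (fun π => lst π = a)).card := by
  classical
  choose p hp1 hp2 using fun π => exists_pos_of_infix (hT π)
  -- key overlap lemma
  have key : ∀ s t, s ≠ t → p s ≤ p t → p s + (str s).length ≤ p t + 2 := by
    intro s t hst hle
    by_contra hcon
    push Not at hcon
    have hs := hlen s
    have ht := hlen t
    by_cases h3 : 3 ≤ (str t).length
    · have := H3 s t (p t - p s) h3 (by omega) (by
        intro i hi
        rw [← hp2 s (p t - p s + i) (by omega), ← hp2 t i (by omega)]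
        congr 1; omega)
      exact hst this.1
    · have := H2a s t (p t - p s) (by omega) (by omega) (by
        intro i hi
        rw [← hp2 s (p t - p s + i) (by omega), ← hp2 t i (by omega)]
        congr 1; omega)
      exact hst this
  have key2 : ∀ s t, s ≠ t → p s ≤ p t → (str t).length = 2 → p s + (str s).length ≤ p t + 1 := by
    intro s t hst hle h2
    by_contra hcon
    push Not at hcon
    have hs := hlen s
    have := H2a s t (p t - p s) h2 (by omega) (by
        intro i hi
        rw [← hp2 s (p t - p s + i) (by omega), ← hp2 t i (by omega)]
        congr 1; omega)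
    exact hst this
  have pinj : Function.Injective p := by
    intro s t hst
    by_contra hne
    have h1 := key s t hne hst.le
    have h2 := key t s (Ne.symm hne) hst.ge
    have hs := hlen s
    have ht := hlen t
    have := key2 s t hne hst.le (by omega)
    omega
  -- 2-overlap forces `t = nx s`
  have key3 : ∀ s t, s ≠ t → p s ≤ p t → p s + (str s).length = p t + 2 →
      t = nx s ∧ 3 ≤ (str t).length := by
    intro s t hst hle heq
    have ht := hlen t
    have hs := hlen s
    have h3 : 3 ≤ (str t).length := by
      by_contra h
      have := key2 s t hst hle (by omega)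
      omega
    have hs3 : 3 ≤ (str s).length := by
      by_contra h
      have hpe : p s = p t := by omega
      exact hst (pinj hpe)
    refine ⟨?_, h3⟩
    apply H2b s t h3 hs3
    intro i hi
    rw [← hp2 s ((str s).length - 2 + i) (by omega), ← hp2 t i (by omega)]
    congr 1; omega
  let linked : C → Prop := fun t =>
    3 ≤ (str t).length ∧ p t + 2 = p (nx.symm t) + (str (nx.symm t)).length ∧ nx.symm t ≠ t
  let K : Finset C := univ.filter (fun t => ¬ linked t)
  have hK : ∀ t, t ∈ K ↔ ¬ linked t := by intro t; simp [K]
  -- not linked from a 2-overlap is contradictory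
  have key4 : ∀ s t, s ≠ t → p s ≤ p t → p s + (str s).length = p t + 2 → linked t := by
    intro s t hst hle heq
    obtain ⟨h1, h2⟩ := key3 s t hst hle heq
    have hs : nx.symm t = s := by rw [h1]; simp
    refine ⟨h2, ?_, ?_⟩
    · rw [hs]; omega
    · rw [hs]; exact hst
  refine ⟨K, ?_, ?_⟩
  · intro π
    by_contra hcon
    push Not at hcon
    have hl : ∀ k : ℕ, linked ((nx ^ k) π) := by
      intro k
      have := hcon k
      rw [hK, not_not] at this
      exact this
    have hmono : ∀ k : ℕ, p π + k ≤ p ((nx ^ k) π) := by
      intro k
      induction k with
      | zero => simp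
      | succ k ih =>
        have h1 := hl (k + 1)
        have h2 := (hl k).1
        have h3 : nx.symm ((nx ^ (k + 1)) π) = (nx ^ k) π := by
          rw [pow_succ', Equiv.Perm.mul_apply]; simp
        have h4 := h1.2.1
        rw [h3] at h4
        omega
    have ho := hmono (orderOf nx)
    rw [pow_orderOf_eq_one, Equiv.Perm.one_apply] at ho
    have hpos : 0 < orderOf nx := orderOf_pos nx
    omega
  · -- counting
    let K' : Finset C := K.filter (fun t => ¬ ∃ s, p s + (str s).length = p t + 1)
    let D : Finset C := K.filter (fun t => ∃ s, p s + (str s).length = p t + 1)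
    have hKsplit : K.card = K'.card + D.card := by
      have := Finset.card_filter_add_card_filter_not (s := K)
        (fun t => ∃ s, p s + (str s).length = p t + 1)
      simp only [K', D]
      omega
    let body : C → Finset ℕ := fun s => Ico (p s + 2) (p s + (str s).length)
    have hbody_card : ∀ s, (body s).card = (str s).length - 2 := by
      intro s; simp [body]; omega
    have hbody_disj : (Set.univ : Set C).PairwiseDisjoint body := by
      intro s _ t _ hst
      simp only [Function.onFun]
      rw [Finset.disjoint_left]
      intro x hx hx'
      simp only [body, mem_Ico] at hx hx'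
      rcases le_total (p s) (p t) with h | h
      · have := key s t hst h; omega
      · have := key t s (Ne.symm hst) h; omega
    let B : Finset ℕ := univ.biUnion body
    have hB : B.card = ∑ π, ((str π).length - 2) := by
      simp only [B]
      rw [Finset.card_biUnion]
      · exact Finset.sum_congr rfl (fun s _ => hbody_card s)
      · intro s _ t _ hst
        exact hbody_disj (Set.mem_univ s) (Set.mem_univ t) hst
    let Sec : Finset ℕ := K.image (fun t => p t + 1)
    have hSec : Sec.card = K.card := by
      apply Finset.card_image_of_injective
      intro a b hab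
      simp only at hab
      exact pinj (by omega)
    let Fs : Finset ℕ := K'.image p
    have hFs : Fs.card = K'.card := Finset.card_image_of_injective _ pinj
    have hd1 : Disjoint B Sec := by
      rw [Finset.disjoint_left]
      intro x hx hx'
      simp only [B, Sec, mem_biUnion, mem_univ, true_and, mem_image, body, mem_Ico] at hx hx'
      obtain ⟨s, hs⟩ := hx
      obtain ⟨t, ht, rfl⟩ := hx'
      have hst : s ≠ t := by rintro rfl; omega
      have h1 := key s t hst (by omega)
      exact (hK t).1 ht (key4 s t hst (by omega) (by omega))
    have hd2 : Disjoint (B ∪ Sec) Fs := by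
      rw [Finset.disjoint_left]
      intro x hx hx'
      simp only [Fs, mem_image] at hx'
      obtain ⟨t, ht, rfl⟩ := hx'
      simp only [K', mem_filter] at ht
      obtain ⟨htK, htn⟩ := ht
      push Not at htn
      rw [mem_union] at hx
      rcases hx with hx | hx
      · simp only [B, mem_biUnion, mem_univ, true_and, body, mem_Ico] at hx
        obtain ⟨s, hs⟩ := hx
        have hst : s ≠ t := by rintro rfl; omega
        have h1 := key s t hst (by omega)
        have h2 := htn s
        exact (hK t).1 htK (key4 s t hst (by omega) (by omega))
      · simp only [Sec, mem_image] at hx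
        obtain ⟨t', ht', heq⟩ := hx
        have hst : t' ≠ t := by rintro rfl; omega
        have h1 := key t' t hst (by omega)
        have h2 := htn t'
        have h3 := hlen t'
        exact (hK t).1 htK (key4 t' t hst (by omega) (by omega))
    have hsub : (B ∪ Sec) ∪ Fs ⊆ range T.length := by
      intro x hx
      rw [mem_range]
      rw [mem_union, mem_union] at hx
      rcases hx with (hx | hx) | hx
      · simp only [B, mem_biUnion, mem_univ, true_and, body, mem_Ico] at hx
        obtain ⟨s, hs⟩ := hx
        have := hp1 s; omega
      · simp only [Sec, mem_image] at hx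
        obtain ⟨t, ht, rfl⟩ := hx
        have := hp1 t; have := hlen t; omega
      · simp only [Fs, mem_image] at hx
        obtain ⟨t, ht, rfl⟩ := hx
        have := hp1 t; have := hlen t; omega
    have hcard := Finset.card_le_card hsub
    rw [Finset.card_union_of_disjoint hd2, Finset.card_union_of_disjoint hd1, hB, hSec, hFs,
      card_range] at hcard
    -- matched starts
    have hD : D.card ≤ ∑ a : α,
        min (K.filter (fun π => fst π = a)).card (K.filter (fun π => lst π = a)).card := by
      have h1 : D.card = ∑ a : α, (D.filter (fun π => fst π = a)).card := by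
        rw [← Finset.card_eq_sum_card_fiberwise (f := fst) (t := univ)]
        intro x _; simp
      rw [h1]
      apply Finset.sum_le_sum
      intro a _
      apply le_min
      · apply Finset.card_le_card
        intro x hx
        simp only [D, mem_filter] at hx ⊢
        exact ⟨hx.1.1, hx.2⟩
      · -- injection
        have hex : ∀ t ∈ D, ∃ s, p s + (str s).length = p t + 1 := by
          intro t ht
          simp only [D, mem_filter] at ht
          exact ht.2
        choose! σ hσ using hex
        apply Finset.card_le_card_of_injOn (fun t => nx (σ t))
        · intro t ht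
          simp only [Finset.coe_filter, Set.mem_ofPred_eq] at ht ⊢
          obtain ⟨htD, hta⟩ := ht
          have hs := hσ t htD
          have htK : t ∈ K := (mem_filter.1 htD).1
          constructor
          · rw [hK]
            intro hlk
            obtain ⟨l1, l2, l3⟩ := hlk
            rw [Equiv.symm_apply_apply] at l2 l3
            have hne : nx (σ t) ≠ t := by rintro h; rw [h] at l2; omega
            have h1 := key (nx (σ t)) t hne (by omega)
            exact (hK t).1 htK (key4 (nx (σ t)) t hne (by omega) (by omega))
          · have e1 : (str (σ t))[(str (σ t)).length - 1]? = some (lst (nx (σ t))) := hlst (σ t)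
            have e2 : (str t)[0]? = some (fst t) := hfst t
            have hl := hlen (σ t)
            have hl2 := hlen t
            rw [← hp2 (σ t) _ (by omega)] at e1
            rw [← hp2 t 0 (by omega)] at e2
            have : p (σ t) + ((str (σ t)).length - 1) = p t + 0 := by omega
            rw [this, e2] at e1
            rw [← hta]
            exact (Option.some.inj e1).symm
        · intro t ht t' ht' heq
          simp only [Finset.coe_filter, Set.mem_ofPred_eq] at ht ht'
          have h1 := hσ t ht.1
          have h2 := hσ t' ht'.1
          have h3 : σ t = σ t' := nx.injective heq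
          rw [h3] at h1
          exact pinj (by omega)
    omega

end Vale.Agent.P333
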