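import Vale.Agent.P333.Base
import Vale.Agent.P333.Lower

namespace Vale.Agent.P333

open Finset Letter

variable {I : E3Lin}

theorem pre_ne_h (nxt : Equiv.Perm I.Occ) (x : I.Occ × Fin 5) (e : Fin I.m) :
    pre nxt x ≠ h e := by
  rcases x with ⟨o, i⟩
  fin_cases i <;> simp [pre]

theorem pre_ne_q (nxt : Equiv.Perm I.Occ) (x : I.Occ × Fin 5) (e : Fin I.m) :
    pre nxt x ≠ q e := by
  rcases x with ⟨o, i⟩
  fin_cases i <;> simp [pre]

theorem pre_zero_ne_g (nxt : Equiv.Perm I.Occ) (o o' : I.Occ) :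
    pre nxt (o, 0) ≠ g o' := by
  simp [pre]

/-- The cuts. -/
inductive Cut (I : E3Lin) : Type
  | A (x : I.Occ × Fin 5) : Cut I
  | B (x : I.Occ × Fin 5) : Cut I
  | C1 (o : I.Occ) : Cut I
  | C2 (o : I.Occ) : Cut I
  | C3 (o : I.Occ) : Cut I
  | F (e : {e : Fin I.m // I.rhs e = false}) : Cut I
  | R (e : Fin I.m) : Cut I
deriving DecidableEq, Fintype

open Cut

variable (nxt : Equiv.Perm I.Occ) (ord : Equiv.Perm (I.Occ × Fin 5))

def str : Cut I → List (Letter I)
  | A x => sA I nxt ord x
  | B x => sB I nxt ord x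
  | C1 o => s1 I o
  | C2 o => s2 I o
  | C3 o => s3 I o
  | F e => sF I e
  | R e => sR I e

def nx : Equiv.Perm (Cut I) where
  toFun
    | A x => B x
    | B x => A x
    | C1 o => C2 o
    | C2 o => C3 o
    | C3 o => C1 o
    | F e => F e
    | R e => R e
  invFun
    | A x => B x
    | B x => A x
    | C1 o => C3 o
    | C2 o => C1 o
    | C3 o => C2 o
    | F e => F e
    | R e => R e
  left_inv := by intro x; cases x <;> rfl
  right_inv := by intro x; cases x <;> rfl

def fst : Cut I → Letter I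
  | A x => pre nxt x
  | B x => z x
  | C1 o => if Inv I o then g o else z (o, 0)
  | C2 o => g o
  | C3 o => h o.1
  | F e => z ((e.1, 2), 0)
  | R e => h e

def lst : Cut I → Letter I
  | A x => z x
  | B x => z (ord x)
  | C1 o => if Inv I o then z (o, 0) else g o
  | C2 o => h o.1
  | C3 o => g (o.1, o.2 + 1)
  | F e => g (e.1, 2)
  | R e => h (finRotate I.m e)

theorem fin3_succ_ne (j : Fin 3) : j + 1 ≠ j := by revert j; decide

theorem len_ge (π : Cut I) : 2 ≤ (str nxt ord π).length := by
  cases π <;> simp [str, sA, sB, s1, s2, s3, sF, sR]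
  all_goals split_ifs <;> simp

theorem str_fst (π : Cut I) : (str nxt ord π)[0]? = some (fst nxt π) := by
  cases π <;> simp [str, sA, sB, s1, s2, s3, sF, sR, fst]
  all_goals split_ifs <;> simp

theorem str_lst (π : Cut I) :
    (str nxt ord π)[(str nxt ord π).length - 1]? = some (lst ord (nx π)) := by
  cases π <;> simp [str, sA, sB, s1, s2, s3, sF, sR, lst, nx]
  all_goals split_ifs <;> simp

end Vale.Agent.P333
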