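import Mathlib

namespace Vale.Agent.P333

open Finset

/-- `T` contains every string of the family `S` as a contiguous substring. -/
def IsSuperstring {α : Type} (S : Finset (List α)) (T : List α) : Prop := ∀ s ∈ S, s <:+: T

/-- The length of a shortest common superstring. -/
noncomputable def opt {α : Type} (S : Finset (List α)) : ℕ :=
  sInf {k : ℕ | ∃ T : List α, IsSuperstring S T ∧ T.length = k}

/-- A system of `m` linear equations mod 2 in `n` variables, three variable positions each. -/
structure E3Lin where
  n : ℕ
  m : ℕ
  var : Fin m × Fin 3 → Fin n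
  rhs : Fin m → Bool

namespace E3Lin

/-- The occurrences of variables: position `j` of equation `e`. -/
abbrev Occ (I : E3Lin) : Type := Fin I.m × Fin 3

/-- Number of equations violated by `x`. -/
def unsat (I : E3Lin) (x : Fin I.n → Bool) : ℕ :=
  (univ.filter fun e : Fin I.m =>
    xor (x (I.var (e, 0))) (xor (x (I.var (e, 1))) (x (I.var (e, 2)))) ≠ I.rhs e).card

/-- Least number of violated equations. -/
noncomputable def minUnsat (I : E3Lin) : ℕ := ⨅ x, I.unsat x

/-- The number of equations with right side 0. -/
def m0 (I : E3Lin) : ℕ := (univ.filter fun e => I.rhs e = false).card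

/-- The occurrences of variable `v`. -/
def occ (I : E3Lin) (v : Fin I.n) : Finset I.Occ := univ.filter fun o => I.var o = v

/-- The system obtained by complementing every variable. -/
abbrev flip (I : E3Lin) : E3Lin := { I with rhs := fun e => !I.rhs e }

end E3Lin

/-- Number of label changes at block `o`. `nxt` is the cyclic order of the contacts; block `o` is
`(o,0), contact o, (o,1), (o,2), (o,3), (o,4)` and is followed by block `nxt o`; `ord` is the second
cyclic order, on the elements only. `u` labels the elements, `c` labels the contacts. -/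
def blockChanges {O : Type} (nxt : Equiv.Perm O) (ord : Equiv.Perm (O × Fin 5))
    (u : O × Fin 5 → Bool) (c : O → Bool) (o : O) : ℕ :=
  (if u (o, 0) ≠ c o then 1 else 0) + (if c o ≠ u (o, 1) then 1 else 0)
    + (if u (o, 1) ≠ u (o, 2) then 1 else 0) + (if u (o, 2) ≠ u (o, 3) then 1 else 0)
    + (if u (o, 3) ≠ u (o, 4) then 1 else 0) + (if u (o, 4) ≠ u (nxt o, 0) then 1 else 0)
    + ∑ i : Fin 5, if u (o, i) ≠ u (ord (o, i)) then 1 else 0

/-- The alphabet of the superstring instance: `z` for the elements, `g` for the contacts, `h` and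
`q` for the equations. -/
inductive Letter (I : E3Lin) : Type
  | z (x : I.Occ × Fin 5) : Letter I
  | g (o : I.Occ) : Letter I
  | h (e : Fin I.m) : Letter I
  | q (e : Fin I.m) : Letter I

open Letter

/-- The letter that precedes `z x` in the first cyclic order. -/
def pre {I : E3Lin} (nxt : Equiv.Perm I.Occ) (x : I.Occ × Fin 5) : Letter I :=
  if x.2 = 0 then z (nxt.symm x.1, 4) else if x.2 = 1 then g x.1 else z (x.1, x.2 - 1)

/-- For every variable, two cyclic orders with the amplifier property. -/
structure Wheels (I : E3Lin) where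
  nxt : Equiv.Perm I.Occ
  ord : Equiv.Perm (I.Occ × Fin 5)
  nxt_var : ∀ o, I.var (nxt o) = I.var o
  ord_var : ∀ x, I.var (ord x).1 = I.var x.1
  nxt_cycle : ∀ o o', I.var o = I.var o' → nxt.SameCycle o o'
  ord_cycle : ∀ x y, I.var x.1 = I.var y.1 → ord.SameCycle x y
  pre_ord : ∀ x, pre nxt (ord x) ≠ z x
  amp : ∀ (v : Fin I.n) (u : I.Occ × Fin 5 → Bool) (c : I.Occ → Bool),
    2 * min ((I.occ v).filter fun o => c o = true).card ((I.occ v).filter fun o => c o = false).card
      ≤ ∑ o ∈ I.occ v, blockChanges nxt ord u c o + 4

open Classical in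
/-- The superstring instance: two strings for every element, three for every contact, one for every
equation with right side 0, and one that joins every equation to the next one. -/
noncomputable def strings (I : E3Lin) (nxt : Equiv.Perm I.Occ) (ord : Equiv.Perm (I.Occ × Fin 5)) :
    Finset (List (Letter I)) :=
  univ.image (fun x : I.Occ × Fin 5 => [pre nxt x, z x, z (ord x)])
    ∪ univ.image (fun x : I.Occ × Fin 5 => [z x, z (ord x), pre nxt x, z x])
    ∪ univ.image (fun o : I.Occ => if o.2 = 2 ∧ I.rhs o.1 = false
        then [g o, z (o, 0), g o, h o.1] else [z (o, 0), g o, h o.1])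
    ∪ univ.image (fun o : I.Occ => [g o, h o.1, g (o.1, o.2 + 1)])
    ∪ univ.image (fun o : I.Occ => if o.2 = 2 ∧ I.rhs o.1 = false
        then [h o.1, g (o.1, o.2 + 1), g o, z (o, 0)]
        else [h o.1, g (o.1, o.2 + 1), z (o, 0), g o])
    ∪ (univ.filter fun e => I.rhs e = false).image (fun e => [z ((e, 2), 0), q e, g (e, 2)])
    ∪ univ.image (fun e : Fin I.m => [h e, h (finRotate I.m e)])

end Vale.Agent.P333
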