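import Vale.Agent.P333.Sums
import Vale.Agent.P333.Cluster

namespace Vale.Agent.P333

open Finset Letter Cut

variable {I : E3Lin} (nxt : Equiv.Perm I.Occ) (ord : Equiv.Perm (I.Occ × Fin 5))
variable (u : I.Occ × Fin 5 → Bool) (sel : I.Occ → Fin 3)

def kap : Cut I → ℤ
  | A x => bi (u x)
  | B x => 1 - bi (u x)
  | C1 o => ind (sel o) 0
  | C2 o => ind (sel o) 1
  | C3 o => ind (sel o) 2
  | F _ => 1
  | R _ => 1

/-- the imbalance of a letter -/
def imb (a : Letter I) : ℤ :=
  ∑ π, kap u sel π * ((if fst nxt π = a then 1 else 0) - (if lst ord π = a then 1 else 0))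

def slab (o : I.Occ) : ℤ := if Inv I o then 1 - ind (sel o) 0 else ind (sel o) 0

theorem imb_z0 (o : I.Occ) : imb nxt ord u sel (z (o, 0)) =
    (slab sel o - bi (u (o, 0))) + (bi (u (ord.symm (o, 0))) - bi (u (o, 0))) := by
  have hp : ∀ x, pre nxt x ≠ z (o, 0) := by
    rintro ⟨x, i⟩
    fin_cases i <;> simp [pre]
  have e1 : ∑ x, kap u sel (A x) * ((if fst nxt (A x) = z (o, 0) then 1 else 0) -
      (if lst ord (A x) = z (o, 0) then 1 else 0)) = - bi (u (o, 0)) := by
    simp [kap, fst, lst, hp]
  have e2 : ∑ x, kap u sel (B x) * ((if fst nxt (B x) = z (o, 0) then 1 else 0) -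
      (if lst ord (B x) = z (o, 0) then 1 else 0)) =
      (1 - bi (u (o, 0))) - (1 - bi (u (ord.symm (o, 0)))) := by
    simp only [kap, fst, lst, mul_sub, Finset.sum_sub_distrib, Letter.z.injEq, mul_ite, mul_one,
      mul_zero, Finset.sum_ite_eq', Finset.mem_univ, if_true]
    congr 1
    rw [Finset.sum_eq_single (ord.symm (o, 0))]
    · simp
    · intro b _ hb
      rw [if_neg]
      intro h
      apply hb
      rw [← h]; simp
    · simp
  have e3 : ∑ x, kap u sel (C1 x) * ((if fst nxt (C1 x) = z (o, 0) then 1 else 0) -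
      (if lst ord (C1 x) = z (o, 0) then 1 else 0)) =
      (if Inv I o then - ind (sel o) 0 else ind (sel o) 0) := by
    rw [Finset.sum_eq_single o]
    · by_cases hI : Inv I o <;> simp [kap, fst, lst, hI]
    · intro b _ hb
      by_cases hI : Inv I b <;> simp [kap, fst, lst, hI, hb]
    · simp
  have e4 : ∑ x, kap u sel (C2 x) * ((if fst nxt (C2 x) = z (o, 0) then 1 else 0) -
      (if lst ord (C2 x) = z (o, 0) then 1 else 0)) = 0 := by
    simp [kap, fst, lst]
  have e5 : ∑ x, kap u sel (C3 x) * ((if fst nxt (C3 x) = z (o, 0) then 1 else 0) -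
      (if lst ord (C3 x) = z (o, 0) then 1 else 0)) = 0 := by
    simp [kap, fst, lst]
  have e6 : ∑ x, kap u sel (F x) * ((if fst nxt (F x) = z (o, 0) then 1 else 0) -
      (if lst ord (F x) = z (o, 0) then 1 else 0)) = if Inv I o then 1 else 0 := by
    simp only [kap, fst, lst, one_mul, Letter.z.injEq, reduceCtorEq, if_false, sub_zero,
      Prod.mk.injEq, and_true]
    by_cases hI : Inv I o
    · rw [if_pos hI]
      rw [Finset.sum_eq_single (⟨o.1, hI.2⟩ : {e : Fin I.m // I.rhs e = false})]
      · rw [if_pos]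
        exact Prod.ext rfl hI.1.symm
      · intro b _ hb
        rw [if_neg]
        intro h
        exact hb (Subtype.ext (congrArg Prod.fst h))
      · simp
    · rw [if_neg hI]
      apply Finset.sum_eq_zero
      intro b _
      rw [if_neg]
      intro h
      apply hI
      rw [← h]
      exact ⟨rfl, b.2⟩
  have e7 : ∑ x, kap u sel (R x) * ((if fst nxt (R x) = z (o, 0) then 1 else 0) -
      (if lst ord (R x) = z (o, 0) then 1 else 0)) = 0 := by
    simp [kap, fst, lst]
  rw [imb, sum_cut, e1, e2, e3, e4, e5, e6, e7, slab]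
  by_cases hI : Inv I o
  · simp only [if_pos hI]; ring
  · simp only [if_neg hI]; ring

/-- successor in the first order -/
def sc : I.Occ × Fin 5 → I.Occ × Fin 5
  | (o, 0) => (o, 1)
  | (o, 1) => (o, 2)
  | (o, 2) => (o, 3)
  | (o, 3) => (o, 4)
  | (o, 4) => (nxt o, 0)

theorem pre_eq_z (x y : I.Occ × Fin 5) (hy : y.2 ≠ 0) : pre nxt x = z y ↔ x = sc nxt y := by
  rcases x with ⟨o, i⟩
  rcases y with ⟨o', j⟩
  fin_cases i <;> fin_cases j <;> simp [pre, sc] at hy ⊢
  exact Equiv.symm_apply_eq nxt

theorem imb_zi (y : I.Occ × Fin 5) (hy : y.2 ≠ 0) : imb nxt ord u sel (z y) =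
    (bi (u (sc nxt y)) - bi (u y)) + (bi (u (ord.symm y)) - bi (u y)) := by
  have hy' : ∀ o : I.Occ, (o, (0 : Fin 5)) ≠ y := by
    intro o ho
    apply hy
    rw [← ho]
  have e1 : ∑ x, kap u sel (A x) * ((if fst nxt (A x) = z y then 1 else 0) -
      (if lst ord (A x) = z y then 1 else 0)) = bi (u (sc nxt y)) - bi (u y) := by
    simp [kap, fst, lst, pre_eq_z nxt _ y hy, mul_sub, Finset.sum_sub_distrib]
  have e2 : ∑ x, kap u sel (B x) * ((if fst nxt (B x) = z y then 1 else 0) -
      (if lst ord (B x) = z y then 1 else 0)) =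
      (1 - bi (u y)) - (1 - bi (u (ord.symm y))) := by
    simp only [kap, fst, lst, mul_sub, Finset.sum_sub_distrib, Letter.z.injEq, mul_ite, mul_one,
      mul_zero, Finset.sum_ite_eq', Finset.mem_univ, if_true]
    congr 1
    rw [Finset.sum_eq_single (ord.symm y)]
    · simp
    · intro b _ hb
      rw [if_neg]
      intro h
      apply hb
      rw [← h]; simp
    · simp
  have e3 : ∑ x, kap u sel (C1 x) * ((if fst nxt (C1 x) = z y then 1 else 0) -
      (if lst ord (C1 x) = z y then 1 else 0)) = 0 := by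
    apply Finset.sum_eq_zero
    intro b _
    by_cases hI : Inv I b <;> simp [kap, fst, lst, hI, hy']
  have e4 : ∑ x, kap u sel (C2 x) * ((if fst nxt (C2 x) = z y then 1 else 0) -
      (if lst ord (C2 x) = z y then 1 else 0)) = 0 := by
    simp [kap, fst, lst]
  have e5 : ∑ x, kap u sel (C3 x) * ((if fst nxt (C3 x) = z y then 1 else 0) -
      (if lst ord (C3 x) = z y then 1 else 0)) = 0 := by
    simp [kap, fst, lst]
  have e6 : ∑ x, kap u sel (F x) * ((if fst nxt (F x) = z y then 1 else 0) -
      (if lst ord (F x) = z y then 1 else 0)) = 0 := by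
    simp [kap, fst, lst, hy']
  have e7 : ∑ x, kap u sel (R x) * ((if fst nxt (R x) = z y then 1 else 0) -
      (if lst ord (R x) = z y then 1 else 0)) = 0 := by
    simp [kap, fst, lst]
  rw [imb, sum_cut, e1, e2, e3, e4, e5, e6, e7]
  ring

theorem pre_eq_g (x : I.Occ × Fin 5) (o : I.Occ) : pre nxt x = g o ↔ x = (o, 1) := by
  rcases x with ⟨o', i⟩
  fin_cases i <;> simp [pre]

theorem imb_g (o : I.Occ) : imb nxt ord u sel (g o) =
    bi (u (o, 1)) - slab sel o + ind (sel o) 1 - ind (sel (o.1, o.2 - 1)) 2 := by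
  have e1 : ∑ x, kap u sel (A x) * ((if fst nxt (A x) = g o then 1 else 0) -
      (if lst ord (A x) = g o then 1 else 0)) = bi (u (o, 1)) := by
    simp [kap, fst, lst, pre_eq_g]
  have e2 : ∑ x, kap u sel (B x) * ((if fst nxt (B x) = g o then 1 else 0) -
      (if lst ord (B x) = g o then 1 else 0)) = 0 := by
    simp [kap, fst, lst]
  have e3 : ∑ x, kap u sel (C1 x) * ((if fst nxt (C1 x) = g o then 1 else 0) -
      (if lst ord (C1 x) = g o then 1 else 0)) =
      (if Inv I o then ind (sel o) 0 else - ind (sel o) 0) := by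
    rw [Finset.sum_eq_single o]
    · by_cases hI : Inv I o <;> simp [kap, fst, lst, hI]
    · intro b _ hb
      by_cases hI : Inv I b <;> simp [kap, fst, lst, hI, hb]
    · simp
  have e4 : ∑ x, kap u sel (C2 x) * ((if fst nxt (C2 x) = g o then 1 else 0) -
      (if lst ord (C2 x) = g o then 1 else 0)) = ind (sel o) 1 := by
    simp [kap, fst, lst]
  have e5 : ∑ x, kap u sel (C3 x) * ((if fst nxt (C3 x) = g o then 1 else 0) -
      (if lst ord (C3 x) = g o then 1 else 0)) = - ind (sel (o.1, o.2 - 1)) 2 := by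
    simp only [kap, fst, lst, Letter.g.injEq, reduceCtorEq, if_false, zero_sub, mul_neg,
      mul_ite, mul_one, mul_zero, Finset.sum_neg_distrib, neg_inj]
    rw [Finset.sum_eq_single (o.1, o.2 - 1)]
    · simp
    · intro b _ hb
      rw [if_neg]
      intro h
      apply hb
      rw [← h]; simp
    · simp
  have e6 : ∑ x, kap u sel (F x) * ((if fst nxt (F x) = g o then 1 else 0) -
      (if lst ord (F x) = g o then 1 else 0)) = if Inv I o then -1 else 0 := by
    simp only [kap, fst, lst, one_mul, Letter.g.injEq, reduceCtorEq, if_false, zero_sub]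
    by_cases hI : Inv I o
    · rw [if_pos hI]
      rw [Finset.sum_eq_single (⟨o.1, hI.2⟩ : {e : Fin I.m // I.rhs e = false})]
      · rw [if_pos]
        exact Prod.ext rfl hI.1.symm
      · intro b _ hb
        rw [if_neg, neg_zero]
        intro h
        exact hb (Subtype.ext (congrArg Prod.fst h))
      · simp
    · rw [if_neg hI]
      apply Finset.sum_eq_zero
      intro b _
      rw [if_neg, neg_zero]
      intro h
      apply hI
      rw [← h]
      exact ⟨rfl, b.2⟩
  have e7 : ∑ x, kap u sel (R x) * ((if fst nxt (R x) = g o then 1 else 0) -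
      (if lst ord (R x) = g o then 1 else 0)) = 0 := by
    simp [kap, fst, lst]
  rw [imb, sum_cut, e1, e2, e3, e4, e5, e6, e7, slab]
  by_cases hI : Inv I o
  · simp only [if_pos hI]; ring
  · simp only [if_neg hI]; ring

theorem imb_h (e : Fin I.m) : imb nxt ord u sel (h e) =
    ∑ j : Fin 3, (ind (sel (e, j)) 2 - ind (sel (e, j)) 1) := by
  have e1 : ∑ x, kap u sel (A x) * ((if fst nxt (A x) = h e then 1 else 0) -
      (if lst ord (A x) = h e then 1 else 0)) = 0 := by
    simp [kap, fst, lst, pre_ne_h nxt]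
  have e2 : ∑ x, kap u sel (B x) * ((if fst nxt (B x) = h e then 1 else 0) -
      (if lst ord (B x) = h e then 1 else 0)) = 0 := by
    simp [kap, fst, lst]
  have e3 : ∑ x, kap u sel (C1 x) * ((if fst nxt (C1 x) = h e then 1 else 0) -
      (if lst ord (C1 x) = h e then 1 else 0)) = 0 := by
    apply Finset.sum_eq_zero
    intro b _
    by_cases hI : Inv I b <;> simp [kap, fst, lst, hI]
  have e4 : ∑ x, kap u sel (C2 x) * ((if fst nxt (C2 x) = h e then 1 else 0) -
      (if lst ord (C2 x) = h e then 1 else 0)) = - ∑ j : Fin 3, ind (sel (e, j)) 1 := by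
    rw [Fintype.sum_prod_type, Finset.sum_eq_single e]
    · simp [kap, fst, lst]
    · intro b _ hb
      simp [kap, fst, lst, hb]
    · simp
  have e5 : ∑ x, kap u sel (C3 x) * ((if fst nxt (C3 x) = h e then 1 else 0) -
      (if lst ord (C3 x) = h e then 1 else 0)) = ∑ j : Fin 3, ind (sel (e, j)) 2 := by
    rw [Fintype.sum_prod_type, Finset.sum_eq_single e]
    · simp [kap, fst, lst]
    · intro b _ hb
      simp [kap, fst, lst, hb]
    · simp
  have e6 : ∑ x, kap u sel (F x) * ((if fst nxt (F x) = h e then 1 else 0) -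
      (if lst ord (F x) = h e then 1 else 0)) = 0 := by
    simp [kap, fst, lst]
  have e7 : ∑ x, kap u sel (R x) * ((if fst nxt (R x) = h e then 1 else 0) -
      (if lst ord (R x) = h e then 1 else 0)) = 0 := by
    simp only [kap, fst, lst, one_mul, Letter.h.injEq, Finset.sum_sub_distrib,
      Finset.sum_ite_eq', Finset.mem_univ, if_true]
    rw [Finset.sum_eq_single ((finRotate I.m).symm e)]
    · rw [Equiv.apply_symm_apply, if_pos rfl, sub_self]
    · intro b _ hb
      rw [if_neg]
      intro h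
      apply hb
      rw [← h, Equiv.symm_apply_apply]
    · simp
  rw [imb, sum_cut, e1, e2, e3, e4, e5, e6, e7, Finset.sum_sub_distrib]
  ring

end Vale.Agent.P333
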