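import Vale.Agent.P333.AmpDefs
import Vale.Agent.P333.Imb

namespace Vale.Agent.P333

open Finset Letter

theorem sameCycle_map {A B : Type*} (p : Equiv.Perm A) (q : Equiv.Perm B) (f : A → B)
    (hf : ∀ a, q (f a) = f (p a)) {a b : A} (h : p.SameCycle a b) : q.SameCycle (f a) (f b) := by
  have hpow : ∀ (n : ℕ) (a : A), (q ^ n) (f a) = f ((p ^ n) a) := by
    intro n
    induction n with
    | zero => intro a; simp
    | succ n ih =>
      intro a
      rw [pow_succ, Equiv.Perm.mul_apply, hf, ih, pow_succ, Equiv.Perm.mul_apply]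
  obtain ⟨i, hi⟩ := h
  rcases i with n | n
  · refine ⟨n, ?_⟩
    rw [Int.ofNat_eq_natCast, zpow_natCast] at hi
    rw [zpow_natCast, hpow, hi]
  · refine ⟨Int.negSucc n, ?_⟩
    rw [zpow_negSucc] at hi ⊢
    rw [Equiv.Perm.inv_eq_iff_eq, hpow, ← hi]
    simp

theorem finRotate_sameCycle {k : ℕ} (hk : 2 ≤ k) (a b : Fin k) : (finRotate k).SameCycle a b := by
  obtain ⟨n, rfl⟩ : ∃ n, k = n + 2 := ⟨k - 2, by omega⟩
  have h := isCycle_finRotate (n := n)
  have hne : ∀ x : Fin (n + 2), finRotate (n + 2) x ≠ x := by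
    intro x
    have := support_finRotate (n := n)
    have hx : x ∈ (finRotate (n + 2)).support := by rw [this]; exact mem_univ _
    exact Equiv.Perm.mem_support.1 hx
  exact h.sameCycle (hne a) (hne b)

section

variable (I : E3Lin) (E : ∀ v : Fin I.n, Fin (I.occ v).card ≃ {o : I.Occ // I.var o = v})

def phi : (Σ v : Fin I.n, Fin (I.occ v).card) ≃ I.Occ :=
  (Equiv.sigmaCongrRight E).trans (Equiv.sigmaFiberEquiv I.var)

theorem phi_var (v : Fin I.n) (j : Fin (I.occ v).card) : I.var (phi I E ⟨v, j⟩) = v :=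
  (E v j).2

def psi : (Σ v : Fin I.n, Fin (I.occ v).card × Fin 5) ≃ I.Occ × Fin 5 :=
  (Equiv.sigmaProdDistrib _ _).symm.trans (Equiv.prodCongr (phi I E) (Equiv.refl _))

theorem psi_apply (v : Fin I.n) (y : Fin (I.occ v).card × Fin 5) :
    psi I E ⟨v, y⟩ = (phi I E ⟨v, y.1⟩, y.2) := rfl

def tnxt : Equiv.Perm I.Occ :=
  (phi I E).symm.trans ((Equiv.sigmaCongrRight fun v => finRotate (I.occ v).card).trans (phi I E))

theorem tnxt_phi (v : Fin I.n) (j : Fin (I.occ v).card) :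
    tnxt I E (phi I E ⟨v, j⟩) = phi I E ⟨v, finRotate _ j⟩ := by
  simp [tnxt]

variable (ω : ∀ v : Fin I.n, Equiv.Perm (Fin (I.occ v).card × Fin 5))

def tord : Equiv.Perm (I.Occ × Fin 5) :=
  (psi I E).symm.trans ((Equiv.sigmaCongrRight ω).trans (psi I E))

theorem tord_psi (v : Fin I.n) (y : Fin (I.occ v).card × Fin 5) :
    tord I E ω (psi I E ⟨v, y⟩) = psi I E ⟨v, ω v y⟩ := by
  simp [tord]

def phiEmb (v : Fin I.n) : Fin (I.occ v).card ↪ I.Occ where
  toFun j := phi I E ⟨v, j⟩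
  inj' a b hab := by
    have := (phi I E).injective hab
    simpa using this

theorem phiEmb_apply (v : Fin I.n) (j : Fin (I.occ v).card) :
    phiEmb I E v j = phi I E ⟨v, j⟩ := rfl

theorem occ_eq_map (v : Fin I.n) : I.occ v = univ.map (phiEmb I E v) := by
  ext o
  simp only [mem_map, mem_univ, true_and, phiEmb_apply]
  have ho : o ∈ I.occ v ↔ I.var o = v := by simp [E3Lin.occ]
  rw [ho]
  constructor
  · intro h
    refine ⟨(E v).symm ⟨o, h⟩, ?_⟩
    simp [phi, Equiv.sigmaFiberEquiv, Equiv.sigmaCongrRight]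
  · rintro ⟨j, rfl⟩
    exact phi_var I E v j

theorem tblock (v : Fin I.n) (u : I.Occ × Fin 5 → Bool) (c : I.Occ → Bool)
    (j : Fin (I.occ v).card) :
    blockChanges (tnxt I E) (tord I E ω) u c (phi I E ⟨v, j⟩) =
      blockChanges (finRotate _) (ω v) (fun y => u (psi I E ⟨v, y⟩)) (fun j => c (phi I E ⟨v, j⟩))
        j := by
  unfold blockChanges
  have h1 : ∀ i, tord I E ω (phi I E ⟨v, j⟩, i) = psi I E ⟨v, ω v (j, i)⟩ := by
    intro i
    rw [← tord_psi, psi_apply]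
  simp only [tnxt_phi, psi_apply, h1]
  rfl

end

theorem wheels_of_amplifiers (hA : AmplifiersExist) :
    ∃ (c₀ : ℕ) (ω : ∀ k : ℕ, Equiv.Perm (Fin k × Fin 5)), ∀ I : E3Lin,
      (∀ v, c₀ ≤ (I.occ v).card) → ∀ E : ∀ v, Fin (I.occ v).card ≃ {o : I.Occ // I.var o = v},
        ∃ W : Wheels I, (∀ v j, W.nxt (E v j) = E v (finRotate _ j)) ∧
          ∀ v j i, W.ord (E v j, i) = ((E v (ω _ (j, i)).1 : I.Occ), (ω _ (j, i)).2) := by
  obtain ⟨c₀, hc₀⟩ := hA
  let ω : ∀ k : ℕ, Equiv.Perm (Fin k × Fin 5) := fun k =>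
    if h : k ≥ c₀ then Classical.choose (hc₀ k h) else 1
  have hω : ∀ k, k ≥ c₀ →
    (∀ x y, (ω k).SameCycle x y) ∧
    (∀ o, ω k (o, 1) ≠ (o, 2)) ∧ (∀ o, ω k (o, 2) ≠ (o, 3)) ∧ (∀ o, ω k (o, 3) ≠ (o, 4)) ∧
    (∀ o, ω k (o, 4) ≠ (finRotate k o, 0)) ∧
    ∀ (u : Fin k × Fin 5 → Bool) (c : Fin k → Bool),
      2 * min (univ.filter fun o => c o = true).card (univ.filter fun o => c o = false).card
        ≤ ∑ o, blockChanges (finRotate k) (ω k) u c o + 4 := by
    intro k hk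
    have h := Classical.choose_spec (hc₀ k hk)
    simp only [ω, dif_pos hk]
    exact h
  refine ⟨max c₀ 2, ω, ?_⟩
  intro I hI E
  have hω' := fun v : Fin I.n => hω (I.occ v).card (le_trans (le_max_left _ _) (hI v))
  choose w1 w2 w3 w4 w5 w6 using hω'
  generalize ω = ω' at w1 w2 w3 w4 w5 w6
  have hphi : ∀ o : I.Occ, ∃ v j, o = phi I E ⟨v, j⟩ := by
    intro o
    exact ⟨((phi I E).symm o).1, ((phi I E).symm o).2, by simp⟩
  refine ⟨⟨tnxt I E, tord I E (fun v => ω' (I.occ v).card), ?_, ?_, ?_, ?_, ?_, ?_⟩, ?_, ?_⟩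
  · intro o
    obtain ⟨v, j, rfl⟩ := hphi o
    rw [tnxt_phi, phi_var, phi_var]
  · rintro ⟨o, i⟩
    obtain ⟨v, j, rfl⟩ := hphi o
    have : (phi I E ⟨v, j⟩, i) = psi I E ⟨v, (j, i)⟩ := rfl
    rw [this, tord_psi, psi_apply, psi_apply, phi_var, phi_var]
  · intro o o' hoo
    obtain ⟨v, j, rfl⟩ := hphi o
    obtain ⟨v', j', rfl⟩ := hphi o'
    rw [phi_var, phi_var] at hoo
    subst hoo
    exact sameCycle_map (finRotate _) (tnxt I E) (fun j => phi I E ⟨v, j⟩)
      (fun a => tnxt_phi I E v a) (finRotate_sameCycle (le_trans (le_max_right _ _) (hI v)) j j')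
  · rintro ⟨o, i⟩ ⟨o', i'⟩ hoo
    obtain ⟨v, j, rfl⟩ := hphi o
    obtain ⟨v', j', rfl⟩ := hphi o'
    simp only at hoo
    rw [phi_var, phi_var] at hoo
    subst hoo
    exact sameCycle_map (ω' _) (tord I E (fun v => ω' (I.occ v).card)) (fun y => psi I E ⟨v, y⟩)
      (fun a => tord_psi I E _ v a) (w1 v (j, i) (j', i'))
  · rintro ⟨o, i⟩
    obtain ⟨v, j, rfl⟩ := hphi o
    have hpp : (phi I E ⟨v, j⟩, i) = psi I E ⟨v, (j, i)⟩ := rfl
    have hinj : ∀ y y' : Fin (I.occ v).card × Fin 5, psi I E ⟨v, y⟩ = psi I E ⟨v, y'⟩ → y = y' := by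
      intro y y' h
      have := (psi I E).injective h
      simpa using this
    by_cases hi : i = 0
    · subst hi
      rcases h : tord I E (fun v => ω' (I.occ v).card) (phi I E ⟨v, j⟩, 0) with ⟨x, i'⟩
      fin_cases i' <;> simp [pre]
    · rw [Ne, pre_eq_z _ _ _ hi, hpp, tord_psi]
      fin_cases i
      · exact absurd rfl hi
      · intro h
        exact w2 v j (hinj _ _ h)
      · intro h
        exact w3 v j (hinj _ _ h)
      · intro h
        exact w4 v j (hinj _ _ h)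
      · intro h
        have h2 : sc (tnxt I E) (psi I E ⟨v, (j, 4)⟩) = psi I E ⟨v, (finRotate _ j, 0)⟩ := by
          rw [psi_apply, psi_apply]
          simp only [sc]
          rw [tnxt_phi]
        exact w5 v j (hinj _ _ (h.trans h2))
  · intro v u c
    have h1 := w6 v (fun y => u (psi I E ⟨v, y⟩)) (fun j => c (phi I E ⟨v, j⟩))
    have hf : ∀ b : Bool, ((I.occ v).filter fun o => c o = b).card =
        (univ.filter fun j => c (phi I E ⟨v, j⟩) = b).card := by
      intro b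
      conv_lhs => rw [occ_eq_map I E v, Finset.filter_map, Finset.card_map]
      rfl
    have hs : ∑ o ∈ I.occ v, blockChanges (tnxt I E) (tord I E (fun v => ω' (I.occ v).card)) u c o =
        ∑ j, blockChanges (finRotate _) (ω' _) (fun y => u (psi I E ⟨v, y⟩))
          (fun j => c (phi I E ⟨v, j⟩)) j := by
      conv_lhs => rw [occ_eq_map I E v, Finset.sum_map]
      exact Finset.sum_congr rfl fun j _ => tblock I E (fun v => ω' (I.occ v).card) v u c j
    rw [hf, hf, hs]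
    exact h1
  · intro v j
    exact tnxt_phi I E v j
  · intro v j i
    exact tord_psi I E (fun v => ω' (I.occ v).card) v (j, i)

theorem exists_enum (I : E3Lin) :
    Nonempty (∀ v, Fin (I.occ v).card ≃ {o : I.Occ // I.var o = v}) := by
  have hE : ∀ v : Fin I.n, Nonempty (Fin (I.occ v).card ≃ {o : I.Occ // I.var o = v}) := by
    intro v
    refine ⟨(Fintype.equivFinOfCardEq ?_).symm⟩
    rw [Fintype.card_subtype]; rfl
  exact ⟨fun v => Classical.choice (hE v)⟩

end Vale.Agent.P333
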