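import Vale.Agent.P333.LowerFinal
import Vale.Agent.P333.Transport

namespace Vale.Agent.P333

open Finset Letter

variable {I : E3Lin}

theorem opt_le {α : Type} {S : Finset (List α)} {T : List α} (hT : IsSuperstring S T) :
    opt S ≤ T.length := Nat.sInf_le ⟨T, hT, rfl⟩

theorem exists_opt {α : Type} (S : Finset (List α)) :
    ∃ T : List α, IsSuperstring S T ∧ T.length = opt S := by
  have hne : {k : ℕ | ∃ T : List α, IsSuperstring S T ∧ T.length = k}.Nonempty := by
    refine ⟨(S.toList.flatten).length, S.toList.flatten, ?_, rfl⟩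
    intro s hs
    exact List.infix_of_mem_flatten (by simpa using hs)
  exact Nat.sInf_mem hne

theorem lower_opt (W : Wheels I) :
    76 * I.m + 3 * I.m0 + I.minUnsat ≤ opt (strings I W.nxt W.ord) + 2 * I.n := by
  obtain ⟨T, hT, hl⟩ := exists_opt (strings I W.nxt W.ord)
  rw [← hl]
  exact lower W T hT

theorem exists_minUnsat (I : E3Lin) : ∃ x, I.unsat x = I.minUnsat := by
  have := Nat.sInf_mem (Set.range_nonempty fun x => I.unsat x)
  exact this

theorem card_occ_sum (I : E3Lin) : ∑ v, (I.occ v).card = 3 * I.m := by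
  have h := Finset.card_eq_sum_card_fiberwise (f := I.var) (s := univ) (t := univ)
    (by intro x _; simp)
  have h2 : (univ : Finset I.Occ).card = 3 * I.m := by simp [mul_comm]
  rw [← h2, h]
  rfl

theorem n_le (I : E3Lin) (K : ℕ) (h : ∀ v, K ≤ (I.occ v).card) : K * I.n ≤ 3 * I.m := by
  rw [← card_occ_sum]
  calc K * I.n = ∑ v : Fin I.n, K := by simp [mul_comm]
    _ ≤ _ := Finset.sum_le_sum fun v _ => h v

/-- threshold -/
theorem gap (ρ : ℝ) (h1 : 1 ≤ ρ) (hρ : ρ < 156 / 155) : ∃ ε : ℝ, 0 < ε ∧ ε < 1 / 4 ∧ ∃ K : ℕ,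
    ∀ I : E3Lin, 0 < I.m → 2 * I.m0 ≤ I.m → (∀ v, K ≤ (I.occ v).card) →
    ∀ W : Wheels I,
    opt (strings I W.nxt W.ord) ≤ 76 * I.m + 3 * I.m0 + I.minUnsat + I.n + 1 →
    ∀ T, IsSuperstring (strings I W.nxt W.ord) T →
      (T.length : ℝ) ≤ ρ * opt (strings I W.nxt W.ord) →
      ((I.minUnsat : ℝ) ≤ ε * I.m →
        (T.length : ℝ) < 76 * I.m + 3 * I.m0 + (1 / 2 - ε) * I.m - 2 * I.n) ∧
      ((1 / 2 - ε) * I.m ≤ (I.minUnsat : ℝ) →
        76 * I.m + 3 * I.m0 + (1 / 2 - ε) * I.m - 2 * I.n ≤ (T.length : ℝ)) := by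
  set δ : ℝ := 1 / 2 - (ρ - 1) * (155 / 2) with hδ
  have hδ0 : 0 < δ := by rw [hδ]; linarith
  have hδ1 : δ ≤ 1 / 2 := by rw [hδ]; nlinarith
  refine ⟨δ / 8, by positivity, by linarith, ?_⟩
  obtain ⟨K, hK⟩ := exists_nat_gt (36 / δ)
  have hKpos : (0 : ℝ) < K := lt_trans (by positivity) hK
  have hKδ : 36 < K * δ := by
    rw [div_lt_iff₀ hδ0] at hK
    exact hK
  refine ⟨K, ?_⟩
  intro I hm hm0 hocc W hup T hT hTρ
  have hn1 : 1 ≤ I.n := by
    have v := I.var (⟨0, hm⟩, 0)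
    have := v.2
    omega
  have hKn := n_le I K hocc
  have hKnR : (K : ℝ) * I.n ≤ 3 * I.m := by exact_mod_cast hKn
  have hn1R : (1 : ℝ) ≤ I.n := by exact_mod_cast hn1
  have hmR : (0 : ℝ) < I.m := by exact_mod_cast hm
  have hm0R : (2 : ℝ) * I.m0 ≤ I.m := by exact_mod_cast hm0
  have hm0nn : (0 : ℝ) ≤ I.m0 := by positivity
  have hupR : (opt (strings I W.nxt W.ord) : ℝ) ≤ 76 * I.m + 3 * I.m0 + I.minUnsat + I.n + 1 := by
    exact_mod_cast hup
  have hloR : (76 : ℝ) * I.m + 3 * I.m0 + I.minUnsat ≤ T.length + 2 * I.n := by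
    exact_mod_cast lower W T hT
  have hnm : 12 * (I.n : ℝ) ≤ δ * I.m := by
    have e1 : 36 * (I.n : ℝ) ≤ (K * δ) * I.n := by nlinarith
    have e2 : (K * δ) * (I.n : ℝ) = δ * (K * I.n) := by ring
    have e3 : δ * ((K : ℝ) * I.n) ≤ δ * (3 * I.m) := by
      exact mul_le_mul_of_nonneg_left hKnR hδ0.le
    linarith
  constructor
  · intro hmin
    have hρ2 : ρ ≤ 2 := by linarith
    have e1 : (T.length : ℝ) ≤ ρ * (76 * I.m + 3 * I.m0 + δ / 8 * I.m + 2 * I.n) := by
      refine le_trans hTρ ?_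
      apply mul_le_mul_of_nonneg_left _ (by linarith)
      linarith
    have e2 : ρ * (76 * I.m + 3 * I.m0 + δ / 8 * I.m + 2 * I.n) =
        (76 * I.m + 3 * I.m0 + δ / 8 * I.m + 2 * I.n) + (ρ - 1) * (76 * I.m + 3 * I.m0) +
          (ρ - 1) * (δ / 8 * I.m + 2 * I.n) := by ring
    have e3 : (ρ - 1) * (76 * I.m + 3 * I.m0) ≤ (ρ - 1) * (155 / 2 * I.m) := by
      apply mul_le_mul_of_nonneg_left _ (by linarith)
      linarith
    have e4 : (ρ - 1) * (155 / 2 * I.m) = (1 / 2 - δ) * I.m := by rw [hδ]; ring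
    have e5 : (ρ - 1) * (δ / 8 * I.m + 2 * I.n) ≤ 1 * (δ / 8 * I.m + 2 * I.n) := by
      apply mul_le_mul_of_nonneg_right (by linarith)
      positivity
    have e6 : 0 < δ * I.m := by positivity
    nlinarith
  · intro hmin
    linarith

theorem flip_viol (I : E3Lin) (x : Fin I.n → Bool) (e : Fin I.m) :
    I.flip.Viol (fun v => !x v) e ↔ I.Viol x e := by
  change (xor (!x (I.var (e, 0))) (xor (!x (I.var (e, 1))) (!x (I.var (e, 2)))) ≠ !I.rhs e) ↔
    (xor (x (I.var (e, 0))) (xor (x (I.var (e, 1))) (x (I.var (e, 2)))) ≠ I.rhs e)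
  generalize x (I.var (e, 0)) = a
  generalize x (I.var (e, 1)) = b
  generalize x (I.var (e, 2)) = c
  generalize I.rhs e = r
  revert a b c r
  decide

theorem flip_unsat (I : E3Lin) (x : Fin I.n → Bool) :
    I.flip.unsat (fun v => !x v) = I.unsat x := by
  rw [unsat_def, unsat_def]
  apply congrArg
  apply Finset.filter_congr
  intro e _
  exact flip_viol I x e

theorem flip_minUnsat (I : E3Lin) : I.flip.minUnsat = I.minUnsat := by
  apply le_antisymm
  · obtain ⟨x, hx⟩ := exists_minUnsat I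
    rw [← hx, ← flip_unsat]
    exact minUnsat_le _ _
  · obtain ⟨x, hx⟩ := exists_minUnsat I.flip
    have h := flip_unsat I (fun v => !x v)
    simp only [Bool.not_not] at h
    rw [← hx]
    exact le_of_le_of_eq (minUnsat_le I _) h.symm

theorem flip_m0 (I : E3Lin) : I.flip.m0 + I.m0 = I.m := by
  have h := Finset.card_filter_add_card_filter_not (s := (univ : Finset (Fin I.m)))
    (fun e => I.rhs e = false)
  rw [card_univ, Fintype.card_fin] at h
  change (univ.filter fun e : Fin I.m => (!I.rhs e) = false).card +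
    (univ.filter fun e : Fin I.m => I.rhs e = false).card = I.m
  rw [add_comm]
  refine Eq.trans ?_ h
  congr 2
  apply Finset.filter_congr
  intro e _
  simp

end Vale.Agent.P333
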