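import Vale.Agent.P333.Gap

namespace Vale.Agent.P333

open Finset Letter

theorem gap_ratio (ρ : ℝ) (h1 : 1 ≤ ρ) (hρ : ρ < 156 / 155) : ∃ ε : ℝ, 0 < ε ∧ ε < 1 / 4 ∧ ∃ K : ℕ,
    ∀ I : E3Lin, 0 < I.m → 2 * I.m0 ≤ I.m → (∀ v, K ≤ (I.occ v).card) →
    ∀ W : Wheels I,
    opt (strings I W.nxt W.ord) ≤ 76 * I.m + 3 * I.m0 + I.minUnsat + I.n + 1 →
      ((I.minUnsat : ℝ) ≤ ε * I.m →
        (opt (strings I W.nxt W.ord) : ℝ) ≤ 76 * I.m + 3 * I.m0 + ε * I.m + I.n + 1) ∧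
      ((1 / 2 - ε) * I.m ≤ (I.minUnsat : ℝ) →
        ρ * (76 * I.m + 3 * I.m0 + ε * I.m + I.n + 1) < opt (strings I W.nxt W.ord)) := by
  set δ : ℝ := 1 / 2 - (ρ - 1) * (155 / 2) with hδ
  have hδ0 : 0 < δ := by rw [hδ]; linarith
  have hδ1 : δ ≤ 1 / 2 := by rw [hδ]; nlinarith
  refine ⟨δ / 8, by positivity, by linarith, ?_⟩
  obtain ⟨K, hK⟩ := exists_nat_gt (36 / δ)
  have hKpos : (0 : ℝ) < K := lt_trans (by positivity) hK
  have hKδ : 36 < K * δ := by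
    rw [div_lt_iff₀ hδ0] at hK
    exact hK
  refine ⟨K, ?_⟩
  intro I hm hm0 hocc W hup
  have hn1 : 1 ≤ I.n := by
    have v := I.var (⟨0, hm⟩, 0)
    have := v.2
    omega
  have hKn := n_le I K hocc
  have hKnR : (K : ℝ) * I.n ≤ 3 * I.m := by exact_mod_cast hKn
  have hn1R : (1 : ℝ) ≤ I.n := by exact_mod_cast hn1
  have hmR : (0 : ℝ) < I.m := by exact_mod_cast hm
  have hm0R : (2 : ℝ) * I.m0 ≤ I.m := by exact_mod_cast hm0
  have hm0nn : (0 : ℝ) ≤ I.m0 := by positivity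
  have hupR : (opt (strings I W.nxt W.ord) : ℝ) ≤ 76 * I.m + 3 * I.m0 + I.minUnsat + I.n + 1 := by
    exact_mod_cast hup
  have hloR : (76 : ℝ) * I.m + 3 * I.m0 + I.minUnsat ≤ opt (strings I W.nxt W.ord) + 2 * I.n := by
    exact_mod_cast lower_opt W
  have hnm : 12 * (I.n : ℝ) ≤ δ * I.m := by
    have e1 : 36 * (I.n : ℝ) ≤ (K * δ) * I.n := by nlinarith
    have e2 : (K * δ) * (I.n : ℝ) = δ * (K * I.n) := by ring
    have e3 : δ * ((K : ℝ) * I.n) ≤ δ * (3 * I.m) := by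
      exact mul_le_mul_of_nonneg_left hKnR hδ0.le
    linarith
  constructor
  · intro hmin
    linarith
  · intro hmin
    have hρ2 : ρ ≤ 2 := by linarith
    have e0 : (76 : ℝ) * I.m + 3 * I.m0 + δ / 8 * I.m + I.n + 1 ≤
        76 * I.m + 3 * I.m0 + (δ / 8 * I.m + 2 * I.n) := by linarith
    have e1 : ρ * (76 * I.m + 3 * I.m0 + δ / 8 * I.m + I.n + 1) ≤
        ρ * (76 * I.m + 3 * I.m0 + (δ / 8 * I.m + 2 * I.n)) :=
      mul_le_mul_of_nonneg_left e0 (by linarith)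
    have e2 : ρ * (76 * I.m + 3 * I.m0 + (δ / 8 * I.m + 2 * I.n)) =
        (76 * I.m + 3 * I.m0 + δ / 8 * I.m + 2 * I.n) + (ρ - 1) * (76 * I.m + 3 * I.m0) +
          (ρ - 1) * (δ / 8 * I.m + 2 * I.n) := by ring
    have e3 : (ρ - 1) * (76 * I.m + 3 * I.m0) ≤ (ρ - 1) * (155 / 2 * I.m) := by
      apply mul_le_mul_of_nonneg_left _ (by linarith)
      linarith
    have e4 : (ρ - 1) * (155 / 2 * I.m) = (1 / 2 - δ) * I.m := by rw [hδ]; ring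
    have e5 : (ρ - 1) * (δ / 8 * I.m + 2 * I.n) ≤ 1 * (δ / 8 * I.m + 2 * I.n) := by
      apply mul_le_mul_of_nonneg_right (by linarith)
      positivity
    have e6 : 0 < δ * I.m := by positivity
    nlinarith

end Vale.Agent.P333
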