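import Mathlib

namespace Vale.Agent.P333

open Finset

/-- There is a string with `k + 1` letters from `a` to `b` that contains all strings of `P`. -/
def Cov {α : Type} (a b : α) (k : ℕ) (P : Set (List α)) : Prop :=
  ∃ T : List α, T.head? = some a ∧ T.getLast? = some b ∧ T.length = k + 1 ∧ ∀ s ∈ P, s <:+: T

theorem Cov.refl {α : Type} (a : α) : Cov a a 0 ∅ :=
  ⟨[a], rfl, rfl, rfl, fun _ h => h.elim⟩

theorem Cov.mono {α : Type} {a b : α} {k : ℕ} {P Q : Set (List α)} (h : Cov a b k P)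
    (hQ : Q ⊆ P) : Cov a b k Q := by
  obtain ⟨T, h1, h2, h3, h4⟩ := h
  exact ⟨T, h1, h2, h3, fun s hs => h4 s (hQ hs)⟩

theorem Cov.trans {α : Type} {a b c : α} {k l : ℕ} {P Q : Set (List α)} (h : Cov a b k P)
    (h' : Cov b c l Q) : Cov a c (k + l) (P ∪ Q) := by
  obtain ⟨T, h1, h2, h3, h4⟩ := h
  obtain ⟨U, u1, u2, u3, u4⟩ := h'
  rcases U with _ | ⟨b', U⟩
  · simp at u1
  simp only [List.head?_cons, Option.some.injEq] at u1
  subst u1
  rcases List.eq_nil_or_concat T with hT | ⟨T', t, hT⟩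
  · rw [hT] at h1; simp at h1
  subst hT
  simp only [List.concat_eq_append, List.getLast?_append, List.getLast?_singleton,
    Option.some_or, Option.some.injEq] at h2
  subst h2
  refine ⟨T' ++ t :: U, ?_, ?_, ?_, ?_⟩
  · rcases T' with _ | ⟨x, T'⟩
    · simpa using h1
    · simpa using h1
  · rw [List.getLast?_append, u2]; simp
  · simp at h3 u3 ⊢; omega
  · intro s hs
    rcases hs with hs | hs
    · have := h4 s hs
      have h5 : T' ++ t :: U = (T'.concat t) ++ U := by simp
      rw [h5]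
      exact this.trans (List.infix_append' [] _ _)
    · exact (u4 s hs).trans ⟨T', [], by simp⟩

theorem Cov.cycle {α X : Type} [Fintype X] [DecidableEq X] (σ : Equiv.Perm X) (f : X → α)
    (κ : X → ℕ) (P : X → Set (List α)) (S : Finset X)
    (h : ∀ x ∈ S, Cov (f x) (f (σ x)) (κ x) (P x))
    (hσ : ∀ x ∈ S, σ x ∈ S)
    (hc : ∀ x ∈ S, ∀ y ∈ S, σ.SameCycle x y) (x : X) (hx : x ∈ S) :
    Cov (f x) (f x) (∑ y ∈ S, κ y) (⋃ y ∈ S, P y) := by
  classical
  set n := Function.minimalPeriod σ x with hn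
  have hmem : ∀ i, σ^[i] x ∈ S := by
    intro i
    induction i with
    | zero => exact hx
    | succ i ih => rw [Function.iterate_succ_apply']; exact hσ _ ih
  have hper : x ∈ Function.periodicPts σ := by
    refine ⟨orderOf σ, orderOf_pos σ, ?_⟩
    rw [Function.IsPeriodicPt, Function.IsFixedPt, Equiv.Perm.iterate_eq_pow, pow_orderOf_eq_one]
    rfl
  have hinj : Set.InjOn (fun i => σ^[i] x) (range n : Set ℕ) := by
    intro i hi j hj hij
    simp only [coe_range, Set.mem_Iio] at hi hj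
    exact (Function.iterate_injOn_Iio_minimalPeriod (f := σ) (x := x)) hi hj hij
  have himg : (range n).image (fun i => σ^[i] x) = S := by
    ext y
    simp only [mem_image, mem_range]
    constructor
    · rintro ⟨i, _, rfl⟩; exact hmem i
    · intro hy
      obtain ⟨i, hi⟩ := (hc x hx y hy).exists_nat_pow_eq
      refine ⟨i % n, Nat.mod_lt _ (Function.minimalPeriod_pos_of_mem_periodicPts hper), ?_⟩
      rw [hn, Function.iterate_mod_minimalPeriod_eq, Equiv.Perm.iterate_eq_pow]
      exact hi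
  have key : ∀ m, Cov (f x) (f (σ^[m] x)) (∑ i ∈ range m, κ (σ^[i] x))
      (⋃ i ∈ range m, P (σ^[i] x)) := by
    intro m
    induction m with
    | zero => simpa using Cov.refl (f x)
    | succ m ih =>
      rw [Finset.sum_range_succ, Function.iterate_succ_apply']
      refine (ih.trans (h _ (hmem m))).mono ?_
      intro s hs
      simp only [Set.mem_iUnion, mem_range, Set.mem_union] at hs ⊢
      obtain ⟨i, hi, his⟩ := hs
      rcases Nat.lt_succ_iff_lt_or_eq.1 hi with h1 | h1
      · exact Or.inl ⟨i, h1, his⟩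
      · subst h1; exact Or.inr his
  have hfin := key n
  rw [hn, Function.iterate_minimalPeriod, ← hn] at hfin
  rw [← himg, Finset.sum_image hinj]
  refine hfin.mono ?_
  intro s hs
  simp only [Set.mem_iUnion, mem_image, mem_range] at hs ⊢
  obtain ⟨y, ⟨i, hi, rfl⟩, his⟩ := hs
  exact ⟨i, hi, his⟩

/-- There is a string of length at most `L` that contains all strings of `P`. -/
def Sup {α : Type} (L : ℕ) (P : Set (List α)) : Prop :=
  ∃ T : List α, T.length ≤ L ∧ ∀ s ∈ P, s <:+: T

theorem Cov.sup {α : Type} {a b : α} {k : ℕ} {P : Set (List α)} (h : Cov a b k P) :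
    Sup (k + 1) P := by
  obtain ⟨T, _, _, h3, h4⟩ := h
  exact ⟨T, h3.le, h4⟩

theorem Sup.union {α : Type} {L M : ℕ} {P Q : Set (List α)} (h : Sup L P) (h' : Sup M Q) :
    Sup (L + M) (P ∪ Q) := by
  obtain ⟨T, h1, h2⟩ := h
  obtain ⟨U, u1, u2⟩ := h'
  refine ⟨T ++ U, by simp; omega, ?_⟩
  rintro s (hs | hs)
  · exact (h2 s hs).trans ⟨[], U, by simp⟩
  · exact (u2 s hs).trans ⟨T, [], by simp⟩

theorem Sup.empty {α : Type} : Sup 0 (∅ : Set (List α)) := ⟨[], by simp, fun _ h => h.elim⟩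

theorem Sup.mono {α : Type} {L M : ℕ} {P Q : Set (List α)} (h : Sup L P) (hQ : Q ⊆ P)
    (hLM : L ≤ M) : Sup M Q := by
  obtain ⟨T, h1, h2⟩ := h
  exact ⟨T, h1.trans hLM, fun s hs => h2 s (hQ hs)⟩

theorem Sup.biUnion {α ι : Type} [DecidableEq ι] (S : Finset ι) (L : ι → ℕ)
    (P : ι → Set (List α)) (h : ∀ i ∈ S, Sup (L i) (P i)) :
    Sup (∑ i ∈ S, L i) (⋃ i ∈ S, P i) := by
  induction S using Finset.induction_on with
  | empty => simpa using Sup.empty
  | insert a S ha ih =>
    rw [Finset.sum_insert ha]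
    refine ((h a (mem_insert_self a S)).union
      (ih fun i hi => h i (mem_insert_of_mem hi))).mono ?_ le_rfl
    intro s hs
    simp only [Set.mem_iUnion, mem_insert, Set.mem_union] at hs ⊢
    obtain ⟨i, hi, his⟩ := hs
    rcases hi with rfl | hi
    · exact Or.inl his
    · exact Or.inr ⟨i, hi, his⟩

end Vale.Agent.P333
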