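import Vale.Agent.P333.Cuts

namespace Vale.Agent.P333

open Finset Letter Cut

variable {I : E3Lin}
variable (nxt : Equiv.Perm I.Occ) (ord : Equiv.Perm (I.Occ × Fin 5))

theorem len_le (π : Cut I) : (str nxt ord π).length ≤ 4 := by
  cases π <;> simp [str, sA, sB, s1, s2, s3, sF, sR]
  all_goals split_ifs <;> simp

set_option maxHeartbeats 4000000 in
theorem H3 (hpo : ∀ x, pre nxt (ord x) ≠ z x) (π ρ : Cut I) (d : ℕ)
    (h3 : 3 ≤ (str nxt ord ρ).length) (hd : d + 3 ≤ (str nxt ord π).length)
    (heq : ∀ i < 3, (str nxt ord π)[d + i]? = (str nxt ord ρ)[i]?) : π = ρ ∧ d = 0 := by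
  have hl := len_le nxt ord π
  have e0 := heq 0 (by norm_num)
  have e1 := heq 1 (by norm_num)
  have e2 := heq 2 (by norm_num)
  clear heq
  have hg := pre_ne_h nxt
  have hq := pre_ne_q nxt
  have hz := pre_zero_ne_g nxt
  have hj := fin3_succ_ne
  have hd1 : d = 0 ∨ d = 1 := by omega
  rcases hd1 with rfl | rfl
  · rcases π with x | x | o | o | o | e | e <;> rcases ρ with y | y | o' | o' | o' | e' | e' <;>
      simp only [str, sA, sB, s1, s2, s3, sF, sR] at h3 hd e0 e1 e2 ⊢
    all_goals (try split_ifs at h3 hd e0 e1 e2)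
    all_goals (try simp_all)
    · subst e1
      rcases x with ⟨⟨a, b⟩, c⟩
      exact hpo a b c e0.symm
    · exact Subtype.ext e0
  · rcases π with x | x | o | o | o | e | e <;> rcases ρ with y | y | o' | o' | o' | e' | e' <;>
      simp only [str, sA, sB, s1, s2, s3, sF, sR] at h3 hd e0 e1 e2 ⊢
    all_goals (try split_ifs at h3 hd e0 e1 e2)
    all_goals (try simp_all)
    subst e0
    rcases x with ⟨⟨a, b⟩, c⟩
    exact hpo a b c e2.symm

theorem H2a (π ρ : Cut I) (d : ℕ)
    (h2 : (str nxt ord ρ).length = 2) (hd : d + 2 ≤ (str nxt ord π).length)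
    (heq : ∀ i < 2, (str nxt ord π)[d + i]? = (str nxt ord ρ)[i]?) : π = ρ := by
  have hl := len_le nxt ord π
  have e0 := heq 0 (by norm_num)
  have e1 := heq 1 (by norm_num)
  clear heq
  have hg := pre_ne_h nxt
  have hq := pre_ne_q nxt
  have hz := pre_zero_ne_g nxt
  have hj := fin3_succ_ne
  have hd1 : d = 0 ∨ d = 1 ∨ d = 2 := by omega
  rcases ρ with y | y | o' | o' | o' | e' | e'
  case R =>
    rcases π with x | x | o | o | o | e | e <;>
      simp only [str, sA, sB, s1, s2, s3, sF, sR] at h2 hd e0 e1 ⊢ <;>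
    rcases hd1 with rfl | rfl | rfl
    all_goals (try split_ifs at h2 hd e0 e1)
    all_goals (try simp_all)
  all_goals
    exfalso
    simp only [str, sA, sB, s1, s2, s3, sF] at h2
    try split_ifs at h2
    all_goals simp at h2

set_option maxHeartbeats 4000000 in
theorem H2b (hpo : ∀ x, pre nxt (ord x) ≠ z x) (π ρ : Cut I)
    (h3 : 3 ≤ (str nxt ord ρ).length) (h3' : 3 ≤ (str nxt ord π).length)
    (heq : ∀ i < 2, (str nxt ord π)[(str nxt ord π).length - 2 + i]? = (str nxt ord ρ)[i]?) :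
    ρ = nx π := by
  have hl := len_le nxt ord π
  have e0 := heq 0 (by norm_num)
  have e1 := heq 1 (by norm_num)
  clear heq
  have hg := pre_ne_h nxt
  have hq := pre_ne_q nxt
  have hz := pre_zero_ne_g nxt
  have hj := fin3_succ_ne
  rcases π with x | x | o | o | o | e | e <;> rcases ρ with y | y | o' | o' | o' | e' | e' <;>
      simp only [str, sA, sB, s1, s2, s3, sF, sR] at h3 h3' e0 e1 ⊢
  all_goals (try split_ifs at h3 h3' e0 e1)
  all_goals (try simp_all [nx])
  · subst e1
    rcases x with ⟨⟨a, b⟩, c⟩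
    exact hpo a b c e0.symm
  · exact Prod.ext e0.symm e1.symm
  · exact Prod.ext e0.symm e1.symm
  · subst e1
    rcases o with ⟨a, b⟩
    exact hz a b a b e0.symm

end Vale.Agent.P333
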