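import Vale.Agent.P333.Comb

namespace Vale.Agent.P333

open Finset Letter Cut

variable {I : E3Lin}

theorem minUnsat_le (I : E3Lin) (x : Fin I.n → Bool) : I.minUnsat ≤ I.unsat x :=
  ciInf_le (OrderBot.bddBelow _) x

/-- majority value -/
def maj (c : I.Occ → Bool) (v : Fin I.n) : Bool :=
  decide (((I.occ v).filter fun o => c o = false).card ≤
    ((I.occ v).filter fun o => c o = true).card)

theorem maj_card (c : I.Occ → Bool) (v : Fin I.n) :
    ((I.occ v).filter fun o => c o ≠ maj c v).card =
      min ((I.occ v).filter fun o => c o = true).card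
        ((I.occ v).filter fun o => c o = false).card := by
  unfold maj
  by_cases h : ((I.occ v).filter fun o => c o = false).card ≤
    ((I.occ v).filter fun o => c o = true).card
  · rw [decide_eq_true h, min_eq_right h]
    simp
  · rw [decide_eq_false h, min_eq_left (by omega)]
    simp

theorem unsat_maj (c : I.Occ → Bool) : I.unsat (maj c) ≤
    (univ.filter fun e => xor (c (e, 0)) (xor (c (e, 1)) (c (e, 2))) ≠ I.rhs e).card +
      ∑ v, min ((I.occ v).filter fun o => c o = true).card
        ((I.occ v).filter fun o => c o = false).card := by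
  have h1 : ∑ v, min ((I.occ v).filter fun o => c o = true).card
        ((I.occ v).filter fun o => c o = false).card =
      (univ.filter fun o => c o ≠ maj c (I.var o)).card := by
    rw [Finset.card_eq_sum_card_fiberwise (f := I.var) (t := univ) (by intro x _; simp)]
    apply Finset.sum_congr rfl
    intro v _
    rw [← maj_card]
    congr 1
    ext o
    simp only [E3Lin.occ, mem_filter, mem_univ, true_and]
    constructor
    · rintro ⟨h1, h2⟩
      exact ⟨by rw [h1]; exact h2, h1⟩
    · rintro ⟨h1, h2⟩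
      exact ⟨h2, by rw [← h2]; exact h1⟩
  rw [h1]
  have hsub : (univ.filter (I.Viol (maj c))) ⊆
      (univ.filter fun e => xor (c (e, 0)) (xor (c (e, 1)) (c (e, 2))) ≠ I.rhs e) ∪
      (univ.filter fun o => c o ≠ maj c (I.var o)).image Prod.fst := by
    intro e he
    rw [mem_filter] at he
    rw [mem_union, mem_image]
    by_contra hcon
    push Not at hcon
    obtain ⟨hc1, hc2⟩ := hcon
    have hc3 : ∀ j : Fin 3, c (e, j) = maj c (I.var (e, j)) := by
      intro j
      by_contra hne
      exact hc2 (e, j) (by simpa using hne) rfl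
    apply hc1
    rw [mem_filter]
    refine ⟨mem_univ _, ?_⟩
    rw [hc3, hc3, hc3]
    exact he.2
  calc I.unsat (maj c) ≤ _ := Finset.card_le_card hsub
    _ ≤ _ := Finset.card_union_le _ _
    _ ≤ _ := Nat.add_le_add_left Finset.card_image_le _

theorem lower_core (W : Wheels I) (u : I.Occ × Fin 5 → Bool) (sel : I.Occ → Fin 3) :
    2 * (I.minUnsat : ℤ) ≤ ∑ a, |imb W.nxt W.ord u sel a| + 4 * I.n := by
  obtain ⟨c, hc⟩ := sum_imb_ge W.nxt W.ord u sel
  have h1 := minUnsat_le I (maj c)
  have h2 := unsat_maj c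
  have h3 : ∑ e, ch (xor (c (e, 0)) (xor (c (e, 1)) (c (e, 2)))) (I.rhs e) =
      ((univ.filter fun e => xor (c (e, 0)) (xor (c (e, 1)) (c (e, 2))) ≠ I.rhs e).card : ℤ) := by
    rw [Finset.card_filter]
    push_cast
    rfl
  have h4 : ∑ v, (2 * min ((I.occ v).filter fun o => c o = true).card
        ((I.occ v).filter fun o => c o = false).card) ≤
      ∑ o, blockChanges W.nxt W.ord u c o + 4 * I.n := by
    have e1 : ∑ o, blockChanges W.nxt W.ord u c o =
        ∑ v, ∑ o ∈ I.occ v, blockChanges W.nxt W.ord u c o :=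
      (Finset.sum_fiberwise_of_maps_to (g := I.var) (by intro x _; exact mem_univ _) _).symm
    rw [e1]
    have e2 : (4 * I.n : ℕ) = ∑ v : Fin I.n, 4 := by simp [mul_comm]
    rw [e2, ← Finset.sum_add_distrib]
    exact Finset.sum_le_sum fun v _ => W.amp v u c
  rw [← Finset.mul_sum] at h4
  have h5 : (∑ o, (blockChanges W.nxt W.ord u c o : ℤ)) =
      ((∑ o, blockChanges W.nxt W.ord u c o : ℕ) : ℤ) := by push_cast; rfl
  rw [h3, h5] at hc
  omega

theorem card_F (I : E3Lin) : Fintype.card {e : Fin I.m // I.rhs e = false} = I.m0 := by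
  rw [Fintype.card_subtype]; rfl

theorem card_Inv (I : E3Lin) : (univ.filter fun o => Inv I o).card = I.m0 := by
  unfold E3Lin.m0
  symm
  apply Finset.card_bij (fun e _ => (e, (2 : Fin 3)))
  · intro e he
    simp only [mem_filter, mem_univ, true_and] at he ⊢
    exact ⟨rfl, he⟩
  · intro a _ b _ hab
    exact congrArg Prod.fst hab
  · rintro ⟨e, j⟩ ho
    simp only [mem_filter, mem_univ, true_and] at ho
    obtain ⟨h1, h2⟩ := ho
    refine ⟨e, ?_, ?_⟩
    · simpa using h2
    · simp only at h1
      rw [h1]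

theorem sum_len (nxt : Equiv.Perm I.Occ) (ord : Equiv.Perm (I.Occ × Fin 5)) :
    ∑ π : Cut I, ((str nxt ord π).length - 2) = 57 * I.m + 2 * I.m0 := by
  rw [sum_cut]
  have e3 : ∑ o : I.Occ, ((str nxt ord (C1 o)).length - 2) = 3 * I.m + I.m0 := by
    have : ∀ o : I.Occ, (str nxt ord (C1 o)).length - 2 = 1 + if Inv I o then 1 else 0 := by
      intro o
      by_cases hI : Inv I o <;> simp [str, s1, hI]
    simp_rw [this]
    rw [Finset.sum_add_distrib, ← Finset.card_filter, card_Inv]
    simp [mul_comm]
  have e5 : ∑ o : I.Occ, ((str nxt ord (C3 o)).length - 2) = 6 * I.m := by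
    have : ∀ o : I.Occ, (str nxt ord (C3 o)).length - 2 = 2 := by
      intro o
      by_cases hI : Inv I o <;> simp [str, s3, hI]
    simp_rw [this]
    simp; ring
  have e6 : ∑ e : {e : Fin I.m // I.rhs e = false}, ((str nxt ord (F e)).length - 2) = I.m0 := by
    rw [← card_F]
    simp [str, sF]
  rw [e3, e5, e6]
  simp [str, sA, sB, s2, sR]
  ring

theorem sum_kap (u : I.Occ × Fin 5 → Bool) (sel : I.Occ → Fin 3) :
    ∑ π, kap u sel π = 19 * I.m + I.m0 := by
  rw [sum_cut]
  have e1 : ∑ x, kap u sel (A x) + ∑ x, kap u sel (B x) = 15 * I.m := by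
    rw [← Finset.sum_add_distrib]
    simp [kap]; ring
  have e2 : ∑ o, kap u sel (C1 o) + (∑ o, kap u sel (C2 o) + ∑ o, kap u sel (C3 o)) =
      3 * I.m := by
    rw [← Finset.sum_add_distrib, ← Finset.sum_add_distrib]
    have : ∀ o, kap u sel (C1 o) + (kap u sel (C2 o) + kap u sel (C3 o)) = 1 := by
      intro o
      simp only [kap]
      generalize sel o = k
      revert k; decide
    simp_rw [this]
    simp [mul_comm]
  have e3 : ∑ e, kap u sel (F e) = (I.m0 : ℤ) := by
    rw [← card_F]; simp [kap]
  have e4 : ∑ e, kap u sel (R e) = (I.m : ℤ) := by simp [kap]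
  linarith

theorem lower (W : Wheels I) (T : List (Letter I))
    (hT : IsSuperstring (strings I W.nxt W.ord) T) :
    76 * I.m + 3 * I.m0 + I.minUnsat ≤ T.length + 2 * I.n := by
  have hT' : ∀ π : Cut I, str W.nxt W.ord π <:+: T := by
    intro π
    apply hT
    rw [strings_def]
    rcases π with x | x | o | o | o | e | e <;> simp [str]
    · exact Or.inr (Or.inr (Or.inr (Or.inr (Or.inr (Or.inl ⟨e.1, e.2, rfl⟩)))))
  obtain ⟨K, hK1, hK2⟩ := superstring_lower (str W.nxt W.ord) nx (fst W.nxt) (lst W.ord)
    (len_ge W.nxt W.ord) (str_fst W.nxt W.ord) (str_lst W.nxt W.ord)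
    (H3 W.nxt W.ord W.pre_ord) (H2a W.nxt W.ord) (H2b W.nxt W.ord W.pre_ord) T hT'
  let u : I.Occ × Fin 5 → Bool := fun x => decide (A x ∈ K)
  let sel : I.Occ → Fin 3 := fun o => if C1 o ∈ K then 0 else if C2 o ∈ K then 1 else 2
  let K' : Finset (Cut I) := univ.filter fun π => kap u sel π = 1
  have hnxA : ∀ k x, (nx ^ k) (A x) = A x ∨ (nx ^ k) (A x) = (B x : Cut I) := by
    intro k x
    induction k with
    | zero => simp
    | succ k ih =>
      rw [pow_succ', Equiv.Perm.mul_apply]
      rcases ih with h | h <;> rw [h] <;> simp [nx]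
  have hnxC : ∀ k o, (nx ^ k) (C1 o) = C1 o ∨ (nx ^ k) (C1 o) = (C2 o : Cut I) ∨
      (nx ^ k) (C1 o) = (C3 o : Cut I) := by
    intro k o
    induction k with
    | zero => simp
    | succ k ih =>
      rw [pow_succ', Equiv.Perm.mul_apply]
      rcases ih with h | h | h <;> rw [h] <;> simp [nx]
  have hnxF : ∀ k e, (nx ^ k) (F e) = (F e : Cut I) := by
    intro k e
    induction k with
    | zero => simp
    | succ k ih =>
      rw [pow_succ', Equiv.Perm.mul_apply, ih]; simp [nx]
  have hnxR : ∀ k e, (nx ^ k) (R e) = (R e : Cut I) := by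
    intro k e
    induction k with
    | zero => simp
    | succ k ih =>
      rw [pow_succ', Equiv.Perm.mul_apply, ih]; simp [nx]
  have hsub : K' ⊆ K := by
    intro π hπ
    simp only [K', mem_filter, mem_univ, true_and] at hπ
    rcases π with x | x | o | o | o | e | e
    · by_contra hn
      simp [kap, u, bi, hn] at hπ
    · by_contra hn
      obtain ⟨k, hk⟩ := hK1 (A x)
      rcases hnxA k x with h | h
      · rw [h] at hk
        simp [kap, u, bi, hk] at hπ
      · rw [h] at hk; exact hn hk
    · by_contra hn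
      by_cases h2 : C2 o ∈ K <;> simp [kap, sel, ind, hn, h2] at hπ
    · by_contra hn
      by_cases h2 : C1 o ∈ K <;> simp [kap, sel, ind, hn, h2] at hπ
    · by_contra hn
      obtain ⟨k, hk⟩ := hK1 (C1 o)
      rcases hnxC k o with h | h | h
      · rw [h] at hk
        simp [kap, sel, ind, hk] at hπ
      · rw [h] at hk
        by_cases h1 : C1 o ∈ K <;> simp [kap, sel, ind, hk, h1] at hπ
      · rw [h] at hk; exact hn hk
    · obtain ⟨k, hk⟩ := hK1 (F e)
      rwa [hnxF] at hk
    · obtain ⟨k, hk⟩ := hK1 (R e)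
      rwa [hnxR] at hk
  have hκ : ∀ π, kap u sel π = if π ∈ K' then 1 else 0 := by
    intro π
    simp only [K', mem_filter, mem_univ, true_and]
    have h01 : kap u sel π = 1 ∨ kap u sel π = 0 := by
      rcases π with x | x | o | o | o | e | e
      · simp only [kap, bi]; split_ifs <;> simp
      · simp only [kap, bi]; split_ifs <;> simp
      · simp only [kap, ind]; split_ifs <;> simp
      · simp only [kap, ind]; split_ifs <;> simp
      · simp only [kap, ind]; split_ifs <;> simp
      · simp [kap]
      · simp [kap]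
    rcases h01 with h | h <;> simp [h]
  have hmono := cost_mono (fst W.nxt) (lst W.ord) hsub
  have heq := cost_eq (fst W.nxt) (lst W.ord) (kap u sel) K' hκ
  have hcore := lower_core W u sel
  unfold imb at hcore
  rw [sum_kap] at heq
  rw [sum_len] at hK2
  omega

end Vale.Agent.P333
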