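import Vale.Agent.P333.Cuts

namespace Vale.Agent.P333

open Finset Letter

variable {I : E3Lin}

theorem strings_card (nxt : Equiv.Perm I.Occ) (ord : Equiv.Perm (I.Occ × Fin 5)) :
    (strings I nxt ord).card ≤ 41 * I.m := by
  rw [strings_def]
  have h1 : (univ.image (sA I nxt ord)).card ≤ 15 * I.m :=
    le_trans card_image_le (by simp [mul_comm]; omega)
  have h2 : (univ.image (sB I nxt ord)).card ≤ 15 * I.m :=
    le_trans card_image_le (by simp [mul_comm]; omega)
  have h3 : (univ.image (s1 I)).card ≤ 3 * I.m :=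
    le_trans card_image_le (by simp [mul_comm])
  have h4 : (univ.image (s2 I)).card ≤ 3 * I.m :=
    le_trans card_image_le (by simp [mul_comm])
  have h5 : (univ.image (s3 I)).card ≤ 3 * I.m :=
    le_trans card_image_le (by simp [mul_comm])
  have h6 : ((univ.filter fun e => I.rhs e = false).image (sF I)).card ≤ I.m :=
    le_trans card_image_le (le_trans (card_filter_le _ _) (by simp))
  have h7 : (univ.image (sR I)).card ≤ I.m :=
    le_trans card_image_le (by simp)
  have g1 := card_union_le (univ.image (sA I nxt ord)) (univ.image (sB I nxt ord))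
  have g2 := card_union_le (univ.image (sA I nxt ord) ∪ univ.image (sB I nxt ord))
    (univ.image (s1 I))
  have g3 := card_union_le (univ.image (sA I nxt ord) ∪ univ.image (sB I nxt ord)
    ∪ univ.image (s1 I)) (univ.image (s2 I))
  have g4 := card_union_le (univ.image (sA I nxt ord) ∪ univ.image (sB I nxt ord)
    ∪ univ.image (s1 I) ∪ univ.image (s2 I)) (univ.image (s3 I))
  have g5 := card_union_le (univ.image (sA I nxt ord) ∪ univ.image (sB I nxt ord)
    ∪ univ.image (s1 I) ∪ univ.image (s2 I) ∪ univ.image (s3 I))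
    ((univ.filter fun e => I.rhs e = false).image (sF I))
  have g6 := card_union_le (univ.image (sA I nxt ord) ∪ univ.image (sB I nxt ord)
    ∪ univ.image (s1 I) ∪ univ.image (s2 I) ∪ univ.image (s3 I)
    ∪ (univ.filter fun e => I.rhs e = false).image (sF I)) (univ.image (sR I))
  omega

theorem strings_len (nxt : Equiv.Perm I.Occ) (ord : Equiv.Perm (I.Occ × Fin 5)) :
    ∀ s ∈ strings I nxt ord, s.length ≤ 4 := by
  intro s hs
  simp only [strings_def, mem_union, mem_image, mem_univ, true_and, mem_filter] at hs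
  rcases hs with (((((⟨x, rfl⟩ | ⟨x, rfl⟩) | ⟨x, rfl⟩) | ⟨x, rfl⟩) | ⟨x, rfl⟩) | ⟨x, _, rfl⟩) |
    ⟨x, rfl⟩
  · simp [sA]
  · simp [sB]
  · unfold s1; split_ifs <;> simp
  · simp [s2]
  · unfold s3; split_ifs <;> simp
  · simp [sF]
  · simp [sR]

end Vale.Agent.P333
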