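import Vale.Agent.P333.Heads

namespace Vale.Agent.P333

open Finset Letter Cut

variable {I : E3Lin}


def cutEquiv (I : E3Lin) :
    Cut I ≃ (I.Occ × Fin 5) ⊕ (I.Occ × Fin 5) ⊕ I.Occ ⊕ I.Occ ⊕ I.Occ ⊕
      {e : Fin I.m // I.rhs e = false} ⊕ Fin I.m where
  toFun
    | A x => .inl x
    | B x => .inr (.inl x)
    | C1 o => .inr (.inr (.inl o))
    | C2 o => .inr (.inr (.inr (.inl o)))
    | C3 o => .inr (.inr (.inr (.inr (.inl o))))
    | F e => .inr (.inr (.inr (.inr (.inr (.inl e)))))
    | R e => .inr (.inr (.inr (.inr (.inr (.inr e)))))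
  invFun
    | .inl x => A x
    | .inr (.inl x) => B x
    | .inr (.inr (.inl o)) => C1 o
    | .inr (.inr (.inr (.inl o))) => C2 o
    | .inr (.inr (.inr (.inr (.inl o)))) => C3 o
    | .inr (.inr (.inr (.inr (.inr (.inl e))))) => F e
    | .inr (.inr (.inr (.inr (.inr (.inr e))))) => R e
  left_inv := by intro x; cases x <;> rfl
  right_inv := by rintro (x | x | x | x | x | x | x) <;> rfl

theorem sum_cut {M : Type*} [AddCommMonoid M] (f : Cut I → M) :
    ∑ π, f π = ∑ x, f (A x) + (∑ x, f (B x) + (∑ o, f (C1 o) + (∑ o, f (C2 o) + (∑ o, f (C3 o)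
      + (∑ e, f (F e) + ∑ e, f (R e)))))) := by
  rw [← Equiv.sum_comp (cutEquiv I).symm f]
  simp only [Fintype.sum_sum_type]
  rfl

def letterEquiv (I : E3Lin) :
    Letter I ≃ (I.Occ × Fin 5) ⊕ I.Occ ⊕ Fin I.m ⊕ Fin I.m where
  toFun
    | z x => .inl x
    | g o => .inr (.inl o)
    | h e => .inr (.inr (.inl e))
    | q e => .inr (.inr (.inr e))
  invFun
    | .inl x => z x
    | .inr (.inl o) => g o
    | .inr (.inr (.inl e)) => h e
    | .inr (.inr (.inr e)) => q e
  left_inv := by intro x; cases x <;> rfl
  right_inv := by rintro (x | x | x | x) <;> rfl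

theorem sum_letter {M : Type*} [AddCommMonoid M] (f : Letter I → M) :
    ∑ a, f a = ∑ x, f (z x) + (∑ o, f (g o) + (∑ e, f (h e) + ∑ e, f (q e))) := by
  rw [← Equiv.sum_comp (letterEquiv I).symm f]
  simp only [Fintype.sum_sum_type]
  rfl

/-- monotonicity of the cost in the set of chosen cuts -/
theorem cost_mono {α C : Type*} [Fintype α] [DecidableEq α] [DecidableEq C] (fst lst : C → α)
    {K' K : Finset C} (hK : K' ⊆ K) :
    2 * K'.card + ∑ a : α, min (K.filter (fun π => fst π = a)).card
        (K.filter (fun π => lst π = a)).card ≤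
      2 * K.card + ∑ a : α, min (K'.filter (fun π => fst π = a)).card
        (K'.filter (fun π => lst π = a)).card := by
  have h1 : ∀ (f : C → α) (L : Finset C), L.card = ∑ a : α, (L.filter (fun π => f π = a)).card := by
    intro f L
    exact Finset.card_eq_sum_card_fiberwise (by intro x _; simp)
  have h2 : ∀ (f : C → α) (a : α), (K'.filter (fun π => f π = a)).card ≤
      (K.filter (fun π => f π = a)).card := by
    intro f a
    exact Finset.card_le_card (Finset.filter_subset_filter _ hK)
  have h3 : ∑ a : α, min (K.filter (fun π => fst π = a)).card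
        (K.filter (fun π => lst π = a)).card + ∑ a : α, (K'.filter (fun π => fst π = a)).card
        + ∑ a : α, (K'.filter (fun π => lst π = a)).card ≤
      ∑ a : α, min (K'.filter (fun π => fst π = a)).card
        (K'.filter (fun π => lst π = a)).card + ∑ a : α, (K.filter (fun π => fst π = a)).card
        + ∑ a : α, (K.filter (fun π => lst π = a)).card := by
    rw [← Finset.sum_add_distrib, ← Finset.sum_add_distrib, ← Finset.sum_add_distrib,
      ← Finset.sum_add_distrib]
    apply Finset.sum_le_sum
    intro a _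
    have e1 := h2 fst a
    have e2 := h2 lst a
    omega
  rw [← h1 fst, ← h1 lst, ← h1 fst, ← h1 lst] at h3
  omega

/-- the cost in terms of the imbalances -/
theorem cost_eq {α C : Type*} [Fintype α] [DecidableEq α] [Fintype C] [DecidableEq C]
    (fst lst : C → α) (κ : C → ℤ) (K : Finset C) (hκ : ∀ π, κ π = if π ∈ K then 1 else 0) :
    2 * (2 * (K.card : ℤ) - ∑ a : α, (min (K.filter (fun π => fst π = a)).card
        (K.filter (fun π => lst π = a)).card : ℕ)) =
      2 * ∑ π, κ π + ∑ a : α, |∑ π, κ π * ((if fst π = a then 1 else 0) -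
        (if lst π = a then 1 else 0))| := by
  have h1 : ∀ (f : C → α) (a : α), ((K.filter (fun π => f π = a)).card : ℤ) =
      ∑ π, κ π * (if f π = a then 1 else 0) := by
    intro f a
    rw [Finset.card_filter]
    push_cast
    rw [← Finset.sum_filter_add_sum_filter_not univ (fun π => π ∈ K)
      (fun π => κ π * (if f π = a then (1 : ℤ) else 0))]
    have e1 : ∑ x ∈ univ.filter (fun π => π ∉ K), κ x * (if f x = a then (1 : ℤ) else 0) = 0 := by
      apply Finset.sum_eq_zero
      intro x hx
      rw [hκ, if_neg (Finset.mem_filter.1 hx).2, zero_mul]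
    rw [e1, add_zero, Finset.filter_mem_eq_inter, Finset.univ_inter]
    apply Finset.sum_congr rfl
    intro x hx
    rw [hκ, if_pos hx, one_mul]
  have h2 : ∑ π, κ π = (K.card : ℤ) := by
    simp [hκ]
  have h3 : ∀ (f : C → α), (K.card : ℤ) = ∑ a : α, ((K.filter (fun π => f π = a)).card : ℤ) := by
    intro f
    exact_mod_cast Finset.card_eq_sum_card_fiberwise (f := f) (t := univ) (by intro x _; simp)
  have h4 : ∀ a : α, |∑ π, κ π * ((if fst π = a then (1 : ℤ) else 0) -
        (if lst π = a then 1 else 0))| = ((K.filter (fun π => fst π = a)).card : ℤ) +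
        ((K.filter (fun π => lst π = a)).card : ℤ) - 2 * ((min (K.filter (fun π => fst π = a)).card
        (K.filter (fun π => lst π = a)).card : ℕ) : ℤ) := by
    intro a
    simp only [mul_sub, Finset.sum_sub_distrib]
    rw [← h1 fst, ← h1 lst]
    generalize (K.filter (fun π => fst π = a)).card = x
    generalize (K.filter (fun π => lst π = a)).card = y
    rcases le_total x y with h | h
    · rw [abs_of_nonpos (by omega), min_eq_left h]; ring
    · rw [abs_of_nonneg (by omega), min_eq_right h]; ring
  simp_rw [h4]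
  rw [Finset.sum_sub_distrib, Finset.sum_add_distrib, ← h3 fst, ← h3 lst, ← Finset.mul_sum, h2]
  push_cast
  ring

end Vale.Agent.P333
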