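import Vale.Agent.P333.Glue
import Vale.Agent.P333.Base

namespace Vale.Agent.P333

open Finset Letter

variable {I : E3Lin} (nxt : Equiv.Perm I.Occ) (ord : Equiv.Perm (I.Occ × Fin 5))

/-- strings of an element -/
def El (x : I.Occ × Fin 5) : Set (List (Letter I)) := {sA I nxt ord x, sB I nxt ord x}

/-- strings of a contact -/
def Con (o : I.Occ) : Set (List (Letter I)) := {s1 I o, s2 I o, s3 I o}

def ccost (o : I.Occ) : ℕ := if Inv I o then 6 else 5

theorem el_one (x : I.Occ × Fin 5) : Cov (pre nxt x) (z x) 4 (El nxt ord x) := by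
  refine ⟨[pre nxt x, z x, z (ord x), pre nxt x, z x], rfl, rfl, rfl, ?_⟩
  rintro s (rfl | rfl)
  · exact ⟨[], [pre nxt x, z x], rfl⟩
  · exact ⟨[pre nxt x], [], rfl⟩

theorem el_zero (x : I.Occ × Fin 5) : Cov (z x) (z (ord x)) 4 (El nxt ord x) := by
  refine ⟨[z x, z (ord x), pre nxt x, z x, z (ord x)], rfl, rfl, rfl, ?_⟩
  rintro s (rfl | rfl)
  · exact ⟨[z x, z (ord x)], [], rfl⟩
  · exact ⟨[], [z (ord x)], rfl⟩

theorem con_one {o : I.Occ} (hI : ¬ Inv I o) : Cov (z (o, 0)) (g o) (ccost o) (Con o) := by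
  unfold ccost
  rw [if_neg hI]
  refine ⟨[z (o, 0), g o, h o.1, g (o.1, o.2 + 1), z (o, 0), g o], rfl, rfl, rfl, ?_⟩
  rintro s (rfl | rfl | rfl)
  · unfold s1; rw [if_neg hI]
    exact ⟨[], [g (o.1, o.2 + 1), z (o, 0), g o], rfl⟩
  · exact ⟨[z (o, 0)], [z (o, 0), g o], rfl⟩
  · unfold s3; rw [if_neg hI]
    exact ⟨[z (o, 0), g o], [], rfl⟩

theorem con_one' {o : I.Occ} (hI : Inv I o) : Cov (g o) (z (o, 0)) (ccost o) (Con o) := by
  unfold ccost
  rw [if_pos hI]
  refine ⟨[g o, z (o, 0), g o, h o.1, g (o.1, o.2 + 1), g o, z (o, 0)], rfl, rfl, rfl, ?_⟩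
  rintro s (rfl | rfl | rfl)
  · unfold s1; rw [if_pos hI]
    exact ⟨[], [g (o.1, o.2 + 1), g o, z (o, 0)], rfl⟩
  · exact ⟨[g o, z (o, 0)], [g o, z (o, 0)], rfl⟩
  · unfold s3; rw [if_pos hI]
    exact ⟨[g o, z (o, 0), g o], [], rfl⟩

theorem con_two (o : I.Occ) : Cov (g o) (h o.1) (ccost o) (Con o) := by
  unfold ccost
  by_cases hI : Inv I o
  · rw [if_pos hI]
    refine ⟨[g o, h o.1, g (o.1, o.2 + 1), g o, z (o, 0), g o, h o.1], rfl, rfl, rfl, ?_⟩
    rintro s (rfl | rfl | rfl)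
    · unfold s1; rw [if_pos hI]
      exact ⟨[g o, h o.1, g (o.1, o.2 + 1)], [], rfl⟩
    · exact ⟨[], [g o, z (o, 0), g o, h o.1], rfl⟩
    · unfold s3; rw [if_pos hI]
      exact ⟨[g o], [g o, h o.1], rfl⟩
  · rw [if_neg hI]
    refine ⟨[g o, h o.1, g (o.1, o.2 + 1), z (o, 0), g o, h o.1], rfl, rfl, rfl, ?_⟩
    rintro s (rfl | rfl | rfl)
    · unfold s1; rw [if_neg hI]
      exact ⟨[g o, h o.1, g (o.1, o.2 + 1)], [], rfl⟩
    · exact ⟨[], [z (o, 0), g o, h o.1], rfl⟩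
    · unfold s3; rw [if_neg hI]
      exact ⟨[g o], [h o.1], rfl⟩

theorem con_three (o : I.Occ) : Cov (h o.1) (g (o.1, o.2 + 1)) (ccost o) (Con o) := by
  unfold ccost
  by_cases hI : Inv I o
  · rw [if_pos hI]
    refine ⟨[h o.1, g (o.1, o.2 + 1), g o, z (o, 0), g o, h o.1, g (o.1, o.2 + 1)], rfl, rfl, rfl,
      ?_⟩
    rintro s (rfl | rfl | rfl)
    · unfold s1; rw [if_pos hI]
      exact ⟨[h o.1, g (o.1, o.2 + 1)], [g (o.1, o.2 + 1)], rfl⟩
    · exact ⟨[h o.1, g (o.1, o.2 + 1), g o, z (o, 0)], [], rfl⟩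
    · unfold s3; rw [if_pos hI]
      exact ⟨[], [g o, h o.1, g (o.1, o.2 + 1)], rfl⟩
  · rw [if_neg hI]
    refine ⟨[h o.1, g (o.1, o.2 + 1), z (o, 0), g o, h o.1, g (o.1, o.2 + 1)], rfl, rfl, rfl, ?_⟩
    rintro s (rfl | rfl | rfl)
    · unfold s1; rw [if_neg hI]
      exact ⟨[h o.1, g (o.1, o.2 + 1)], [g (o.1, o.2 + 1)], rfl⟩
    · exact ⟨[h o.1, g (o.1, o.2 + 1), z (o, 0)], [], rfl⟩
    · unfold s3; rw [if_neg hI]
      exact ⟨[], [h o.1, g (o.1, o.2 + 1)], rfl⟩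

theorem f_piece (e : Fin I.m) : Cov (z ((e, 2), 0)) (g (e, 2)) 2 {sF I e} := by
  refine ⟨sF I e, rfl, rfl, rfl, ?_⟩
  rintro s rfl
  exact List.infix_refl _

theorem r_piece (e : Fin I.m) : Cov (h e) (h (finRotate I.m e)) 1 {sR I e} := by
  refine ⟨sR I e, rfl, rfl, rfl, ?_⟩
  rintro s rfl
  exact List.infix_refl _

/-- `x` absorbs the contact `o` -/
def Abs (x : Fin I.n → Bool) (o : I.Occ) : Prop := (x (I.var o) = true ∧ ¬ Inv I o) ∨
  (x (I.var o) = false ∧ Inv I o)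

instance (x : Fin I.n → Bool) (o : I.Occ) : Decidable (Abs x o) := by unfold Abs; infer_instance

/-- the strings on the trail of a variable that belong to `o` -/
def blk (x : Fin I.n → Bool) (o : I.Occ) : Set (List (Letter I)) :=
  (⋃ i : Fin 5, El nxt ord (o, i)) ∪ {s | Inv I o ∧ s = sF I o.1} ∪ {s | Abs x o ∧ s ∈ Con o}

def bcost (x : Fin I.n → Bool) (o : I.Occ) : ℕ :=
  20 + (if Inv I o then 2 else 0) + (if Abs x o then ccost o else 0)

theorem contact_step (x : Fin I.n → Bool) (o : I.Occ) (hx : x (I.var o) = true) :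
    Cov (z (o, 0)) (g o) ((if Inv I o then 2 else 0) + (if Abs x o then ccost o else 0))
      ({s | Inv I o ∧ s = sF I o.1} ∪ {s | Abs x o ∧ s ∈ Con o}) := by
  by_cases hI : Inv I o
  · have hA : ¬ Abs x o := by simp [Abs, hx, hI]
    rw [if_pos hI, if_neg hA]
    have ho : ((o.1, 2) : I.Occ) = o := Prod.ext rfl hI.1.symm
    have := f_piece o.1
    rw [ho] at this
    refine this.mono ?_
    rintro s (⟨_, hs⟩ | ⟨hs, _⟩)
    · exact hs
    · exact absurd hs hA
  · have hA : Abs x o := Or.inl ⟨hx, hI⟩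
    rw [if_neg hI, if_pos hA, zero_add]
    refine (con_one hI).mono ?_
    rintro s (⟨hs, _⟩ | ⟨_, hs⟩)
    · exact absurd hs hI
    · exact hs

theorem block_one (x : Fin I.n → Bool) (o : I.Occ) (hx : x (I.var o) = true) :
    Cov (z (nxt.symm o, 4)) (z (o, 4)) (bcost x o) (blk nxt ord x o) := by
  have h0 := el_one nxt ord (o, 0)
  have h1 := contact_step x o hx
  have h2 := el_one nxt ord (o, 1)
  have h3 := el_one nxt ord (o, 2)
  have h4 := el_one nxt ord (o, 3)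
  have h5 := el_one nxt ord (o, 4)
  simp only [pre_0, pre_1, pre_2, pre_3, pre_4] at h0 h2 h3 h4 h5
  have := ((((h0.trans h1).trans h2).trans h3).trans h4).trans h5
  have hk : 4 + ((if Inv I o then 2 else 0) + (if Abs x o then ccost o else 0)) + 4 + 4 + 4 + 4 =
      bcost x o := by unfold bcost; omega
  rw [hk] at this
  refine this.mono ?_
  intro s hs
  rcases hs with (hs | hs) | hs
  · simp only [Set.mem_iUnion] at hs
    obtain ⟨i, hi⟩ := hs
    fin_cases i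
    · exact Or.inl (Or.inl (Or.inl (Or.inl (Or.inl hi))))
    · exact Or.inl (Or.inl (Or.inl (Or.inr hi)))
    · exact Or.inl (Or.inl (Or.inr hi))
    · exact Or.inl (Or.inr hi)
    · exact Or.inr hi
  · exact Or.inl (Or.inl (Or.inl (Or.inl (Or.inr (Or.inl hs)))))
  · exact Or.inl (Or.inl (Or.inl (Or.inl (Or.inr (Or.inr hs)))))

theorem elem_zero (x : Fin I.n → Bool) (y : I.Occ × Fin 5) (hx : x (I.var y.1) = false) :
    Cov (z y) (z (ord y)) (4 + if y.2 = 0 then (if Inv I y.1 then 2 else 0) +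
        (if Abs x y.1 then ccost y.1 else 0) else 0)
      (El nxt ord y ∪ {s | y.2 = 0 ∧ (s ∈ ({s | Inv I y.1 ∧ s = sF I y.1.1} ∪
        {s | Abs x y.1 ∧ s ∈ Con y.1} : Set (List (Letter I))))}) := by
  by_cases hy : y.2 = 0 ∧ Inv I y.1
  · obtain ⟨h0, hI⟩ := hy
    have hA : Abs x y.1 := Or.inr ⟨hx, hI⟩
    have hy' : y = (y.1, 0) := Prod.ext rfl h0
    have ho : ((y.1.1, 2) : I.Occ) = y.1 := Prod.ext rfl hI.1.symm
    rw [if_pos h0, if_pos hI, if_pos hA]
    have e1 := f_piece (I := I) y.1.1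
    rw [ho] at e1
    have e2 := con_one' hI
    have e3 := el_zero nxt ord y
    rw [← hy'] at e1 e2
    have e4 := (e1.trans e2).trans e3
    have hk : 2 + ccost y.1 + 4 = 4 + (2 + ccost y.1) := by omega
    rw [hk] at e4
    refine e4.mono ?_
    rintro s (hs | ⟨_, ⟨_, hs⟩ | ⟨_, hs⟩⟩)
    · exact Or.inr hs
    · exact Or.inl (Or.inl hs)
    · exact Or.inl (Or.inr hs)
  · have hk : (4 + if y.2 = 0 then (if Inv I y.1 then 2 else 0) +
        (if Abs x y.1 then ccost y.1 else 0) else 0) = 4 := by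
      by_cases h0 : y.2 = 0
      · have hI : ¬ Inv I y.1 := fun h => hy ⟨h0, h⟩
        have hA : ¬ Abs x y.1 := by simp [Abs, hx, hI]
        simp [h0, hI, hA]
      · simp [h0]
    rw [hk]
    refine (el_zero nxt ord y).mono ?_
    rintro s (hs | ⟨h0, ⟨hI, _⟩ | ⟨hA, _⟩⟩)
    · exact hs
    · exact absurd ⟨h0, hI⟩ hy
    · have hI : ¬ Inv I y.1 := fun h => hy ⟨h0, h⟩
      simp [Abs, hx, hI] at hA

theorem var_trail (W : Wheels I) (x : Fin I.n → Bool) (v : Fin I.n) :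
    Sup (∑ o ∈ I.occ v, bcost x o + 1) (⋃ o ∈ I.occ v, blk W.nxt W.ord x o) := by
  rcases (I.occ v).eq_empty_or_nonempty with he | ⟨o, ho⟩
  · rw [he]
    refine Sup.empty.mono ?_ (by simp)
    simp
  have hocc : ∀ o, o ∈ I.occ v ↔ I.var o = v := by
    intro o; simp [E3Lin.occ]
  by_cases hx : x v = true
  · have := Cov.cycle W.nxt (fun o => (z (W.nxt.symm o, 4) : Letter I)) (bcost x)
      (blk W.nxt W.ord x) (I.occ v) (by
        intro o ho
        simp only [Equiv.symm_apply_apply]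
        exact block_one W.nxt W.ord x o (by rw [(hocc o).1 ho]; exact hx)) (by
        intro o ho
        rw [hocc] at ho ⊢
        rw [W.nxt_var, ho]) (by
        intro o ho o' ho'
        rw [hocc] at ho ho'
        exact W.nxt_cycle o o' (by rw [ho, ho'])) o ho
    exact this.sup
  · have hx' : x v = false := by simpa using hx
    have hS : ∀ y : I.Occ × Fin 5, y ∈ (I.occ v) ×ˢ (univ : Finset (Fin 5)) ↔ I.var y.1 = v := by
      intro y
      rw [mem_product, hocc]; simp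
    have := Cov.cycle W.ord (fun y => (z y : Letter I)) (fun y => 4 + if y.2 = 0 then
        (if Inv I y.1 then 2 else 0) + (if Abs x y.1 then ccost y.1 else 0) else 0)
      (fun y => El W.nxt W.ord y ∪ {s | y.2 = 0 ∧ (s ∈ ({s | Inv I y.1 ∧ s = sF I y.1.1} ∪
        {s | Abs x y.1 ∧ s ∈ Con y.1} : Set (List (Letter I))))})
      ((I.occ v) ×ˢ (univ : Finset (Fin 5))) (by
        intro y hy
        exact elem_zero W.nxt W.ord x y (by rw [(hS y).1 hy]; exact hx')) (by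
        intro y hy
        rw [hS] at hy ⊢
        rw [W.ord_var, hy]) (by
        intro y hy y' hy'
        rw [hS] at hy hy'
        exact W.ord_cycle y y' (by rw [hy, hy'])) (o, 0) ((hS _).2 ((hocc o).1 ho))
    refine this.sup.mono ?_ ?_
    · intro s hs
      simp only [Set.mem_iUnion] at hs ⊢
      obtain ⟨o', ho', hs⟩ := hs
      rcases hs with (hs | hs) | hs
      · simp only [Set.mem_iUnion] at hs
        obtain ⟨i, hi⟩ := hs
        exact ⟨(o', i), (hS _).2 ((hocc o').1 ho'), Or.inl hi⟩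
      · exact ⟨(o', 0), (hS _).2 ((hocc o').1 ho'), Or.inr ⟨rfl, Or.inl hs⟩⟩
      · exact ⟨(o', 0), (hS _).2 ((hocc o').1 ho'), Or.inr ⟨rfl, Or.inr hs⟩⟩
    · rw [Finset.sum_product]
      apply Nat.add_le_add_right
      apply Finset.sum_le_sum
      intro o _
      rw [Fin.sum_univ_five]
      simp [bcost]
      omega

end Vale.Agent.P333
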