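import Vale.Agent.P333.Upper

namespace Vale.Agent.P333

open Finset Letter

variable {I : E3Lin}

/-- the part of the ring at equation `e` -/
theorem ring_step (x : Fin I.n → Bool) (e : Fin I.m) : ∃ R L : Finset (Fin 3),
    (∀ j, Abs x (e, j) ∨ j ∈ R ∨ j ∈ L) ∧
    ∑ j : Fin 3, (if Abs x (e, j) then ccost (e, j) else 0) + ∑ j ∈ R, ccost (e, j) +
      ∑ j ∈ L, ccost (e, j) = ∑ j : Fin 3, ccost (e, j) ∧
    L.card ≤ (if I.Viol x e then 1 else 0) ∧
    Cov (h e : Letter I) (h (finRotate I.m e)) (∑ j ∈ R, ccost (e, j) + 1)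
      ({sR I e} ∪ ⋃ j ∈ R, Con (e, j)) := by
  have two : ∀ a : Fin 3, Cov (h e : Letter I) (h (finRotate I.m e))
      (∑ j ∈ ({a, a + 1} : Finset (Fin 3)), ccost (I := I) (e, j) + 1)
      ({sR I e} ∪ ⋃ j ∈ ({a, a + 1} : Finset (Fin 3)), Con (e, j)) := by
    intro a
    have e1 := con_three (I := I) (e, a)
    have e2 := con_two (I := I) (e, a + 1)
    have e3 := (e1.trans e2).trans (r_piece e)
    have hne : a ≠ a + 1 := (by decide : ∀ a : Fin 3, a ≠ a + 1) a
    rw [Finset.sum_pair hne]
    refine e3.mono ?_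
    rintro s (hs | hs)
    · exact Or.inr hs
    · simp only [Set.mem_iUnion, mem_insert, mem_singleton] at hs
      obtain ⟨j, rfl | rfl, hj⟩ := hs
      · exact Or.inl (Or.inl hj)
      · exact Or.inl (Or.inr hj)
  have none' : Cov (h e : Letter I) (h (finRotate I.m e))
      (∑ j ∈ (∅ : Finset (Fin 3)), ccost (I := I) (e, j) + 1)
      ({sR I e} ∪ ⋃ j ∈ (∅ : Finset (Fin 3)), Con (e, j)) := by
    simpa using r_piece e
  have hA : ∀ j, Abs x (e, j) ↔ (xor (x (I.var (e, j))) (decide (j = 2 ∧ I.rhs e = false))) =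
      true := by
    intro j
    unfold Abs Inv
    cases x (I.var (e, j)) <;> by_cases h2 : j = 2 ∧ I.rhs e = false <;> simp [h2]
  have hV : I.Viol x e ↔ ¬ (xor (decide (Abs x (e, 0))) (xor (decide (Abs x (e, 1)))
      (decide (Abs x (e, 2)))) = true) := by
    unfold E3Lin.Viol
    simp only [hA]
    cases x (I.var (e, 0)) <;> cases x (I.var (e, 1)) <;> cases x (I.var (e, 2)) <;>
      cases I.rhs e <;> simp
  by_cases a0 : Abs x (e, 0) <;> by_cases a1 : Abs x (e, 1) <;> by_cases a2 : Abs x (e, 2) <;>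
    simp only [a0, a1, a2, decide_true, decide_false, Bool.xor_true, Bool.xor_false,
      Bool.not_true, Bool.not_false, not_true, not_false_eq_true, Bool.false_eq_true, iff_true,
      iff_false] at hV
  · refine ⟨∅, ∅, ?_, ?_, ?_, none'⟩
    · intro j; fin_cases j
      · exact Or.inl a0
      · exact Or.inl a1
      · exact Or.inl a2
    · simp [Fin.sum_univ_three, a0, a1, a2]
    · simp
  · refine ⟨∅, {2}, ?_, ?_, ?_, none'⟩
    · intro j; fin_cases j
      · exact Or.inl a0
      · exact Or.inl a1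
      · exact Or.inr (Or.inr (by simp))
    · simp [Fin.sum_univ_three, a0, a1, a2]
    · simp [hV]
  · refine ⟨∅, {1}, ?_, ?_, ?_, none'⟩
    · intro j; fin_cases j
      · exact Or.inl a0
      · exact Or.inr (Or.inr (by simp))
      · exact Or.inl a2
    · simp [Fin.sum_univ_three, a0, a1, a2]; ring
    · simp [hV]
  · refine ⟨{1, 1 + 1}, ∅, ?_, ?_, ?_, two 1⟩
    · intro j; fin_cases j
      · exact Or.inl a0
      · exact Or.inr (Or.inl (by simp))
      · exact Or.inr (Or.inl (by simp))
    · rw [Finset.sum_pair (by decide)]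
      simp [Fin.sum_univ_three, a0, a1, a2]; ring
    · simp
  · refine ⟨∅, {0}, ?_, ?_, ?_, none'⟩
    · intro j; fin_cases j
      · exact Or.inr (Or.inr (by simp))
      · exact Or.inl a1
      · exact Or.inl a2
    · simp [Fin.sum_univ_three, a0, a1, a2]; ring
    · simp [hV]
  · refine ⟨{2, 2 + 1}, ∅, ?_, ?_, ?_, two 2⟩
    · intro j; fin_cases j
      · exact Or.inr (Or.inl (by decide))
      · exact Or.inl a1
      · exact Or.inr (Or.inl (by simp))
    · rw [Finset.sum_pair (by decide)]
      simp [Fin.sum_univ_three, a0, a1, a2]; ring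
    · simp
  · refine ⟨{0, 0 + 1}, ∅, ?_, ?_, ?_, two 0⟩
    · intro j; fin_cases j
      · exact Or.inr (Or.inl (by simp))
      · exact Or.inr (Or.inl (by simp))
      · exact Or.inl a2
    · rw [Finset.sum_pair (by decide)]
      simp [Fin.sum_univ_three, a0, a1, a2]; ring
    · simp
  · refine ⟨{0, 0 + 1}, {2}, ?_, ?_, ?_, two 0⟩
    · intro j; fin_cases j
      · exact Or.inr (Or.inl (by simp))
      · exact Or.inr (Or.inl (by simp))
      · exact Or.inr (Or.inr (by simp))
    · rw [Finset.sum_pair (by decide)]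
      simp [Fin.sum_univ_three, a0, a1, a2]
    · simp [hV]

theorem finRotate_sameCycle' {k : ℕ} (a b : Fin k) : (finRotate k).SameCycle a b := by
  rcases k with _ | _ | n
  · exact a.elim0
  · have : a = b := by
      apply Fin.ext
      have h1 := a.2
      have h2 := b.2
      omega
    rw [this]
  · have h := isCycle_finRotate (n := n)
    have hne : ∀ x : Fin (n + 2), finRotate (n + 2) x ≠ x := by
      intro x
      have := support_finRotate (n := n)
      have hx : x ∈ (finRotate (n + 2)).support := by rw [this]; exact mem_univ _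
      exact Equiv.Perm.mem_support.1 hx
    exact h.sameCycle (hne a) (hne b)

theorem sum_occ {M : Type*} [AddCommMonoid M] (f : I.Occ → M) :
    ∑ v, ∑ o ∈ I.occ v, f o = ∑ o, f o :=
  Finset.sum_fiberwise_of_maps_to (g := I.var) (by intro x _; exact mem_univ _) _

theorem card_Inv' (I : E3Lin) : ∑ o : I.Occ, (if Inv I o then 1 else 0) = I.m0 := by
  rw [← Finset.card_filter]
  unfold E3Lin.m0
  symm
  apply Finset.card_bij (fun e _ => (e, (2 : Fin 3)))
  · intro e he
    simp only [mem_filter, mem_univ, true_and] at he ⊢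
    exact ⟨rfl, he⟩
  · intro a _ b _ hab
    exact congrArg Prod.fst hab
  · rintro ⟨e, j⟩ ho
    simp only [mem_filter, mem_univ, true_and] at ho
    obtain ⟨h1, h2⟩ := ho
    refine ⟨e, ?_, ?_⟩
    · simpa using h2
    · simp only at h1
      rw [h1]

theorem upper_exists (W : Wheels I) (x : Fin I.n → Bool) :
    ∃ T, IsSuperstring (strings I W.nxt W.ord) T ∧
      T.length ≤ 76 * I.m + 3 * I.m0 + I.unsat x + I.n + 1 := by
  rcases Nat.eq_zero_or_pos I.m with hm | hm
  · refine ⟨[], ?_, by simp⟩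
    have hempty : IsEmpty (Fin I.m) := by rw [hm]; infer_instance
    intro s hs
    exfalso
    simp only [strings_def, mem_union, mem_image, mem_univ, true_and, mem_filter] at hs
    rcases hs with (((((⟨y, _⟩ | ⟨y, _⟩) | ⟨y, _⟩) | ⟨y, _⟩) | ⟨y, _⟩) | ⟨y, _⟩) | ⟨y, _⟩
    · exact hempty.false y.1.1
    · exact hempty.false y.1.1
    · exact hempty.false y.1
    · exact hempty.false y.1
    · exact hempty.false y.1
    · exact hempty.false y
    · exact hempty.false y
  choose R L hcov hsum hL hring using fun e => ring_step (I := I) x e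
  have S1 := Sup.biUnion (univ : Finset (Fin I.n)) (fun v => ∑ o ∈ I.occ v, bcost x o + 1)
    (fun v => ⋃ o ∈ I.occ v, blk W.nxt W.ord x o) (fun v _ => var_trail W x v)
  have S2 := (Cov.cycle (finRotate I.m) (fun e => (h e : Letter I))
    (fun e => ∑ j ∈ R e, ccost (e, j) + 1)
    (fun e => {sR I e} ∪ ⋃ j ∈ R e, Con (e, j)) univ (fun e _ => hring e)
    (fun _ _ => mem_univ _) (fun a _ b _ => finRotate_sameCycle' a b) ⟨0, hm⟩ (mem_univ _)).sup
  have S3 := Sup.biUnion (univ : Finset (Fin I.m)) (fun e => ∑ j ∈ L e, (ccost (I := I) (e, j) + 1))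
    (fun e => ⋃ j ∈ L e, Con (e, j)) (fun e _ => Sup.biUnion (L e) _ _
      fun j _ => (con_two (I := I) (e, j)).sup)
  obtain ⟨T, hT1, hT2⟩ := (S1.union S2).union S3
  refine ⟨T, ?_, hT1.trans ?_⟩
  · have hblk : ∀ o, ∀ s ∈ blk W.nxt W.ord x o, s <:+: T := by
      intro o s hs
      apply hT2
      refine Or.inl (Or.inl ?_)
      simp only [Set.mem_iUnion]
      exact ⟨I.var o, mem_univ _, o, by simp [E3Lin.occ], hs⟩
    have hcon : ∀ o : I.Occ, ∀ s ∈ Con o, s <:+: T := by
      rintro ⟨e, j⟩ s hs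
      rcases hcov e j with h1 | h1 | h1
      · exact hblk (e, j) s (Or.inr ⟨h1, hs⟩)
      · apply hT2
        refine Or.inl (Or.inr ?_)
        simp only [Set.mem_iUnion]
        refine ⟨e, mem_univ _, Or.inr ?_⟩
        simp only [Set.mem_iUnion]
        exact ⟨j, h1, hs⟩
      · apply hT2
        refine Or.inr ?_
        simp only [Set.mem_iUnion]
        exact ⟨e, mem_univ _, j, h1, hs⟩
    have hel : ∀ y, ∀ s ∈ El W.nxt W.ord y, s <:+: T := by
      rintro ⟨o, i⟩ s hs
      apply hblk o s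
      refine Or.inl (Or.inl ?_)
      simp only [Set.mem_iUnion]
      exact ⟨i, hs⟩
    intro s hs
    simp only [strings_def, mem_union, mem_image, mem_univ, true_and, mem_filter] at hs
    rcases hs with (((((⟨y, rfl⟩ | ⟨y, rfl⟩) | ⟨y, rfl⟩) | ⟨y, rfl⟩) | ⟨y, rfl⟩) |
      ⟨y, hy, rfl⟩) | ⟨y, rfl⟩
    · exact hel y _ (Or.inl rfl)
    · exact hel y _ (Or.inr rfl)
    · exact hcon y _ (Or.inl rfl)
    · exact hcon y _ (Or.inr (Or.inl rfl))
    · exact hcon y _ (Or.inr (Or.inr rfl))
    · exact hblk (y, 2) _ (Or.inl (Or.inr ⟨⟨rfl, hy⟩, rfl⟩))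
    · apply hT2
      refine Or.inl (Or.inr ?_)
      simp only [Set.mem_iUnion]
      exact ⟨y, mem_univ _, Or.inl rfl⟩
  · have e1 : ∑ v, (∑ o ∈ I.occ v, bcost x o + 1) =
        60 * I.m + 2 * I.m0 + ∑ e, ∑ j : Fin 3, (if Abs x (e, j) then ccost (I := I) (e, j) else 0)
          + I.n := by
      rw [Finset.sum_add_distrib, sum_occ]
      have : ∀ o : I.Occ, bcost x o = 20 + 2 * (if Inv I o then 1 else 0) +
          (if Abs x o then ccost o else 0) := by
        intro o
        unfold bcost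
        by_cases hI : Inv I o <;> simp [hI]
      simp_rw [this]
      rw [Finset.sum_add_distrib, Finset.sum_add_distrib, ← Finset.mul_sum, card_Inv',
        Fintype.sum_prod_type (f := fun o : I.Occ => if Abs x o then ccost o else 0)]
      simp
      ring
    have e2 : ∑ e, (∑ j ∈ R e, ccost (I := I) (e, j) + 1) =
        ∑ e, ∑ j ∈ R e, ccost (I := I) (e, j) + I.m := by
      rw [Finset.sum_add_distrib]; simp
    have e3 : ∑ e, ∑ j ∈ L e, (ccost (I := I) (e, j) + 1) ≤
        ∑ e, ∑ j ∈ L e, ccost (I := I) (e, j) + I.unsat x := by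
      rw [unsat_def]
      rw [Finset.card_filter, ← Finset.sum_add_distrib]
      apply Finset.sum_le_sum
      intro e _
      rw [Finset.sum_add_distrib]
      have := hL e
      simp only [Finset.sum_const, smul_eq_mul, mul_one]
      omega
    have e4 : ∑ e, ∑ j : Fin 3, (if Abs x (e, j) then ccost (I := I) (e, j) else 0) +
        ∑ e, ∑ j ∈ R e, ccost (I := I) (e, j) + ∑ e, ∑ j ∈ L e, ccost (I := I) (e, j) =
        15 * I.m + I.m0 := by
      rw [← Finset.sum_add_distrib, ← Finset.sum_add_distrib, Finset.sum_congr rfl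
        fun e _ => hsum e, ← Fintype.sum_prod_type (f := fun o : I.Occ => ccost o)]
      have : ∀ o : I.Occ, ccost o = 5 + (if Inv I o then 1 else 0) := by
        intro o
        unfold ccost
        by_cases hI : Inv I o <;> simp [hI]
      simp_rw [this]
      rw [Finset.sum_add_distrib, card_Inv']
      simp
      ring
    rw [e1, e2]
    omega

theorem upper (I : E3Lin) (W : Wheels I) (x : Fin I.n → Bool) :
    opt (strings I W.nxt W.ord) ≤ 76 * I.m + 3 * I.m0 + I.unsat x + I.n + 1 := by
  obtain ⟨T, hT, hl⟩ := upper_exists W x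
  exact le_trans (Nat.sInf_le ⟨T, hT, rfl⟩) hl

end Vale.Agent.P333
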